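import Vale.Agent.P072.Net

/-!
# P072: measurable time-dependent rates, Carathéodory solutions, uniform permanence
-/

namespace P072

/-- Rates with values in `[ε, ε⁻¹]` at one time. -/
def RateOK {d : ℕ} (net : Network d) (ε : ℝ) (κ : (Fin d → ℕ) × (Fin d → ℕ) → ℝ) : Prop :=
  ∀ r ∈ net.reactions, ε ≤ κ r ∧ κ r ≤ ε⁻¹

/-- Measurable rate functions with values in `[ε, ε⁻¹]` (at nonnegative times). -/
structure Rates {d : ℕ} (net : Network d) (ε : ℝ) (k : ℝ → (Fin d → ℕ) × (Fin d → ℕ) → ℝ) :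
    Prop where
  meas : ∀ r ∈ net.reactions, Measurable fun t => k t r
  bounds : ∀ t, 0 ≤ t → RateOK net ε (k t)

/-- Carathéodory solution of `x' = F(t, x)` on the interval `J` of starting time `t0 ∈ J`:
`x` is continuous on `J` and `x t = x t0 + ∫_{t0}^t F(s, x(s)) ds` on `J`. -/
def IsCSol {d : ℕ} (F : ℝ → (Fin d → ℝ) → (Fin d → ℝ)) (t0 : ℝ) (J : Set ℝ)
    (x : ℝ → (Fin d → ℝ)) : Prop :=
  ContinuousOn x J ∧ ∀ t ∈ J, x t = x t0 + ∫ s in t0..t, F s (x s)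

/-- The time-dependent mass-action field. -/
noncomputable def Network.field {d : ℕ} (net : Network d)
    (k : ℝ → (Fin d → ℕ) × (Fin d → ℕ) → ℝ) (t : ℝ) (x : Fin d → ℝ) : Fin d → ℝ :=
  net.massAction (k t) x

/-- Uniform permanence on `P` for all measurable rate functions with values in `[ε, ε⁻¹]`: every
solution starting in `P` extends to a unique solution on `[0, ∞)`, which stays in `P`, and some
compact `K ⊆ P`, the same for all rate functions, captures all these solutions. -/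
def PermanentOn2 {d : ℕ} (net : Network d) (ε : ℝ) (P : Set (Fin d → ℝ)) : Prop :=
  (∀ k, Rates net ε k → ∀ x0 ∈ P, ∃ x : ℝ → (Fin d → ℝ), x 0 = x0 ∧
    IsCSol (net.field k) 0 (Set.Ici 0) x ∧ (∀ t, 0 ≤ t → x t ∈ P) ∧
    ∀ (T : ℝ) (y : ℝ → (Fin d → ℝ)), 0 < T → y 0 = x0 → IsCSol (net.field k) 0 (Set.Ico 0 T) y →
      ∀ t ∈ Set.Ico 0 T, y t = x t) ∧
  ∃ K : Set (Fin d → ℝ), IsCompact K ∧ K ⊆ P ∧
    ∀ k, Rates net ε k → ∀ x : ℝ → (Fin d → ℝ), x 0 ∈ P → IsCSol (net.field k) 0 (Set.Ici 0) x →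
      ∃ T : ℝ, ∀ t, T ≤ t → x t ∈ K

end P072
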