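import Vale.Agent.P072.Statements
import Vale.Agent.P072.NetVar

/-!
# P072: the strengthening to measurable time-dependent rates

Same potentials (`S_POT`), same box lemma (`S_BOX`); the other modules of part 2 are repeated for
Carathéodory solutions with measurable rates with values in `[ε, ε⁻¹]`.
-/

namespace P072

open Finset Filter Topology

/-- Forward invariance for all rate functions. -/
def FwdInv2 {d : ℕ} (net : Network d) (ε : ℝ) (P : Set (Fin d → ℝ)) : Prop :=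
  ∀ k, Rates net ε k → ∀ (x : ℝ → (Fin d → ℝ)) (t0 t1 : ℝ), 0 ≤ t0 → t0 < t1 →
    IsCSol (net.field k) t0 (Set.Icc t0 t1) x → x t0 ∈ P → ∀ t ∈ Set.Icc t0 t1, x t ∈ P

/-- Local forward invariance of `F` at `p` for all rate functions. -/
def LocInv2 {d : ℕ} (net : Network d) (ε : ℝ) (F : Set (Fin d → ℝ)) (p : Fin d → ℝ) : Prop :=
  ∀ k, Rates net ε k → ∀ (x : ℝ → (Fin d → ℝ)) (t0 t1 : ℝ), 0 ≤ t0 → t0 < t1 →
    IsCSol (net.field k) t0 (Set.Icc t0 t1) x → x t0 = p → ∀ᶠ t in 𝓝[>] t0, x t ∈ F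

/-- **U1** (cf. T9): `b` depends only on `net` and `ε`. -/
def S2_DYN : Prop := ∀ (d : ℕ) (net : Network d) (ε : ℝ), net.WeaklyReversible → 0 < ε →
  ∃ b : ℝ, 0 < b ∧ ∀ κ, RateOK net ε κ → ∀ (x v : Fin d → ℝ), (∀ i, 0 < x i) →
      (∀ r ∈ net.diffs, 0 < ∑ i, r i * v i →
        b ≤ ∑ i, r i * v i ∧ ∑ i, r i * v i ≤ 4 * ∑ i, r i * Real.log (x i)) →
      (∀ r ∈ net.reactions, ∑ i, rvec r i * v i = 0) ∨
      ∃ r ∈ net.reactions, ∑ i, v i * net.massAction κ x i ≤ -(b / 2 * (ε * ∏ i, x i ^ r.1 i))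

/-- **U2** (cf. T10): local non-increase.  `V(x t) ⬝ (x t - p) = ∫_{t0}^t V(x t) ⬝ F(s, x s) ds`;
`V(x t) ⬝ F(s, x t) ≤ -a` for all `s` and `|F(s, x s) - F(s, x t)|` is small uniformly. -/
def S2_LOCN : Prop := ∀ (d : ℕ) (net : Network d) (ε : ℝ)
    (W : (Fin d → ℝ) → ℝ) (V : (Fin d → ℝ) → (Fin d → ℝ)) (p : Fin d → ℝ) (a Bd : ℝ),
  0 < ε → 0 < a →
  (∀ᶠ y in 𝓝 p, W y + ∑ i, V y i * (p i - y i) ≤ W p) →
  (∀ᶠ y in 𝓝 p, ∀ i, |V y i| ≤ Bd) →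
  (∀ᶠ y in 𝓝 p, (∀ r ∈ net.reactions, ∑ i, rvec r i * V y i = 0) ∨
    ∀ κ, RateOK net ε κ → ∑ i, V y i * net.massAction κ y i ≤ -a) →
  ∀ k, Rates net ε k → ∀ (x : ℝ → (Fin d → ℝ)) (t0 t1 : ℝ), 0 ≤ t0 → t0 < t1 →
    IsCSol (net.field k) t0 (Set.Icc t0 t1) x → x t0 = p → ∀ᶠ t in 𝓝[>] t0, W (x t) ≤ W p

/-- **U3** (cf. T11). -/
def S2_FACE : Prop := ∀ (d : ℕ) (net : Network d) (ε : ℝ), net.WeaklyReversible → 0 < ε →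
  ∀ (K0 : Set (Fin d → ℝ)), IsCompact K0 → (∀ x ∈ K0, ∀ i, 0 < x i) →
  ∀ (I : Finset (Fin d)), I.Nonempty → ∀ (Bd ρ : ℝ), 0 < ρ →
  ∃ (F : Set (Fin d → ℝ)) (ρ' : ℝ), 0 < ρ' ∧ K0 ⊆ F ∧ (∀ x ∈ F, ∀ i, 0 < x i) ∧
    (∀ x, (∀ i, 0 < x i) → x ∈ closure F → x ∈ F) ∧ (∀ x ∈ F, ∃ i ∈ I, ρ' ≤ x i) ∧
    ∀ p ∈ F, (∀ i, p i ≤ Bd) → (∀ j, j ∉ I → ∃ i ∈ insert j I, ρ ≤ p i) →
      LocInv2 net ε F p

/-- **U4** (cf. T12). -/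
def S2_TOP : Prop := ∀ (d : ℕ) (net : Network d) (ε : ℝ), net.WeaklyReversible → 0 < ε →
  ∀ (K0 : Set (Fin d → ℝ)), IsCompact K0 → (∀ x ∈ K0, ∀ i, 0 < x i) →
  ∃ (F : Set (Fin d → ℝ)) (Bd : ℝ), K0 ⊆ F ∧ (∀ x ∈ F, ∀ i, 0 < x i) ∧
    (∀ x, (∀ i, 0 < x i) → x ∈ closure F → x ∈ F) ∧ (∀ x ∈ F, ∀ i, x i ≤ Bd) ∧
    ∀ p ∈ F, LocInv2 net ε F p

/-- **U5** (cf. T13). -/
def S2_INV : Prop := ∀ (d : ℕ) (net : Network d) (ε : ℝ), net.WeaklyReversible → 0 < ε →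
  ∀ (K0 : Set (Fin d → ℝ)), IsCompact K0 → (∀ x ∈ K0, ∀ i, 0 < x i) →
  ∃ P : Set (Fin d → ℝ), IsCompact P ∧ K0 ⊆ P ∧ (∀ x ∈ P, ∀ i, 0 < x i) ∧ FwdInv2 net ε P

/-- **U6a**: uniqueness (integral Grönwall; polynomials are Lipschitz on bounded sets). -/
def S2_UNIQ : Prop := ∀ (d : ℕ) (net : Network d) (ε : ℝ)
    (k : ℝ → (Fin d → ℕ) × (Fin d → ℕ) → ℝ), 0 < ε → Rates net ε k →
  ∀ (x y : ℝ → (Fin d → ℝ)) (T : ℝ), IsCSol (net.field k) 0 (Set.Ici 0) x →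
    IsCSol (net.field k) 0 (Set.Ico 0 T) y → x 0 = y 0 → ∀ t ∈ Set.Ico 0 T, y t = x t

/-- **U6b**: global Carathéodory solutions from compact forward invariant sets.  (Cut off the
field outside a box: bounded, measurable in `t`, Lipschitz in `x`; Picard iteration / Banach fixed
point on `C([0, T])`; restart or use an iterate / weighted norm; continuous induction; glue.) -/
def S2_GLOB : Prop := ∀ (d : ℕ) (net : Network d) (ε : ℝ)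
    (k : ℝ → (Fin d → ℕ) × (Fin d → ℕ) → ℝ), 0 < ε → Rates net ε k →
  ∀ P : Set (Fin d → ℝ), IsCompact P → FwdInv2 net ε P → ∀ x0 ∈ P,
    ∃ x : ℝ → (Fin d → ℝ), x 0 = x0 ∧ IsCSol (net.field k) 0 (Set.Ici 0) x ∧
      ∀ t, 0 ≤ t → x t ∈ P

/-- **U7** (cf. T15). -/
def S2_CLASS : Prop := ∀ (d : ℕ) (net : Network d)
    (k : ℝ → (Fin d → ℕ) × (Fin d → ℕ) → ℝ) (x : ℝ → (Fin d → ℝ)),
  IsCSol (net.field k) 0 (Set.Ici 0) x → ∀ t, 0 ≤ t → x t - x 0 ∈ net.stoich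

/-- **U8** (cf. T17). -/
def S2_ENTER : Prop := ∀ (d : ℕ) (net : Network d) (ε : ℝ)
    (k : ℝ → (Fin d → ℕ) × (Fin d → ℕ) → ℝ)
    (Rs : Finset (Fin d → ℝ)) (b b' M : ℝ) (W : (Fin d → ℝ) → ℝ) (V : (Fin d → ℝ) → (Fin d → ℝ))
    (P : Set (Fin d → ℝ)) (x : ℝ → (Fin d → ℝ)),
  0 < ε → Rates net ε k → 0 < b → IsPotOn univ Rs b' M W V →
  (∀ κ, RateOK net ε κ → ∀ y, (∀ i, 0 < y i) →
    (∀ r ∈ net.reactions, ∑ i, rvec r i * V y i = 0) ∨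
    ∃ r ∈ net.reactions, ∑ i, V y i * net.massAction κ y i ≤ -(b / 2 * (ε * ∏ i, y i ^ r.1 i))) →
  IsCompact P → (∀ y ∈ P, ∀ i, 0 < y i) → IsCSol (net.field k) 0 (Set.Ici 0) x →
  (∀ t, 0 ≤ t → x t ∈ P) →
  ∃ t, 0 ≤ t ∧ ∀ r ∈ net.reactions, ∑ i, rvec r i * V (x t) i = 0

/-- **U9**: the theorem for measurable rates. -/
def S2_FINAL : Prop := ∀ (d : ℕ) (net : Network d) (ε : ℝ), net.WeaklyReversible → 0 < ε →
  ∀ c : Fin d → ℝ, (∀ i, 0 < c i) → PermanentOn2 net ε (net.posClass c)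

end P072
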