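import Vale.Agent.P072.Face
import Vale.Agent.P072.Statements2

/-!
# P072, U3 and U4 : the barriers for measurable time-dependent rates
-/

namespace P072

open Finset Filter Topology

/-- solutions for some admissible rate function -/
def Sol2 {d : ℕ} (net : Network d) (ε : ℝ) (x : ℝ → (Fin d → ℝ)) (t0 t1 : ℝ) : Prop :=
  ∃ k, Rates net ε k ∧ 0 ≤ t0 ∧ IsCSol (net.field k) t0 (Set.Icc t0 t1) x

theorem absDec2_of (hLOCN : S2_LOCN) {d : ℕ} (net : Network d) (ε : ℝ) (hε : 0 < ε)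
    (b : ℝ) (hb : 0 < b)
    (hdyn : ∀ κ, RateOK net ε κ → ∀ (x v : Fin d → ℝ), (∀ i, 0 < x i) →
      (∀ r ∈ net.diffs, 0 < ∑ i, r i * v i →
        b ≤ ∑ i, r i * v i ∧ ∑ i, r i * v i ≤ 4 * ∑ i, r i * Real.log (x i)) →
      (∀ r ∈ net.reactions, ∑ i, rvec r i * v i = 0) ∨
      ∃ r ∈ net.reactions, ∑ i, v i * net.massAction κ x i ≤
        -(b / 2 * (ε * ∏ i, x i ^ r.1 i))) :
    AbsDec net b (Sol2 net ε) := by
  intro I b' M W V p hp hpot hcomp x t0 t1 ht hx hxp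
  obtain ⟨k, hk, ht0, hx⟩ := hx
  obtain ⟨Bd, hBd⟩ := pot_bdd hpot hp
  obtain ⟨a, ha, ha'⟩ := mono_lower net (fun _ => ε) b hb (fun _ _ => hε) hp
  refine hLOCN d net ε W V p a Bd hε ha ?_ hBd ?_ k hk x t0 t1 ht0 ht hx hxp
  · filter_upwards [eventually_pos hp] with y hy using hpot.sub y p hy hp
  · filter_upwards [eventually_pos hp, hcomp, ha'] with y hy hc h1
    by_cases h : ∀ r ∈ net.reactions, ∑ i, rvec r i * V y i = 0
    · exact Or.inl h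
    · right
      intro κ hκ
      rcases hdyn κ hκ y (V y) hy hc with h2 | ⟨r, hr, h2⟩
      · exact absurd h2 h
      · exact h2.trans (by linarith [h1 r hr])

lemma Sol2.contOn {d : ℕ} (net : Network d) (ε : ℝ) :
    ∀ x t0 t1, t0 < t1 → Sol2 net ε x t0 t1 → ContinuousOn x (Set.Icc t0 t1) := by
  rintro x t0 t1 _ ⟨k, _, _, h⟩
  exact h.1

theorem top2 (hPOT : S_POT) (hDYN : S2_DYN) (hLOCN : S2_LOCN) : S2_TOP := by
  intro d net ε hwr hε K0 hK hKpos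
  obtain ⟨b, hb, hdyn⟩ := hDYN d net ε hwr hε
  obtain ⟨F, Bd, h1, h2, h3, h4, h5⟩ := absTop hPOT net b (Sol2 net ε) (Sol2.contOn net ε)
    (absDec2_of hLOCN net ε hε b hb hdyn) K0 hK hKpos
  exact ⟨F, Bd, h1, h2, h3, h4,
    fun p hp k hk x t0 t1 ht0 ht hx hxp => h5 p hp x t0 t1 ht ⟨k, hk, ht0, hx⟩ hxp⟩

theorem face2 (hPOT : S_POT) (hDYN : S2_DYN) (hLOCN : S2_LOCN) : S2_FACE := by
  intro d net ε hwr hε K0 hK hKpos I hI Bd ρ hρ
  obtain ⟨b, hb, hdyn⟩ := hDYN d net ε hwr hε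
  obtain ⟨F, ρ', h0, h1, h2, h3, h4, h5⟩ := absFace hPOT net b (Sol2 net ε) (Sol2.contOn net ε)
    (absDec2_of hLOCN net ε hε b hb hdyn) K0 hK hKpos I hI Bd ρ hρ
  exact ⟨F, ρ', h0, h1, h2, h3, h4,
    fun p hp hB hr k hk x t0 t1 ht0 ht hx hxp => h5 p hp hB hr x t0 t1 ht ⟨k, hk, ht0, hx⟩ hxp⟩

end P072
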