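import Vale.Agent.P072.Statements

namespace P072

open Finset Filter Topology

/-- The constant of `g_lower`. -/
noncomputable def boxA (c M : ℝ) : ℝ :=
  M * Real.exp M + (c + 1) * (M + 1 + c) + M * c + 1 + M

lemma g_lower (c M X : ℝ) (hc : 0 < c) (hM : 0 ≤ M) :
    min 1 c * |X| - boxA c M ≤ (Real.exp X - c) * X - M * (Real.exp X + c) := by
  unfold boxA
  have hm1 : min 1 c ≤ 1 := min_le_left _ _
  have hm2 : min 1 c ≤ c := min_le_right _ _
  have hm0 : 0 < min 1 c := lt_min one_pos hc
  have hMe : 0 ≤ M * Real.exp M := mul_nonneg hM (Real.exp_pos _).le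
  have hE := Real.exp_pos X
  rcases lt_or_ge X 0 with hX | hX
  · rw [abs_of_neg hX]
    have h1 : min 1 c * -X ≤ c * -X := mul_le_mul_of_nonneg_right hm2 (by linarith)
    -- exp X * X ≥ -1
    have h2 : -1 ≤ Real.exp X * X := by
      have h3 : 1 + (-X) ≤ Real.exp (-X) := by
        have := Real.add_one_le_exp (-X)
        linarith
      have h4 : Real.exp X * Real.exp (-X) = 1 := by
        rw [← Real.exp_add]; simp
      nlinarith
    have h5 : Real.exp X ≤ 1 := Real.exp_le_one_iff.mpr hX.le
    have h6 : M * Real.exp X ≤ M := by nlinarith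
    have h7 : 0 ≤ (c + 1) * (M + 1 + c) := by positivity
    nlinarith
  · rw [abs_of_nonneg hX]
    rcases le_or_gt (M + 1 + c) X with hXb | hXb
    · have h1 : 1 + X ≤ Real.exp X := by
        have := Real.add_one_le_exp X
        linarith
      have h2 : Real.exp X * (1 + c) ≤ Real.exp X * (X - M) :=
        mul_le_mul_of_nonneg_left (by linarith) hE.le
      have h3 : (1 + X) * (1 + c) ≤ Real.exp X * (1 + c) :=
        mul_le_mul_of_nonneg_right h1 (by linarith)
      have h4 : min 1 c * X ≤ 1 * X := mul_le_mul_of_nonneg_right hm1 hX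
      have h7 : 0 ≤ (c + 1) * (M + 1 + c) := by positivity
      nlinarith
    · have h1 : min 1 c * X ≤ 1 * X := mul_le_mul_of_nonneg_right hm1 hX
      have h2 : -(M * Real.exp M) ≤ Real.exp X * (X - M) := by
        rcases le_or_gt M X with h | h
        · have : 0 ≤ Real.exp X * (X - M) := mul_nonneg hE.le (by linarith)
          linarith
        · have h3 : Real.exp X ≤ Real.exp M := Real.exp_le_exp.mpr h.le
          have h4 : Real.exp X * (M - X) ≤ Real.exp M * M := by
            apply mul_le_mul h3 (by linarith) (by linarith) (Real.exp_pos _).le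
          linarith
      have h5 : c * X ≤ c * (M + 1 + c) := mul_le_mul_of_nonneg_left hXb.le hc.le
      nlinarith

lemma orth_stoich {d : ℕ} (net : Network d) (v : Fin d → ℝ)
    (h : ∀ r ∈ net.reactions, ∑ i, rvec r i * v i = 0) (u : Fin d → ℝ) (hu : u ∈ net.stoich) :
    ∑ i, u i * v i = 0 := by
  unfold Network.stoich at hu
  induction hu using Submodule.span_induction with
  | mem x hx =>
    obtain ⟨r, hr, rfl⟩ := hx
    exact h r hr
  | zero => simp
  | add x y _ _ hx hy =>
    simp only [Pi.add_apply, add_mul, Finset.sum_add_distrib, hx, hy, add_zero]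
  | smul a x _ hx =>
    simp only [Pi.smul_apply, smul_eq_mul, mul_assoc, ← Finset.mul_sum, hx, mul_zero]

theorem box : S_BOX := by
  intro d net c Rs b M W V hc hpot
  set A : ℝ := ∑ i, boxA (c i) M with hA
  refine ⟨∑ i, |A| / min 1 (c i), ?_⟩
  intro x hx hxc hV i
  have hM : 0 ≤ M := le_trans (abs_nonneg _) (hpot.near x hx i (Finset.mem_univ i))
  have hsum := orth_stoich net (V x) hV (x - c) hxc
  simp only [Pi.sub_apply] at hsum
  have hterm : ∀ j, min 1 (c j) * |Real.log (x j)| - boxA (c j) M
      ≤ (x j - c j) * V x j := by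
    intro j
    have h1 := g_lower (c j) M (Real.log (x j)) (hc j) hM
    rw [Real.exp_log (hx j)] at h1
    have h2 := hpot.near x hx j (Finset.mem_univ j)
    have h3 : |(x j - c j) * (V x j - Real.log (x j))| ≤ (x j + c j) * M := by
      rw [abs_mul]
      apply mul_le_mul _ h2 (abs_nonneg _) (by have := hx j; have := hc j; linarith)
      have := hx j; have := hc j
      rw [abs_le]
      constructor <;> linarith
    have h4 := (abs_le.mp h3).1
    nlinarith
  have hall : ∑ j, (min 1 (c j) * |Real.log (x j)| - boxA (c j) M) ≤ 0 := by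
    rw [← hsum]
    exact Finset.sum_le_sum fun j _ => hterm j
  rw [Finset.sum_sub_distrib, ← hA] at hall
  have hsingle : min 1 (c i) * |Real.log (x i)| ≤ ∑ j, min 1 (c j) * |Real.log (x j)| :=
    Finset.single_le_sum (f := fun j => min 1 (c j) * |Real.log (x j)|)
      (fun j _ => mul_nonneg (lt_min one_pos (hc j)).le (abs_nonneg _)) (Finset.mem_univ i)
  have hmi : 0 < min 1 (c i) := lt_min one_pos (hc i)
  have h1 : |Real.log (x i)| ≤ |A| / min 1 (c i) := by
    rw [le_div_iff₀ hmi]
    have := le_abs_self A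
    linarith
  have h2 : |A| / min 1 (c i) ≤ ∑ j, |A| / min 1 (c j) :=
    Finset.single_le_sum (f := fun j => |A| / min 1 (c j))
      (fun j _ => div_nonneg (abs_nonneg _) (lt_min one_pos (hc j)).le) (Finset.mem_univ i)
  linarith

end P072
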