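import Vale.Agent.P072.Statements

/-!
# P072, T5e : the comparison principle
-/

namespace P072

open Finset Filter Topology

lemma oneCost_nonneg {ι : Type} (n Γ : ℝ) (S : Finset ι) (v : ι → ℝ) (z : ℝ) (hn : 0 ≤ n)
    (hΓ : 0 ≤ Γ) : 0 ≤ oneCost n Γ S v z := by
  unfold oneCost
  have h1 : 0 ≤ (8 * n * Γ * Real.exp Γ) * ∑ q ∈ S with v q < z, Real.exp (v q) := by
    apply mul_nonneg (by positivity)
    exact Finset.sum_nonneg fun q _ => (Real.exp_pos _).le
  have h2 : 0 ≤ (if ∃ q ∈ S, z = v q then Γ / 2 * Real.exp (-Γ) else 1) * Real.exp z := by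
    apply mul_nonneg _ (Real.exp_pos _).le
    split_ifs
    · positivity
    · norm_num
  linarith

lemma Par.Good.B_ge_100 {p : Par} (hp : p.Good) : 100 ≤ p.B := by
  have h1 : (1 : ℝ) ≤ p.n := by exact_mod_cast hp.n_pos
  have h2 := hp.fam.R_one
  have h3 := hp.B_ge
  have h4 : (1 : ℝ) ≤ (p.n : ℝ) ^ 2 := by nlinarith
  nlinarith

lemma Par.Good.C_pow {p : Par} (hp : p.Good) (m : ℕ) : 1 ≤ p.C ^ m :=
  one_le_pow₀ hp.fam.C_one

lemma Par.Good.K_ge_100 {p : Par} (hp : p.Good) : 100 ≤ p.K := by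
  have h1 := hp.B_ge_100
  have h2 := hp.C_pow p.n
  have h3 := hp.K_ge
  nlinarith

lemma Par.Good.G_ge_8Cs {p : Par} (hp : p.Good) : 8 * p.Cs ≤ p.G := by
  have h1 := hp.Cs_ge
  have h2 := hp.C_pow (p.n + 1)
  have h3 := hp.G_ge
  nlinarith

lemma Par.Good.G_ge_16 {p : Par} (hp : p.Good) : 16 ≤ p.G := by
  have h1 := hp.Cs_ge
  have h2 := hp.G_ge_8Cs
  linarith

lemma Par.Good.Gam_ge (hORD : S_ORD) {p : Par} (hp : p.Good) (Z : ℕ → ℝ) {k : ℕ} (hk : k < p.n) :
    p.G ≤ Gam p Z k := by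
  have h1 := ((hORD p hp Z).1 k hk).1
  have h2 := hp.G_ge_16
  have h3 := hp.K_ge_100
  nlinarith

lemma lam_ge (hORD : S_ORD) {p : Par} (hp : p.Good) (x Z : ℕ → ℝ) {k : ℕ} (hk : k < p.n) :
    x k * (Real.log (x k) - 1 - Z k) ≤ lam p x Z k := by
  unfold lam oneLoss
  have h := oneCost_nonneg (p.n : ℝ) (Gam p Z k) (p.Q k) (fun q => ev q k Z) (Z k)
    (by positivity) (by have := hp.Gam_ge hORD Z hk; have := hp.G_ge_16; linarith)
  linarith

/-- Per-level comparison. -/
lemma cp_level (hORD : S_ORD) (hSEP : S_SEP) (hL1 : S_L1) (hL2 : S_L2) {p : Par} (hp : p.Good)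
    {x Z Z' : ℕ → ℝ} (hx : Sorted p.n x) {k m : ℕ} (hkm : k < m) (hm : m < p.n) {z w : ℝ}
    (hZm : Z m ≤ Z k) (hxm : x m ≤ x k)
    (hlev : ∀ j < p.n, lev p Z' j) (hz : Z' k = z)
    (hG : Greedy p x Z' m)
    (hP : Z' m = z ∨ ∃ a, Real.log (x m) ≤ z - a ∧ ∀ j, m ≤ j → j < p.n → Gam p Z' j ≤ a)
    (hw : ∀ u, Gam p Z' m ≤ u → Real.exp (-u / 2) ≤ w) :
    lam p x Z' m ≤ lam p x Z m + x k * max (Z k - z) 0 + w / (8 * p.n) * Real.exp z := by
  have hn1 : (1 : ℝ) ≤ p.n := by exact_mod_cast hp.n_pos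
  have hR1 := hp.fam.R_one
  have hB := hp.B_ge
  have hx0 : 0 < x m := hx.1 m hm
  have hxk : 0 < x k := hx.1 k (by omega)
  have hGG := hp.Gam_ge hORD Z' hm
  have hG16 := hp.G_ge_16
  have hsep : ∀ q ∈ p.Q m, ∀ q' ∈ p.Q m, ev q m Z' = ev q' m Z' ∨
      p.B * Gam p Z' m ≤ |ev q m Z' - ev q' m Z'| := by
    intro q hq q' hq'
    rcases hSEP p hp Z' m hm (fun j hj => hlev j (by omega)) q hq q' hq' with h | h
    · exact Or.inl h
    · exact Or.inr (h.2 m le_rfl hm)
  have hlow := lam_ge hORD hp x Z hm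
  have hmaxk : x m * (Z k - z) ≤ x k * max (Z k - z) 0 := by
    have h1 : x m * (Z k - z) ≤ x m * max (Z k - z) 0 :=
      mul_le_mul_of_nonneg_left (le_max_left _ _) hx0.le
    have h2 : x m * max (Z k - z) 0 ≤ x k * max (Z k - z) 0 :=
      mul_le_mul_of_nonneg_right hxm (le_max_right _ _)
    linarith
  have hZmk : x m * (Real.log (x m) - 1 - Z k) ≤ x m * (Real.log (x m) - 1 - Z m) :=
    mul_le_mul_of_nonneg_left (by linarith) hx0.le
  rcases hP with hP | ⟨a, ha, haj⟩
  · -- in the run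
    obtain ⟨q, hq, hqe⟩ := hp.fam.tie m hm k hkm
    have hzq : ∃ q ∈ p.Q m, z = (fun q => ev q m Z') q := ⟨q, hq, by rw [← hz]; exact (hqe Z').symm⟩
    have h2 := hL2 (ℕ → ℝ) (p.Q m) (fun q => ev q m Z') p.n p.R p.B p.G p.B (Gam p Z' m) (x m) z
      hn1 hR1 (hp.fam.card m hm) hB (by linarith) hp.exp_G le_rfl hGG hx0 hsep hzq
    have h3 : lam p x Z' m = oneLoss p.n (Gam p Z' m) (x m) (p.Q m) (fun q => ev q m Z') z := by
      unfold lam; rw [hP]
    rw [h3]
    have h4 := hw (Gam p Z' m) le_rfl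
    have h5 : Real.exp (-Gam p Z' m / 2) / (8 * p.n) * Real.exp z ≤ w / (8 * p.n) * Real.exp z := by
      have : 0 < Real.exp z := Real.exp_pos z
      gcongr
    have h6 : x m * (Real.log (x m) - 1 - z) =
        x m * (Real.log (x m) - 1 - Z k) + x m * (Z k - z) := by ring
    linarith
  · -- off the run
    have haG := haj m le_rfl hm
    set u := z - Real.log (x m) with hu
    have hua : a ≤ u := by rw [hu]; linarith
    have hGu : Gam p Z' m ≤ u := le_trans haG hua
    have hexu := hp.exp_G u (by linarith)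
    have h1 := hL1 (ℕ → ℝ) (p.Q m) (fun q => ev q m Z') p.n p.R p.B p.G p.B (Gam p Z' m) (x m)
      (Z' m) hn1 hR1 (hp.fam.card m hm) hB (by linarith) hp.exp_G le_rfl hGG hx0 hsep (by
        rcases hG with ⟨q, hq, h1, h2⟩ | ⟨h1, h2⟩
        · exact Or.inl ⟨q, hq, h1, h2⟩
        · exact Or.inr ⟨h1, h2⟩)
    have h3 : lam p x Z' m = oneLoss p.n (Gam p Z' m) (x m) (p.Q m) (fun q => ev q m Z') (Z' m) :=
      rfl
    rw [← h3] at h1
    have hxe : x m = Real.exp z * Real.exp (-u) := by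
      rw [← Real.exp_add, hu]
      rw [show z + -(z - Real.log (x m)) = Real.log (x m) by ring, Real.exp_log hx0]
    have h4 := hw u hGu
    have h5 : x m * (8 * p.n * p.R * u + 1 + u) ≤ w / (8 * p.n) * Real.exp z := by
      have hez : 0 < Real.exp z := Real.exp_pos z
      have heu : Real.exp (-u) = Real.exp (-u / 2) * Real.exp (-u / 2) := by
        rw [← Real.exp_add]; congr 1; ring
      have heu2 : Real.exp (-u / 2) * Real.exp (u / 2) = 1 := by
        rw [← Real.exp_add]; rw [show -u / 2 + u / 2 = 0 by ring, Real.exp_zero]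
      have hpe : 0 < Real.exp (-u / 2) := Real.exp_pos _
      have hu0 : 0 ≤ u := by linarith
      have hkey : 8 * (p.n : ℝ) * (8 * p.n * p.R * u + 1 + u) ≤ Real.exp (u / 2) := by
        have e1 : 8 * (p.n : ℝ) * (8 * p.n * p.R * u + 1 + u) ≤ p.B * (1 + u) := by
          have e2 : 8 * (p.n : ℝ) * (8 * p.n * p.R * u + 1 + u)
              ≤ 72 * (p.n : ℝ) ^ 2 * p.R * (1 + u) := by
            have f1 : (p.n : ℝ) ≤ (p.n : ℝ) ^ 2 * p.R := by
              have : (p.n : ℝ) ≤ (p.n : ℝ) ^ 2 := by nlinarith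
              nlinarith
            have f2 : (p.n : ℝ) * (1 + u) ≤ (p.n : ℝ) ^ 2 * p.R * (1 + u) :=
              mul_le_mul_of_nonneg_right f1 (by linarith)
            have f3 : 0 ≤ (p.n : ℝ) ^ 2 * p.R := by positivity
            nlinarith
          have e3 : 72 * (p.n : ℝ) ^ 2 * p.R * (1 + u) ≤ p.B * (1 + u) := by
            apply mul_le_mul_of_nonneg_right _ (by linarith)
            have : 0 ≤ (p.n : ℝ) ^ 2 * p.R := by positivity
            nlinarith
          linarith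
        linarith
      have h8 : (0 : ℝ) < 8 * p.n := by linarith
      have h9 : 8 * p.n * p.R * u + 1 + u ≤ Real.exp (u / 2) / (8 * p.n) := by
        rw [le_div_iff₀ h8]; linarith
      calc x m * (8 * p.n * p.R * u + 1 + u)
          ≤ x m * (Real.exp (u / 2) / (8 * p.n)) := mul_le_mul_of_nonneg_left h9 hx0.le
        _ = Real.exp z * (Real.exp (-u / 2) * Real.exp (u / 2)) * Real.exp (-u / 2) / (8 * p.n) := by
            rw [hxe, heu]; ring
        _ = Real.exp (-u / 2) / (8 * p.n) * Real.exp z := by rw [heu2]; ring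
        _ ≤ w / (8 * p.n) * Real.exp z := by gcongr
    have h6 : 8 * p.n * p.R * Gam p Z' m * x m ≤ 8 * p.n * p.R * u * x m := by
      gcongr
    have h7 : x m * (8 * p.n * p.R * u + 1 + u) = 8 * p.n * p.R * u * x m + x m * (1 + u) := by
      ring
    have h8 : x m * (1 + u) + x m * (Real.log (x m) - 1 - Z k) = - (x m * (Z k - z)) := by
      rw [hu]; ring
    linarith

/-- The invariant along a greedy extension. -/
lemma cp_inv (hORD : S_ORD) (hSEP : S_SEP) {p : Par} (hp : p.Good)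
    {x Z' : ℕ → ℝ} (hx : Sorted p.n x) {k : ℕ} {z : ℝ} (hZ' : Z' ∈ DD p) (hz : Z' k = z)
    (hG : ∀ m, k < m → m < p.n → Greedy p x Z' m) :
    ∀ m, k ≤ m → m < p.n →
      (Z' m = z ∨ ∃ a, Real.log (x m) ≤ z - a ∧ ∀ j, m ≤ j → j < p.n → Gam p Z' j ≤ a) := by
  intro m hkm
  induction m, hkm using Nat.le_induction with
  | base => intro _; exact Or.inl hz
  | succ m hkm ih =>
    intro hm
    have hm' : m < p.n := by omega
    have hlog : Real.log (x (m + 1)) ≤ Real.log (x m) :=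
      Real.log_le_log (hx.1 _ hm) (hx.2 m hm)
    have hGG := hp.Gam_ge hORD Z' hm
    have hG16 := hp.G_ge_16
    rcases ih hm' with h | ⟨a, ha, haj⟩
    · -- the value at `m` is `z`
      have hle : Z' (m + 1) ≤ z := by rw [← h]; exact hZ'.2.1 m hm
      rcases hG (m + 1) (by omega) hm with ⟨q, hq, h1, h2⟩ | ⟨h1, h2⟩
      · by_cases hqz : ev q (m + 1) Z' = z
        · left; rw [h2, hqz]
        · right
          obtain ⟨q', hq', hqe⟩ := hp.fam.tie (m + 1) hm m (by omega)
          have hs := hSEP p hp Z' (m + 1) hm (fun j hj => hZ'.1 j (by omega)) q hq q' hq'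
          rw [hqe Z', h] at hs
          rcases hs with hs | hs
          · exact absurd hs hqz
          · have hlt : ev q (m + 1) Z' < z := lt_of_le_of_ne (by rw [← h2]; exact hle) hqz
            have habs : |ev q (m + 1) Z' - z| = z - ev q (m + 1) Z' := by
              rw [abs_sub_comm, abs_of_pos (by linarith)]
            rw [habs] at hs
            have hB := hp.B_ge_100
            refine ⟨(z - ev q (m + 1) Z') / 2, ?_, ?_⟩
            · have h3 := hs.2 (m + 1) le_rfl hm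
              have h4 := (abs_lt.1 h1).2
              nlinarith
            · intro j hj hjn
              have h3 := hs.2 j hj hjn
              have h5 := hp.Gam_ge hORD Z' hjn
              nlinarith
      · right
        obtain ⟨q', hq', hqe⟩ := hp.fam.tie (m + 1) hm m (by omega)
        have h3 := h1 q' hq'
        rw [hqe Z', h] at h3
        have hnc : ¬ con p Z' (m + 1) := by
          rintro ⟨q, hq, hqz⟩
          have h4 := h1 q hq
          rw [← hqz, h2] at h4
          simp at h4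
          linarith
        refine ⟨Gam p Z' (m + 1), ?_, ?_⟩
        · rw [h2] at hle
          rw [abs_sub_comm, abs_of_nonneg (by linarith)] at h3
          linarith
        · intro j hj hjn
          rcases eq_or_lt_of_le hj with rfl | hj
          · exact le_rfl
          · have h4 := (hORD p hp Z').2.2 (m + 1) j hj hjn hnc
            have h5 := hp.Gam_ge hORD Z' hjn
            have h6 := hp.K_ge_100
            nlinarith
    · right
      exact ⟨a, by linarith, fun j hj hjn => haj j (by omega) hjn⟩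

lemma sorted_le {n : ℕ} {Z : ℕ → ℝ} (h : ∀ k, k + 1 < n → Z (k + 1) ≤ Z k) :
    ∀ i j, i ≤ j → j < n → Z j ≤ Z i := by
  intro i j hij
  induction j, hij using Nat.le_induction with
  | base => intro _; exact le_rfl
  | succ m hkm ih => intro hm; exact le_trans (h m hm) (ih (by omega))

/-- The comparison for a general admissible replacement. -/
lemma cp_core (hLOC : S_LOC) (hORD : S_ORD) (hSEP : S_SEP) (hEX : S_GREX) (hPR : S_GRPROP)
    (hL1 : S_L1) (hL2 : S_L2) {p : Par} (hp : p.Good)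
    {x Z : ℕ → ℝ} (hx : Sorted p.n x) (hZ : IsOpt p x Z) {k : ℕ} (hk : k < p.n) {z w : ℝ}
    (hz : ∀ j, k = j + 1 → z ≤ Z j)
    (hlev : (∃ q ∈ p.Q k, z = ev q k Z) ∨ ∀ q ∈ p.Q k, Gam p Z k ≤ |z - ev q k Z|)
    (hnear1 : (∃ q ∈ p.Q k, z = ev q k Z) → Real.log (x k) ≤ z + Gam p Z k + p.Cs)
    (hnear2 : ¬ (∃ q ∈ p.Q k, z = ev q k Z) → Real.log (x k) ≤ z)
    (hw : ∀ u, (∃ q ∈ p.Q k, z = ev q k Z) → p.K * Gam p Z k ≤ u → Real.exp (-u / 2) ≤ w)
    (hw' : ∀ u, ¬ (∃ q ∈ p.Q k, z = ev q k Z) → 0 ≤ u → Real.exp (-u / 2) ≤ w) (hw0 : 0 ≤ w) :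
    lam p x Z k ≤ oneLoss p.n (Gam p Z k) (x k) (p.Q k) (fun q => ev q k Z) z
      + p.n * x k * max (Z k - z) 0 + w / 8 * Real.exp z := by
  classical
  obtain ⟨hZD, hopt⟩ := hZ
  have hn1 : (1 : ℝ) ≤ p.n := by exact_mod_cast hp.n_pos
  set Z0 : ℕ → ℝ := Function.update Z k z with hZ0
  obtain ⟨Z', h1, h2, h3⟩ := hEX p x Z0 (k + 1) (by omega)
  have hk1 : Z' k = z := by rw [h1 k (by omega), hZ0]; simp
  have hj1 : ∀ j < k, Z' j = Z j := by
    intro j hj
    rw [h1 j (by omega), hZ0, Function.update_of_ne (by omega)]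
  obtain ⟨hev, hGam, hloc⟩ := hLOC p Z' Z k hj1
  have hcon : con p Z' k ↔ ∃ q ∈ p.Q k, z = ev q k Z := by
    unfold con
    constructor
    · rintro ⟨q, hq, h⟩; exact ⟨q, hq, by rw [← hev q, ← h, hk1]⟩
    · rintro ⟨q, hq, h⟩; exact ⟨q, hq, by rw [hev q, ← h, hk1]⟩
  have hlev' : ∀ j < k + 1, lev p Z' j := by
    intro j hj
    rcases Nat.lt_succ_iff_lt_or_eq.1 hj with hj | rfl
    · exact (hloc j hj).2.1.2 (hZD.1 j (by omega))
    · unfold lev
      rcases hlev with h | h
      · exact Or.inl (hcon.2 h)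
      · right; intro q hq; rw [hk1, hGam, hev q]; exact h q hq
  have hsort : ∀ j, j + 1 < k + 1 → Z' (j + 1) ≤ Z' j := by
    intro j hj
    rcases Nat.lt_succ_iff_lt_or_eq.1 hj with hj | hj
    · rw [hj1 _ hj, hj1 _ (by omega)]; exact hZD.2.1 j (by omega)
    · rw [hj, hk1, hj1 j (by omega)]; exact hz j hj.symm
  have hnear : ∀ j, j + 1 = k + 1 → Near p x Z' j := by
    intro j hj
    obtain rfl : j = k := by omega
    refine ⟨fun h => ?_, fun h => ?_⟩
    · rw [hk1, hGam]; exact hnear1 (hcon.1 h)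
    · rw [hk1]; exact hnear2 (fun h' => h (hcon.2 h'))
  obtain ⟨hD', -⟩ := hPR p hp x Z' (k + 1) hx (by omega) hlev' hsort hnear
    (fun m hm hmn => h2 m hm hmn) h3
  have hcmp := hopt Z' hD'
  -- the levels below `k` agree
  have hinv := cp_inv hORD hSEP hp hx hD' hk1 (fun m hm hmn => h2 m (by omega) hmn)
  have hxs := sorted_le hx.2
  have hZs := sorted_le hZD.2.1
  have hlevel : ∀ m, k < m → m < p.n → lam p x Z' m ≤
      lam p x Z m + x k * max (Z k - z) 0 + w / (8 * p.n) * Real.exp z := by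
    intro m hkm hm
    refine cp_level hORD hSEP hL1 hL2 hp hx hkm hm (hZs k m hkm.le hm) (hxs k m hkm.le hm)
      hD'.1 hk1 (h2 m (by omega) hm) (hinv m hkm.le hm) ?_
    intro u hu
    have hGG := hp.Gam_ge hORD Z' hm
    have hG16 := hp.G_ge_16
    by_cases hc : ∃ q ∈ p.Q k, z = ev q k Z
    · have h4 := (hORD p hp Z').2.1 k m hkm hm (hcon.2 hc)
      rw [hGam] at h4
      exact hw u hc (by linarith)
    · exact hw' u hc (by linarith)
  have hsplit : ∀ f : ℕ → ℝ, ∑ m ∈ range p.n, f m =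
      ∑ m ∈ range k, f m + f k + ∑ m ∈ Ico (k + 1) p.n, f m := by
    intro f
    rw [← Finset.sum_range_succ, Finset.sum_range_add_sum_Ico _ (by omega)]
  rw [hsplit (lam p x Z), hsplit (lam p x Z')] at hcmp
  have hlow : ∑ m ∈ range k, lam p x Z' m = ∑ m ∈ range k, lam p x Z m :=
    Finset.sum_congr rfl fun m hm => (hloc m (Finset.mem_range.1 hm)).2.2.2.2.1 x
  have hlamk : lam p x Z' k = oneLoss p.n (Gam p Z k) (x k) (p.Q k) (fun q => ev q k Z) z := by
    unfold lam
    rw [hk1, hGam]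
    congr 1
    funext q; exact hev q
  set A := x k * max (Z k - z) 0 + w / (8 * p.n) * Real.exp z with hA
  have hxk := hx.1 k hk
  have hA0 : 0 ≤ A := by
    have : 0 ≤ max (Z k - z) 0 := le_max_right _ _
    have : 0 < Real.exp z := Real.exp_pos z
    positivity
  have hup : ∑ m ∈ Ico (k + 1) p.n, lam p x Z' m ≤
      ∑ m ∈ Ico (k + 1) p.n, lam p x Z m + p.n * A := by
    have h5 : ∑ m ∈ Ico (k + 1) p.n, lam p x Z' m ≤ ∑ m ∈ Ico (k + 1) p.n, (lam p x Z m + A) := by
      apply Finset.sum_le_sum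
      intro m hm
      rw [Finset.mem_Ico] at hm
      have := hlevel m (by omega) hm.2
      rw [hA]; linarith
    rw [Finset.sum_add_distrib, Finset.sum_const, Nat.card_Ico, nsmul_eq_mul] at h5
    have h6 : ((p.n - (k + 1) : ℕ) : ℝ) * A ≤ p.n * A := by
      apply mul_le_mul_of_nonneg_right _ hA0
      exact_mod_cast Nat.sub_le _ _
    linarith
  have hfin : p.n * A = p.n * x k * max (Z k - z) 0 + w / 8 * Real.exp z := by
    rw [hA]; field_simp
  rw [hlow, hlamk] at hcmp
  linarith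

theorem cp (hLOC : S_LOC) (hORD : S_ORD) (hSEP : S_SEP) (hEX : S_GREX) (hPR : S_GRPROP)
    (hL1 : S_L1) (hL2 : S_L2) : S_CP := by
  intro p hp x Z hx hZ k hk z hz
  have hGG := hp.Gam_ge hORD Z hk
  have hG16 := hp.G_ge_16
  have hK := hp.K_ge_100
  constructor
  · intro hc hnear
    have h := cp_core hLOC hORD hSEP hEX hPR hL1 hL2 hp hx hZ hk (z := z)
      (w := Real.exp (-Gam p Z k)) hz (Or.inl hc) (fun _ => hnear) (fun h => absurd hc h)
      (fun u _ hu => by
        apply Real.exp_le_exp.2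
        nlinarith) (fun u h => absurd hc h) (Real.exp_pos _).le
    exact h
  · intro hfree hzX
    have hnc : ¬ ∃ q ∈ p.Q k, z = ev q k Z := by
      rintro ⟨q, hq, h⟩
      have := hfree q hq
      rw [← h] at this
      simp at this
      linarith
    have h := cp_core hLOC hORD hSEP hEX hPR hL1 hL2 hp hx hZ hk (z := z)
      (w := 1) hz (Or.inr hfree) (fun h => absurd h hnc) (fun _ => hzX.ge)
      (fun u h => absurd h hnc) (fun u _ hu => by
        rw [Real.exp_le_one_iff]; linarith) zero_le_one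
    exact h

end P072
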