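import Vale.Agent.P072.Cara

/-!
# P072: U6b (global Carathéodory solutions)
-/

namespace P072

open Finset Filter Topology MeasureTheory BoundedContinuousFunction

section exist

variable {E : Type} [NormedAddCommGroup E] [NormedSpace ℝ E] [CompleteSpace E]

theorem exists_global_aux (G : ℝ → E → E) (M L : ℝ) (hL : 0 < L)
    (hmeas : ∀ x : ℝ → E, Continuous x → AEStronglyMeasurable (fun s => G s (x s)) volume)
    (hM : ∀ s x, ‖G s x‖ ≤ M) (hLip : ∀ s x y, ‖G s x - G s y‖ ≤ L * ‖x - y‖) (x0 : E) :
    ∃ x : ℝ → E, Continuous x ∧ ∀ t, 0 ≤ t → x t = x0 + ∫ s in (0 : ℝ)..t, G s (x s) := by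
  have hM0 : 0 ≤ M := (norm_nonneg _).trans (hM 0 0)
  -- integrability
  have hint : ∀ x : ℝ → E, Continuous x → ∀ a b, IntervalIntegrable (fun s => G s (x s)) volume a b := by
    intro x hx a b
    rw [intervalIntegrable_iff]
    refine Measure.integrableOn_of_bounded (M := M) (by simp) (hmeas x hx) ?_
    exact Filter.Eventually.of_forall fun s => hM s _
  -- the change of unknown
  set w : ℝ → ℝ := fun s => Real.exp (2 * L * max s 0) with hw
  have hwcont : Continuous w := by fun_prop
  have hwpos : ∀ s, 0 < w s := fun s => Real.exp_pos _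
  have hX : ∀ y : ℝ →ᵇ E, Continuous fun s => x0 + w s • y s := by
    intro y
    exact continuous_const.add (hwcont.smul y.continuous)
  have hcont : ∀ y : ℝ →ᵇ E, Continuous fun t : ℝ =>
      (w t)⁻¹ • ∫ s in (0 : ℝ)..(max t 0), G s (x0 + w s • y s) := by
    intro y
    refine (hwcont.inv₀ fun s => (hwpos s).ne').smul ?_
    have h1 : Continuous fun b => ∫ s in (0 : ℝ)..b, G s (x0 + w s • y s) :=
      intervalIntegral.continuous_primitive (fun a b => hint _ (hX y) a b) 0
    exact h1.comp (continuous_id.max continuous_const)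
  have hbound : ∀ y : ℝ →ᵇ E, ∀ t : ℝ,
      ‖(w t)⁻¹ • ∫ s in (0 : ℝ)..(max t 0), G s (x0 + w s • y s)‖ ≤ M / (2 * L) := by
    intro y t
    rw [norm_smul, norm_inv, Real.norm_eq_abs, abs_of_pos (hwpos t)]
    have h1 : ‖∫ s in (0 : ℝ)..(max t 0), G s (x0 + w s • y s)‖ ≤ M * |max t 0 - 0| :=
      intervalIntegral.norm_integral_le_of_norm_le_const fun s _ => hM s _
    rw [sub_zero, abs_of_nonneg (le_max_right _ _)] at h1
    have h2 : 2 * L * max t 0 ≤ w t := by
      have := Real.add_one_le_exp (2 * L * max t 0)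
      simp only [hw]
      linarith
    rw [inv_mul_le_iff₀ (hwpos t), ← mul_div_assoc, le_div_iff₀ (by positivity)]
    calc ‖∫ s in (0 : ℝ)..(max t 0), G s (x0 + w s • y s)‖ * (2 * L)
        ≤ M * max t 0 * (2 * L) := mul_le_mul_of_nonneg_right h1 (by positivity)
      _ = (2 * L * max t 0) * M := by ring
      _ ≤ w t * M := mul_le_mul_of_nonneg_right h2 hM0
  -- the operator
  let Φ : (ℝ →ᵇ E) → (ℝ →ᵇ E) := fun y =>
    BoundedContinuousFunction.ofNormedAddCommGroup
      (fun t : ℝ => (w t)⁻¹ • ∫ s in (0 : ℝ)..(max t 0), G s (x0 + w s • y s))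
      (hcont y) (M / (2 * L)) (hbound y)
  have hΦ : ∀ y t, Φ y t = (w t)⁻¹ • ∫ s in (0 : ℝ)..(max t 0), G s (x0 + w s • y s) :=
    fun y t => rfl
  have hcontr : ContractingWith (1 / 2) Φ := by
    refine ⟨by rw [← NNReal.coe_lt_coe]; norm_num, LipschitzWith.of_dist_le_mul fun y z => ?_⟩
    rw [BoundedContinuousFunction.dist_le (by positivity)]
    intro t
    rw [hΦ, hΦ, dist_eq_norm, ← smul_sub,
      ← intervalIntegral.integral_sub (hint _ (hX y) _ _) (hint _ (hX z) _ _), norm_smul, norm_inv,
      Real.norm_eq_abs, abs_of_pos (hwpos t)]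
    have hτ : 0 ≤ max t 0 := le_max_right _ _
    have h1 : ‖∫ s in (0 : ℝ)..(max t 0), (G s (x0 + w s • y s) - G s (x0 + w s • z s))‖
        ≤ ∫ s in (0 : ℝ)..(max t 0), dist y z * (L * Real.exp (2 * L * s)) := by
      refine intervalIntegral.norm_integral_le_of_norm_le hτ ?_ ?_
      · refine Filter.Eventually.of_forall fun s hs => ?_
        refine (hLip s _ _).trans ?_
        rw [add_sub_add_left_eq_sub, ← smul_sub, norm_smul, Real.norm_eq_abs, abs_of_pos (hwpos s)]
        have h2 : ‖y s - z s‖ ≤ dist y z := by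
          rw [← dist_eq_norm]
          exact BoundedContinuousFunction.dist_coe_le_dist s
        have h3 : w s = Real.exp (2 * L * s) := by
          simp only [hw]
          rw [max_eq_left hs.1.le]
        rw [h3]
        have h4 := Real.exp_pos (2 * L * s)
        calc L * (Real.exp (2 * L * s) * ‖y s - z s‖)
            ≤ L * (Real.exp (2 * L * s) * dist y z) := by gcongr
          _ = dist y z * (L * Real.exp (2 * L * s)) := by ring
      · exact (by fun_prop : Continuous fun s => dist y z * (L * Real.exp (2 * L * s))).intervalIntegrable _ _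
    have h2 : ∫ s in (0 : ℝ)..(max t 0), dist y z * (L * Real.exp (2 * L * s))
        = dist y z * (Real.exp (2 * L * max t 0) / 2) - dist y z * (Real.exp (2 * L * 0) / 2) := by
      refine intervalIntegral.integral_eq_sub_of_hasDerivAt
        (f := fun s => dist y z * (Real.exp (2 * L * s) / 2)) (fun s _ => ?_) ?_
      · have h3 : HasDerivAt (fun s : ℝ => 2 * L * s) (2 * L) s := by
          simpa using (hasDerivAt_id s).const_mul (2 * L)
        have h4 := (h3.exp.div_const 2).const_mul (dist y z)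
        have h5 : dist y z * (L * Real.exp (2 * L * s))
            = dist y z * (Real.exp (2 * L * s) * (2 * L) / 2) := by ring
        rw [h5]
        exact h4
      · exact (by fun_prop : Continuous fun s => dist y z * (L * Real.exp (2 * L * s))).intervalIntegrable _ _
    rw [h2] at h1
    rw [inv_mul_le_iff₀ (hwpos t)]
    refine h1.trans ?_
    have h3 : w t = Real.exp (2 * L * max t 0) := rfl
    rw [h3]
    have h4 : 0 ≤ dist y z := dist_nonneg
    have h5 := Real.exp_pos (2 * L * 0)
    have h6 : ((1 / 2 : NNReal) : ℝ) = 1 / 2 := by norm_num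
    rw [h6]
    nlinarith
  have hfix := hcontr.fixedPoint_isFixedPt
  set y : ℝ →ᵇ E := ContractingWith.fixedPoint Φ hcontr with hy
  refine ⟨fun s => x0 + w s • y s, hX y, fun t ht => ?_⟩
  have h1 : y t = (w t)⁻¹ • ∫ s in (0 : ℝ)..(max t 0), G s (x0 + w s • y s) := by
    have : Φ y t = y t := by rw [hfix.eq]
    rw [← this, hΦ]
  have h2 : w t • y t = ∫ s in (0 : ℝ)..(max t 0), G s (x0 + w s • y s) := by
    conv_lhs => rw [h1]
    rw [smul_smul, mul_inv_cancel₀ (hwpos t).ne', one_smul]
  simp only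
  rw [h2, max_eq_left ht]

end exist

/-! ### The cut-off -/

/-- Coordinatewise clamp to `[-R, R]`. -/
noncomputable def clamp {d : ℕ} (R : ℝ) (x : Fin d → ℝ) : Fin d → ℝ :=
  fun i => max (-R) (min R (x i))

theorem clamp_continuous {d : ℕ} (R : ℝ) : Continuous (clamp (d := d) R) := by
  unfold clamp
  fun_prop

theorem clamp_mem {d : ℕ} {R : ℝ} (hR : 0 ≤ R) (x : Fin d → ℝ) :
    clamp R x ∈ Metric.closedBall (0 : Fin d → ℝ) R := by
  rw [mem_closedBall_zero_iff, pi_norm_le_iff_of_nonneg hR]
  intro i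
  rw [Real.norm_eq_abs, abs_le]
  exact ⟨le_max_left _ _, max_le (by linarith) (min_le_left _ _)⟩

theorem clamp_eq {d : ℕ} {R : ℝ} {x : Fin d → ℝ}
    (hx : x ∈ Metric.closedBall (0 : Fin d → ℝ) R) : clamp R x = x := by
  rw [mem_closedBall_zero_iff] at hx
  funext i
  have h := (norm_le_pi_norm x i).trans hx
  rw [Real.norm_eq_abs, abs_le] at h
  unfold clamp
  rw [min_eq_right h.2, max_eq_right h.1]

theorem clamp_lip {d : ℕ} (R : ℝ) (x y : Fin d → ℝ) : ‖clamp R x - clamp R y‖ ≤ ‖x - y‖ := by
  rw [pi_norm_le_iff_of_nonneg (norm_nonneg _)]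
  intro i
  refine le_trans ?_ (norm_le_pi_norm (x - y) i)
  rw [Real.norm_eq_abs, Real.norm_eq_abs, Pi.sub_apply, Pi.sub_apply]
  unfold clamp
  have h1 := abs_max_sub_max_le_max (-R) (min R (x i)) (-R) (min R (y i))
  have h2 := abs_min_sub_min_le_max R (x i) R (y i)
  rw [sub_self, abs_zero] at h1 h2
  have h3 : max 0 |min R (x i) - min R (y i)| = |min R (x i) - min R (y i)| :=
    max_eq_right (abs_nonneg _)
  have h4 : max 0 |x i - y i| = |x i - y i| := max_eq_right (abs_nonneg _)
  rw [h3] at h1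
  rw [h4] at h2
  exact h1.trans h2

/-- **U6b.** -/
theorem glob2 : S2_GLOB := by
  intro d net ε k hε hk P hP hinv x0 hx0
  obtain ⟨R0, hR0⟩ := hP.isBounded.subset_closedBall (0 : Fin d → ℝ)
  -- the radius
  set R : ℝ := max R0 0 + 1 with hR
  have hRpos : 0 < R := by
    have : 0 ≤ max R0 0 := le_max_right _ _
    linarith
  have hPR : ∀ x ∈ P, ‖x‖ < R := by
    intro x hx
    have h1 := hR0 hx
    rw [mem_closedBall_zero_iff] at h1
    have : R0 ≤ max R0 0 := le_max_left _ _
    linarith
  obtain ⟨M, L, _, hL, hML⟩ := massAction_bounds net hε R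
  -- the cut-off field
  set G : ℝ → (Fin d → ℝ) → (Fin d → ℝ) := fun s x => net.field k (max s 0) (clamp R x) with hG
  have hk' : ∀ s, RateOK net ε (k (max s 0)) := fun s => hk.bounds _ (le_max_right _ _)
  obtain ⟨x, hxc, hx⟩ := exists_global_aux G M L hL
    (by
      intro x hx
      have h1 : Measurable fun s => net.field (fun s => k (max s 0)) s (clamp R (x s)) := by
        refine field_measurable net (fun r hr => ?_) ((clamp_continuous R).comp hx).measurable
        exact (hk.meas r hr).comp (measurable_id.max measurable_const)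
      exact h1.aestronglyMeasurable)
    (fun s x => (hML _ (hk' s) _ (clamp_mem hRpos.le x)).1)
    (fun s x y => ((hML _ (hk' s) _ (clamp_mem hRpos.le x)).2 _ (clamp_mem hRpos.le y)).trans
      (mul_le_mul_of_nonneg_left (clamp_lip R x y) hL.le)) x0
  have hx00 : x 0 = x0 := by
    have := hx 0 le_rfl
    rwa [intervalIntegral.integral_same, add_zero] at this
  have hGeq : ∀ s, 0 ≤ s → ‖x s‖ < R → G s (x s) = net.field k s (x s) := by
    intro s hs hxs
    simp only [hG]
    rw [max_eq_left hs, clamp_eq (by rw [mem_closedBall_zero_iff]; exact hxs.le)]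
  -- integrability of the cut-off field along `x`
  have hint : ∀ a b, IntervalIntegrable (fun s => G s (x s)) volume a b := by
    intro a b
    rw [intervalIntegrable_iff]
    refine Measure.integrableOn_of_bounded (M := M) (by simp) ?_ ?_
    · have h1 : Measurable fun s => net.field (fun s => k (max s 0)) s (clamp R (x s)) := by
        refine field_measurable net (fun r hr => ?_) ((clamp_continuous R).comp hxc).measurable
        exact (hk.meas r hr).comp (measurable_id.max measurable_const)
      exact h1.aestronglyMeasurable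
    · exact Filter.Eventually.of_forall fun s => (hML _ (hk' s) _ (clamp_mem hRpos.le (x s))).1
  have hcsol : ∀ t0 t1, 0 ≤ t0 → (∀ s ∈ Set.Icc t0 t1, ‖x s‖ < R) →
      ∀ t ∈ Set.Icc t0 t1, x t = x t0 + ∫ s in t0..t, net.field k s (x s) := by
    intro t0 t1 ht0 hb t ht
    have h1 : ∫ s in t0..t, net.field k s (x s) = ∫ s in t0..t, G s (x s) := by
      refine intervalIntegral.integral_congr fun s hs => ?_
      rw [Set.uIcc_of_le ht.1] at hs
      exact (hGeq s (ht0.trans hs.1) (hb s ⟨hs.1, hs.2.trans ht.2⟩)).symm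
    rw [h1, hx t (ht0.trans ht.1), hx t0 ht0, add_assoc,
      intervalIntegral.integral_add_adjacent_intervals (hint _ _) (hint _ _)]
  have hmem : ∀ t, 0 ≤ t → x t ∈ P := by
    intro T hT
    have hcl : IsClosed ({t | x t ∈ P} ∩ Set.Icc 0 T) :=
      (hP.isClosed.preimage hxc).inter isClosed_Icc
    have := IsClosed.Icc_subset_of_forall_mem_nhdsWithin (s := {t | x t ∈ P}) hcl
      (by rw [Set.mem_ofPred_eq, hx00]; exact hx0) ?_
    · exact this ⟨hT, le_rfl⟩
    · rintro t0 ⟨ht0, ht1⟩
      -- near `t0` the solution stays in the ball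
      have h1 : ∀ᶠ s in 𝓝 t0, ‖x s‖ < R :=
        (hxc.norm.tendsto t0).eventually (gt_mem_nhds (hPR _ ht0))
      obtain ⟨δ, hδ, h2⟩ := Metric.eventually_nhds_iff_ball.1 h1
      have h3 : ∀ s ∈ Set.Icc t0 (t0 + δ / 2), ‖x s‖ < R := by
        intro s hs
        refine h2 s ?_
        rw [Metric.mem_ball, Real.dist_eq, abs_of_nonneg (by linarith [hs.1])]
        linarith [hs.2]
      have h4 := hinv k hk x t0 (t0 + δ / 2) ht1.1 (by linarith)
        ⟨hxc.continuousOn, hcsol t0 _ ht1.1 h3⟩ ht0
      exact Filter.mem_of_superset (Icc_mem_nhdsGT (by linarith)) h4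
  refine ⟨x, hx00, ⟨hxc.continuousOn, fun t ht => ?_⟩, hmem⟩
  exact hcsol 0 t le_rfl (fun s hs => hPR _ (hmem s hs.1)) t ⟨ht, le_rfl⟩

end P072
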