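import Vale.Agent.P072.Statements

/-!
# P072, module T7b: compatibility of the forms `Z l - ev s l Z` with the tracked data
-/

namespace P072

open Finset Filter Topology

lemma ev_diff_le (s : ℕ → ℝ) (l : ℕ) (X Z : ℕ → ℝ) (E : ℝ)
    (h : ∀ j < l, |X j - Z j| ≤ E) :
    |ev s l X - ev s l Z| ≤ (∑ j ∈ range l, |s j|) * E := by
  unfold ev
  rw [← Finset.sum_sub_distrib, Finset.sum_mul]
  refine (Finset.abs_sum_le_sum_abs _ _).trans (Finset.sum_le_sum fun j hj => ?_)
  rw [← mul_sub, abs_mul]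
  exact mul_le_mul_of_nonneg_left (h j (Finset.mem_range.mp hj)) (abs_nonneg _)

theorem compat (hord : S_ORD) (hsep : S_SEP) : S_COMPAT := by
  intro p hp X Z hlev htr l hl s hs
  by_cases hφ : Z l = ev s l Z
  · exact Or.inl hφ
  right
  obtain ⟨ho1, ho2, ho3⟩ := hord p hp Z
  have hC1 : 1 ≤ p.C := hp.fam.C_one
  have hCs : 2 ≤ p.Cs := hp.Cs_ge
  have hCl : ∀ m, (1 : ℝ) ≤ p.C ^ m := fun m => one_le_pow₀ hC1
  have hpos : 0 < |Z l - ev s l Z| := abs_pos.mpr (sub_ne_zero.mpr hφ)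
  have hKpos : 8 ≤ p.K := by
    have h1 := hp.K_ge'
    have h2 := hCl (p.n + 1)
    linarith
  have hGpos : 16 ≤ p.G := by
    have h1 := hp.G_ge
    have h2 := hCl (p.n + 1)
    nlinarith
  -- a free level with a small gap
  obtain ⟨i, hil, hfree, hΓ⟩ : ∃ i ≤ l, ¬ con p Z i ∧ Gam p Z i ≤ p.C ^ l * |Z l - ev s l Z| := by
    by_cases hcon : con p Z l
    · obtain ⟨q, hq, hZq⟩ := hcon
      rcases hsep p hp Z l hl (fun j hj => hlev j (hj.trans hl)) q hq s hs with h | ⟨h, _⟩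
      · exact absurd (hZq.trans h) hφ
      · obtain ⟨i, hi, hfree, hΓ⟩ := h
        refine ⟨i, hi.le, hfree, ?_⟩
        rw [hZq]
        exact hΓ
    · refine ⟨l, le_rfl, hcon, ?_⟩
      rcases hlev l hl with h | h
      · exact absurd h hcon
      · have h1 := h s hs
        nlinarith [hCl l, hpos]
  have hin : i < p.n := lt_of_le_of_lt hil hl
  have hGi := (ho1 i hin).1
  have hGK : p.G * 8 ≤ Gam p Z i := by nlinarith
  have hCln : p.C ^ l ≤ p.C ^ p.n := pow_le_pow_right₀ hC1 hl.le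
  have hΓn : Gam p Z i ≤ p.C ^ p.n * |Z l - ev s l Z| :=
    hΓ.trans (mul_le_mul_of_nonneg_right hCln hpos.le)
  refine ⟨by linarith, ?_⟩
  -- the error at every level `≤ l`
  have herr : ∀ j ≤ l, |X j - Z j| ≤ Gam p Z i / p.K + p.Cs := by
    intro j hj
    have hjn : j < p.n := lt_of_le_of_lt hj hl
    have hKp : 0 < p.K := by linarith
    have hΓK : 0 ≤ Gam p Z i / p.K := by
      apply div_nonneg _ hKp.le
      linarith
    by_cases hcj : con p Z j
    · have h1 := (htr j hjn).1 hcj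
      have h2 : p.K * Gam p Z j ≤ Gam p Z i := by
        rcases lt_trichotomy j i with h | h | h
        · exact ho2 j i h hin hcj
        · exact absurd (h ▸ hcj) hfree
        · exact ho3 i j h hjn hfree
      have h3 : Gam p Z j ≤ Gam p Z i / p.K := by
        rw [le_div_iff₀ hKp]
        linarith
      linarith
    · have h1 := (htr j hjn).2 hcj
      linarith
  have hsum : ∑ j ∈ range l, |s j| ≤ p.C := hp.fam.norm l hl s hs
  have hE0 : 0 ≤ Gam p Z i / p.K + p.Cs := (abs_nonneg _).trans (herr l le_rfl)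
  have hev := ev_diff_le s l X Z _ (fun j hj => herr j hj.le)
  have h1 : |(X l - ev s l X) - (Z l - ev s l Z)|
      ≤ (Gam p Z i / p.K + p.Cs) + p.C * (Gam p Z i / p.K + p.Cs) := by
    have e : (X l - ev s l X) - (Z l - ev s l Z) = (X l - Z l) - (ev s l X - ev s l Z) := by ring
    rw [e]
    refine (abs_sub _ _).trans (add_le_add (herr l le_rfl) (hev.trans ?_))
    exact mul_le_mul_of_nonneg_right hsum hE0
  -- final comparison
  have hΓpos : 0 < Gam p Z i := by linarith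
  have hKp : 0 < p.K := by linarith
  have hCn1 : p.C ^ (p.n + 1) = p.C ^ p.n * p.C := pow_succ _ _
  have hCn : (1 : ℝ) ≤ p.C ^ p.n := hCl p.n
  -- `4 C^(n+1) Γ/K ≤ Γ/2`
  have h2 : 4 * (p.C ^ p.n * p.C) * (Gam p Z i / p.K) ≤ Gam p Z i / 2 := by
    have hK' := hp.K_ge'
    rw [hCn1] at hK'
    rw [← mul_div_assoc, div_le_iff₀ hKp]
    nlinarith
  have h3 : 4 * (p.C ^ p.n * p.C) * p.Cs ≤ Gam p Z i / 2 := by
    have hG' := hp.G_ge
    rw [hCn1] at hG'
    linarith
  have h4 : 4 * (p.C ^ p.n * p.C) * (Gam p Z i / p.K + p.Cs)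
      ≤ p.C ^ p.n * |Z l - ev s l Z| := by
    have : 4 * (p.C ^ p.n * p.C) * (Gam p Z i / p.K + p.Cs) =
      4 * (p.C ^ p.n * p.C) * (Gam p Z i / p.K) + 4 * (p.C ^ p.n * p.C) * p.Cs := by ring
    rw [this]
    linarith
  have h5 : 4 * p.C * (Gam p Z i / p.K + p.Cs) ≤ |Z l - ev s l Z| := by
    have hCnp : 0 < p.C ^ p.n := by linarith
    have : p.C ^ p.n * (4 * p.C * (Gam p Z i / p.K + p.Cs)) ≤ p.C ^ p.n * |Z l - ev s l Z| := by
      calc _ = 4 * (p.C ^ p.n * p.C) * (Gam p Z i / p.K + p.Cs) := by ring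
        _ ≤ _ := h4
    exact le_of_mul_le_mul_left this hCnp
  have h6 : (Gam p Z i / p.K + p.Cs) ≤ p.C * (Gam p Z i / p.K + p.Cs) := by nlinarith
  linarith

end P072
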