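import Vale.Agent.P072.Statements2

/-!
# P072 : constant rates are a special case of measurable rates
-/

namespace P072

open Finset Filter Topology MeasureTheory

lemma massAction_continuous {d : ℕ} (net : Network d) (k : (Fin d → ℕ) × (Fin d → ℕ) → ℝ) :
    Continuous (net.massAction k) := by
  unfold Network.massAction
  fun_prop

/-- Classical solutions are Carathéodory solutions, for the intervals `J` used here. -/
lemma IsSol.isCSol {d : ℕ} {net : Network d} {k : (Fin d → ℕ) × (Fin d → ℕ) → ℝ} {J : Set ℝ}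
    (hJ : ∀ t ∈ J, Set.Icc 0 t ⊆ J ∧ 0 ≤ t) {x : ℝ → (Fin d → ℝ)}
    (hx : IsSol (net.massAction k) J x) : IsCSol (net.field fun _ => k) 0 J x := by
  have hc : ContinuousOn x J := fun t ht => (hx t ht).continuousWithinAt
  refine ⟨hc, fun t ht => ?_⟩
  obtain ⟨hsub, ht0⟩ := hJ t ht
  have hcont : ContinuousOn (fun s => net.massAction k (x s)) (Set.Icc 0 t) :=
    (massAction_continuous net k).comp_continuousOn (hc.mono hsub)
  have h := intervalIntegral.integral_eq_sub_of_hasDeriv_right_of_le ht0 (hc.mono hsub)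
    (f' := fun s => net.massAction k (x s)) (fun s hs => by
      have h1 : HasDerivWithinAt x (net.massAction k (x s)) (Set.Icc 0 t) s :=
        (hx s (hsub ⟨hs.1.le, hs.2.le⟩)).mono hsub
      have h2 : HasDerivAt x (net.massAction k (x s)) s :=
        h1.hasDerivAt (Icc_mem_nhds hs.1 hs.2)
      exact h2.hasDerivWithinAt)
    (hcont.intervalIntegrable_of_Icc ht0)
  unfold Network.field
  rw [h]; simp

/-- Carathéodory solutions for constant rates are classical solutions. -/
lemma IsCSol.isSol {d : ℕ} {net : Network d} {k : (Fin d → ℕ) × (Fin d → ℕ) → ℝ}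
    {x : ℝ → (Fin d → ℝ)} (hx : IsCSol (net.field fun _ => k) 0 (Set.Ici 0) x) :
    IsSol (net.massAction k) (Set.Ici 0) x := by
  intro t ht
  obtain ⟨hc, hx⟩ := hx
  -- extend continuously
  set g : ℝ → (Fin d → ℝ) := fun s => net.massAction k (x (max s 0)) with hg
  have hgc : Continuous g := by
    apply (massAction_continuous net k).comp
    rw [← continuousOn_univ]
    exact hc.comp (continuous_id.max continuous_const).continuousOn (fun s _ => by
      simp only [Set.mem_Ici]; exact le_max_right _ _)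
  have h1 : HasDerivAt (fun u => ∫ s in (0:ℝ)..u, g s) (g t) t :=
    intervalIntegral.integral_hasDerivAt_right (hgc.intervalIntegrable _ _)
      (hgc.stronglyMeasurableAtFilter _ _) hgc.continuousAt
  have h2 : HasDerivWithinAt (fun u => x 0 + ∫ s in (0:ℝ)..u, g s) (g t) (Set.Ici 0) t := by
    have := (h1.const_add (x 0)).hasDerivWithinAt (s := Set.Ici (0:ℝ))
    simpa using this
  have h3 : g t = net.massAction k (x t) := by
    simp only [hg]; rw [max_eq_left ht]
  rw [h3] at h2
  have heq : ∀ u ∈ Set.Ici (0:ℝ), x u = x 0 + ∫ s in (0:ℝ)..u, g s := by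
    intro u hu
    rw [hx u hu]
    congr 1
    apply intervalIntegral.integral_congr
    intro s hs
    have hs0 : 0 ≤ s := by
      rw [Set.uIcc_of_le hu] at hs; exact hs.1
    simp only [hg, Network.field]
    rw [max_eq_left hs0]
  exact h2.congr heq (heq t ht)

/-- For positive constant rates there is an admissible `ε`. -/
lemma exists_eps {d : ℕ} (net : Network d) (k : (Fin d → ℕ) × (Fin d → ℕ) → ℝ)
    (hk : ∀ r ∈ net.reactions, 0 < k r) : ∃ ε : ℝ, 0 < ε ∧ RateOK net ε k := by
  have key : ∀ s : Finset ((Fin d → ℕ) × (Fin d → ℕ)), (∀ r ∈ s, 0 < k r) →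
      ∃ ε : ℝ, 0 < ε ∧ ∀ r ∈ s, ε ≤ k r ∧ k r ≤ ε⁻¹ := by
    intro s
    classical
    induction s using Finset.induction_on with
    | empty => intro _; exact ⟨1, one_pos, fun r hr => absurd hr (Finset.notMem_empty r)⟩
    | insert a s _ ih =>
      intro h
      obtain ⟨ε, hε, h1⟩ := ih fun r hr => h r (Finset.mem_insert_of_mem hr)
      have ha := h a (Finset.mem_insert_self a s)
      refine ⟨min ε (min (k a) (k a)⁻¹), by positivity, fun r hr => ?_⟩
      have hm : 0 < min ε (min (k a) (k a)⁻¹) := by positivity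
      rcases Finset.mem_insert.1 hr with rfl | hr
      · constructor
        · exact (min_le_right _ _).trans (min_le_left _ _)
        · rw [le_inv_comm₀ ha hm]
          exact (min_le_right _ _).trans (min_le_right _ _)
      · constructor
        · exact (min_le_left _ _).trans (h1 r hr).1
        · refine (h1 r hr).2.trans ?_
          rw [inv_le_inv₀ hε hm]
          exact min_le_left _ _
  exact key net.reactions hk

theorem final_of_final2 (h : S2_FINAL) : S_FINAL := by
  intro d net k hwr hk c hc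
  obtain ⟨ε, hε, hrate⟩ := exists_eps net k hk
  have hR : Rates net ε (fun _ => k) := ⟨fun r _ => measurable_const, fun t _ => hrate⟩
  obtain ⟨h1, K, hK1, hK2, hK3⟩ := h d net ε hwr hε c hc
  have hIci : ∀ t ∈ Set.Ici (0:ℝ), Set.Icc 0 t ⊆ Set.Ici (0:ℝ) ∧ 0 ≤ t :=
    fun t ht => ⟨fun s hs => hs.1, ht⟩
  refine ⟨fun x0 hx0 => ?_, K, hK1, hK2, fun x hx0 hx => ?_⟩
  · obtain ⟨x, hx0', hx, hxP, hun⟩ := h1 (fun _ => k) hR x0 hx0
    refine ⟨x, hx0', hx.isSol, hxP, fun T y hT hy0 hy => ?_⟩
    apply hun T y hT hy0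
    exact hy.isCSol fun t (ht : t ∈ Set.Ico 0 T) =>
      (⟨fun s hs => ⟨hs.1, lt_of_le_of_lt hs.2 ht.2⟩, ht.1⟩ : Set.Icc 0 t ⊆ Set.Ico 0 T ∧ 0 ≤ t)
  · exact hK3 (fun _ => k) hR x hx0 (hx.isCSol hIci)

end P072
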