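import Vale.Agent.P072.Statements2
import Vale.Agent.P072.Dyn

namespace P072

open Finset Filter Topology

theorem dyn2 : S2_DYN := by
  intro d net ε hWR hε
  classical
  set N : ℝ := (net.reactions.card : ℝ) with hN
  have hN0 : 0 ≤ N := by positivity
  set b : ℝ := 1 + 64 * N * ε⁻¹ / ε with hb
  have hterm : 0 ≤ 64 * N * ε⁻¹ / ε := by positivity
  have hb1 : 1 ≤ b := by linarith
  refine ⟨b, by linarith, ?_⟩
  intro k hkε x v hx hcomp
  have hk : ∀ r ∈ net.reactions, 0 < k r := fun r hr => lt_of_lt_of_le hε (hkε r hr).1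
  have hbp : ∀ r ∈ net.reactions, ∀ z ∈ net.reactions, 64 * N * k r / k z ≤ b := by
    intro r hr z hz
    have h1 : 64 * N * k r / k z ≤ 64 * N * ε⁻¹ / ε := by
      apply div_le_div₀ (by positivity) _ hε (hkε z hz).1
      exact mul_le_mul_of_nonneg_left (hkε r hr).2 (by positivity)
    linarith
  -- notation
  set a : (Fin d → ℕ) × (Fin d → ℕ) → ℝ := fun r => ∑ i, rvec r i * v i with ha
  set w : (Fin d → ℕ) × (Fin d → ℕ) → ℝ := fun r => k r * ∏ i, x i ^ r.1 i with hw
  set φ : (Fin d → ℕ) → ℝ := fun y => ∑ i, (y i : ℝ) * v i with hφ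
  have haφ : ∀ r, a r = φ r.2 - φ r.1 := by
    intro r
    simp only [ha, hφ, rvec, ← Finset.sum_sub_distrib]
    apply Finset.sum_congr rfl
    intro i _
    ring
  have hwpos : ∀ r ∈ net.reactions, 0 < w r := by
    intro r hr
    simp only [hw]
    have := hk r hr
    have : 0 < ∏ i, x i ^ r.1 i := Finset.prod_pos fun i _ => pow_pos (hx i) _
    positivity
  -- the compatibility for two complexes
  have hcomp' : ∀ y ∈ net.complexes, ∀ z ∈ net.complexes, φ y < φ z →
      b ≤ φ z - φ y ∧ φ z - φ y ≤ 4 * ((∑ i, (z i : ℝ) * Real.log (x i))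
        - ∑ i, (y i : ℝ) * Real.log (x i)) := by
    intro y hy z hz hyz
    have hmem : rvec (y, z) ∈ net.diffs := by
      unfold Network.diffs
      rw [Finset.mem_image]
      exact ⟨(y, z), Finset.mem_product.mpr ⟨hy, hz⟩, rfl⟩
    have h0 : ∑ i, rvec (y, z) i * v i = φ z - φ y := by
      have := haφ (y, z)
      simpa [ha] using this
    have h1 : ∑ i, rvec (y, z) i * Real.log (x i) = (∑ i, (z i : ℝ) * Real.log (x i))
        - ∑ i, (y i : ℝ) * Real.log (x i) := by
      rw [← Finset.sum_sub_distrib]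
      apply Finset.sum_congr rfl
      intro i _
      simp only [rvec]
      ring
    have h2 := hcomp (rvec (y, z)) hmem (by rw [h0]; linarith)
    rw [h0, h1] at h2
    exact h2
  -- negative reactions have a ≤ -b
  have hneg : ∀ r ∈ net.reactions, a r < 0 → a r ≤ -b := by
    intro r hr har
    have h := haφ r
    have h1 := (hcomp' r.2 (net.target_mem r hr) r.1 (net.source_mem r hr) (by linarith)).1
    linarith
  -- every positive reaction is dominated by a negative one
  have hdom : ∀ r ∈ net.reactions, 0 < a r → ∃ z ∈ net.reactions, a z < 0 ∧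
      2 * N * (w r * a r) ≤ w z * (-a z) := by
    intro r hr har
    have hφr := haφ r
    obtain ⟨z, z', hzz, hz1, hz2⟩ := exists_drop (fun a b => (a, b) ∈ net.reactions) φ (φ r.2)
      (hWR r hr) le_rfl (by linarith)
    have haz : a (z, z') < 0 := by
      rw [haφ]
      simp only
      linarith
    refine ⟨(z, z'), hzz, haz, ?_⟩
    have hazb := hneg _ hzz haz
    have hzc := net.source_mem _ hzz
    simp only at hzc
    obtain ⟨hb', hexp⟩ := hcomp' r.1 (net.source_mem r hr) z hzc (by linarith)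
    set t : ℝ := φ z - φ r.1 with ht
    have hat : a r ≤ t := by rw [haφ]; linarith
    have ht0 : 0 < t := by linarith
    -- monomials
    have hmono : (∏ i, x i ^ r.1 i) * Real.exp (t / 4) ≤ ∏ i, x i ^ z i := by
      rw [monomial_eq_exp x hx, monomial_eq_exp x hx, ← Real.exp_add]
      apply Real.exp_le_exp.mpr
      linarith
    have hkr := hk r hr
    have hkz := hk _ hzz
    have hexp2 : t ^ 2 / 32 ≤ Real.exp (t / 4) := by
      have := Real.quadratic_le_exp_of_nonneg (x := t / 4) (by linarith)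
      nlinarith
    have hkey : 2 * N * (k r * t) ≤ k (z, z') * Real.exp (t / 4) := by
      have h1 := hbp r hr _ hzz
      have h2 : 64 * N * k r ≤ t * k (z, z') := by
        rw [div_le_iff₀ hkz] at h1
        nlinarith
      have h3 : k (z, z') * (t ^ 2 / 32) ≤ k (z, z') * Real.exp (t / 4) :=
        mul_le_mul_of_nonneg_left hexp2 hkz.le
      nlinarith
    have hprod : 0 < ∏ i, x i ^ r.1 i := Finset.prod_pos fun i _ => pow_pos (hx i) _
    have hprodz : 0 < ∏ i, x i ^ z i := Finset.prod_pos fun i _ => pow_pos (hx i) _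
    calc 2 * N * (w r * a r) = (2 * N * (k r * a r)) * ∏ i, x i ^ r.1 i := by
          simp only [hw]; ring
      _ ≤ (2 * N * (k r * t)) * ∏ i, x i ^ r.1 i := by
          apply mul_le_mul_of_nonneg_right _ hprod.le
          apply mul_le_mul_of_nonneg_left _ (by linarith)
          exact mul_le_mul_of_nonneg_left hat hkr.le
      _ ≤ (k (z, z') * Real.exp (t / 4)) * ∏ i, x i ^ r.1 i :=
          mul_le_mul_of_nonneg_right hkey hprod.le
      _ = k (z, z') * ((∏ i, x i ^ r.1 i) * Real.exp (t / 4)) := by ring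
      _ ≤ k (z, z') * ∏ i, x i ^ z i := mul_le_mul_of_nonneg_left hmono hkz.le
      _ = w (z, z') * 1 := by simp only [hw]; ring
      _ ≤ w (z, z') * (-a (z, z')) := by
          apply mul_le_mul_of_nonneg_left _ (hwpos _ hzz).le
          linarith
  -- main alternative
  by_cases hall : ∀ r ∈ net.reactions, a r = 0
  · exact Or.inl hall
  right
  push Not at hall
  obtain ⟨r0, hr0, har0⟩ := hall
  -- there is a negative reaction
  have hexneg : (net.reactions.filter (fun r => a r < 0)).Nonempty := by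
    rcases lt_or_gt_of_ne har0 with h | h
    · exact ⟨r0, Finset.mem_filter.mpr ⟨hr0, h⟩⟩
    · obtain ⟨z, hz, hz', _⟩ := hdom r0 hr0 h
      exact ⟨z, Finset.mem_filter.mpr ⟨hz, hz'⟩⟩
  obtain ⟨zs, hzs, hmax⟩ := Finset.exists_max_image _ (fun r => w r * (-a r)) hexneg
  rw [Finset.mem_filter] at hzs
  obtain ⟨hzsR, hzsneg⟩ := hzs
  set Mx : ℝ := w zs * (-a zs) with hMx
  have hMx0 : 0 < Mx := mul_pos (hwpos _ hzsR) (by linarith)
  have hNpos : 0 < N := by
    rw [hN]
    exact_mod_cast Finset.card_pos.mpr ⟨r0, hr0⟩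
  -- each term is at most Mx / (2N), and the zs term is -Mx
  have hle : ∀ r ∈ net.reactions, w r * a r ≤ Mx / (2 * N) := by
    intro r hr
    rcases le_or_gt (a r) 0 with h | h
    · have h1 : w r * a r ≤ 0 := mul_nonpos_of_nonneg_of_nonpos (hwpos r hr).le h
      have h2 : 0 ≤ Mx / (2 * N) := by positivity
      linarith
    · obtain ⟨z, hz, hz', hz2⟩ := hdom r hr h
      have h3 : w z * (-a z) ≤ Mx := hmax z (Finset.mem_filter.mpr ⟨hz, hz'⟩)
      rw [le_div_iff₀ (by positivity)]
      linarith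
  refine ⟨zs, hzsR, ?_⟩
  rw [dot_massAction]
  have hsplit : ∑ r ∈ net.reactions, (k r * ∏ i, x i ^ r.1 i) * ∑ i, rvec r i * v i
      = w zs * a zs + ∑ r ∈ net.reactions.erase zs, w r * a r := by
    rw [Finset.add_sum_erase _ (fun r => w r * a r) hzsR]
  rw [hsplit]
  have hsum : ∑ r ∈ net.reactions.erase zs, w r * a r
      ≤ ∑ r ∈ net.reactions.erase zs, Mx / (2 * N) :=
    Finset.sum_le_sum fun r hr => hle r (Finset.mem_of_mem_erase hr)
  rw [Finset.sum_const, nsmul_eq_mul] at hsum
  have hcard : ((net.reactions.erase zs).card : ℝ) ≤ N := by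
    rw [hN]
    exact_mod_cast Finset.card_le_card (Finset.erase_subset _ _)
  have hsum2 : ((net.reactions.erase zs).card : ℝ) * (Mx / (2 * N)) ≤ N * (Mx / (2 * N)) :=
    mul_le_mul_of_nonneg_right hcard (by positivity)
  have hsum3 : N * (Mx / (2 * N)) = Mx / 2 := by
    field_simp
  have h4 : w zs * a zs = -Mx := by rw [hMx]; ring
  have h5 : b * w zs ≤ Mx := by
    rw [hMx]
    have := hneg zs hzsR hzsneg
    have := hwpos zs hzsR
    nlinarith
  have h6 : b / 2 * (ε * ∏ i, x i ^ zs.1 i) ≤ b * w zs / 2 := by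
    have h7 : ε * ∏ i, x i ^ zs.1 i ≤ w zs := by
      simp only [hw]
      exact mul_le_mul_of_nonneg_right (hkε zs hzsR).1
        (Finset.prod_nonneg fun i _ => (pow_pos (hx i) _).le)
    nlinarith
  linarith

end P072
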