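import Vale.Agent.P072.Statements2

/-!
# P072, U9 : assembly of the permanence theorem for measurable time-dependent rates
-/

namespace P072

open Finset Filter Topology MeasureTheory

/-- The integrand of a Carathéodory solution is integrable. -/
lemma field_intInt {d : ℕ} {net : Network d} {ε : ℝ}
    {k : ℝ → (Fin d → ℕ) × (Fin d → ℕ) → ℝ} (hε : 0 < ε) (hk : Rates net ε k)
    {x : ℝ → (Fin d → ℝ)} {t0 t1 : ℝ} (h0 : 0 ≤ t0) (h01 : t0 ≤ t1)
    (hx : ContinuousOn x (Set.Icc t0 t1)) :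
    IntervalIntegrable (fun s => net.field k s (x s)) volume t0 t1 := by
  rw [intervalIntegrable_iff_integrableOn_Icc_of_le h01]
  unfold Network.field Network.massAction
  apply integrable_finsetSum
  intro r hr
  have h1 : ContinuousOn (fun s => (∏ i, x s i ^ r.1 i) • rvec r) (Set.Icc t0 t1) := by
    have h0 : ContinuousOn (fun s => ∏ i, x s i ^ r.1 i) (Set.Icc t0 t1) := by
      apply continuousOn_finsetProd
      intro i _
      exact ((continuous_apply i).comp_continuousOn hx).pow _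
    exact h0.smul continuousOn_const
  have h2 : IntegrableOn (fun s => (∏ i, x s i ^ r.1 i) • rvec r) (Set.Icc t0 t1) volume :=
    h1.integrableOn_Icc
  have h3 : (fun s => (k s r * ∏ i, x s i ^ r.1 i) • rvec r) =
      fun s => k s r • ((∏ i, x s i ^ r.1 i) • rvec r) := by
    funext s; rw [mul_smul]
  rw [h3]
  refine Integrable.bdd_smul (f := fun s => (∏ i, x s i ^ r.1 i) • rvec r)
    (φ := fun s => k s r) h2 ε⁻¹ ?_ ?_
  · exact (hk.meas r hr).aestronglyMeasurable
  · rw [ae_restrict_iff' measurableSet_Icc]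
    refine Eventually.of_forall fun s hs => ?_
    have h4 := hk.bounds s (h0.trans hs.1) r hr
    rw [Real.norm_eq_abs, abs_of_nonneg (by linarith [h4.1])]
    exact h4.2

lemma IsCSol.base {d : ℕ} {net : Network d} {ε : ℝ}
    {k : ℝ → (Fin d → ℕ) × (Fin d → ℕ) → ℝ} (hε : 0 < ε) (hk : Rates net ε k)
    {x : ℝ → (Fin d → ℝ)} (hx : IsCSol (net.field k) 0 (Set.Ici 0) x) {t0 t1 : ℝ}
    (ht0 : 0 ≤ t0) : IsCSol (net.field k) t0 (Set.Icc t0 t1) x := by
  have hsub : ∀ a b : ℝ, 0 ≤ a → Set.Icc a b ⊆ Set.Ici 0 := fun a b ha s hs => ha.trans hs.1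
  refine ⟨hx.1.mono (hsub _ _ ht0), fun t ht => ?_⟩
  have h1 := hx.2 t0 ht0
  have h2 := hx.2 t (ht0.trans ht.1)
  have i1 := field_intInt hε hk le_rfl ht0 (hx.1.mono (hsub 0 t0 le_rfl))
  have i2 := field_intInt hε hk ht0 ht.1 (hx.1.mono (hsub t0 t ht0))
  rw [h2, h1, add_assoc, intervalIntegral.integral_add_adjacent_intervals i1 i2]

theorem final2 (hPOT : S_POT) (hDYN : S2_DYN) (hINV : S2_INV) (hUQ : S2_UNIQ)
    (hGL : S2_GLOB) (hCL : S2_CLASS) (hBOX : S_BOX) (hEN : S2_ENTER) : S2_FINAL := by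
  intro d net ε hwr hε c hc
  -- every solution starting in the open orthant stays in a compact subset of it
  have hcomp : ∀ x0 : Fin d → ℝ, (∀ i, 0 < x0 i) → ∃ P : Set (Fin d → ℝ), IsCompact P ∧
      x0 ∈ P ∧ (∀ x ∈ P, ∀ i, 0 < x i) ∧ FwdInv2 net ε P := by
    intro x0 hx0
    obtain ⟨P, h1, h2, h3, h4⟩ := hINV d net ε hwr hε {x0} isCompact_singleton
      (by rintro x rfl; exact hx0)
    exact ⟨P, h1, h2 rfl, h3, h4⟩
  have hstay : ∀ (P : Set (Fin d → ℝ)) k, Rates net ε k → ∀ (x : ℝ → (Fin d → ℝ)) (t0 : ℝ),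
      0 ≤ t0 → FwdInv2 net ε P → IsCSol (net.field k) 0 (Set.Ici 0) x → x t0 ∈ P →
      ∀ t, t0 ≤ t → x t ∈ P := by
    intro P k hk x t0 ht0 hP hx hx0 t ht
    rcases eq_or_lt_of_le ht with rfl | hlt
    · exact hx0
    exact hP k hk x t0 t ht0 hlt (hx.base hε hk ht0) hx0 t ⟨ht, le_rfl⟩
  constructor
  · intro k hk x0 hx0
    obtain ⟨P, hP1, hP2, hP3, hP4⟩ := hcomp x0 hx0.1
    obtain ⟨x, h1, h2, h3⟩ := hGL d net ε k hε hk P hP1 hP4 x0 hP2
    refine ⟨x, h1, h2, fun t ht => ⟨hP3 _ (h3 t ht), ?_⟩, ?_⟩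
    · have h4 := hCL d net k x h2 t ht
      have h5 := net.stoich.add_mem h4 hx0.2
      rw [h1] at h5
      simpa using h5
    · intro T y hT hy0 hy t ht
      exact hUQ d net ε k hε hk x y T h2 hy (by rw [h1, hy0]) t ht
  · obtain ⟨b, hb, hdyn⟩ := hDYN d net ε hwr hε
    obtain ⟨M, W, V, hpot⟩ := hPOT d univ net.diffs b
    have hV : ∀ κ, RateOK net ε κ → ∀ y : Fin d → ℝ, (∀ i, 0 < y i) →
        (∀ r ∈ net.reactions, ∑ i, rvec r i * V y i = 0) ∨
        ∃ r ∈ net.reactions, ∑ i, V y i * net.massAction κ y i ≤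
          -(b / 2 * (ε * ∏ i, y i ^ r.1 i)) := by
      intro κ hκ y hy
      refine hdyn κ hκ y (V y) hy ?_
      intro r hr hpos
      obtain ⟨h1, h2⟩ := hpot.compat y hy r hr hpos
      exact ⟨h1, by linarith⟩
    obtain ⟨L, hL⟩ := hBOX d net c net.diffs b M W V hc hpot
    -- the compact box
    set K0 : Set (Fin d → ℝ) := Set.Icc (fun _ => Real.exp (-L)) (fun _ => Real.exp L) with hK0
    have hK0pos : ∀ x ∈ K0, ∀ i, 0 < x i := fun x hx i => lt_of_lt_of_le (Real.exp_pos _) (hx.1 i)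
    obtain ⟨P0, hP01, hP02, hP03, hP04⟩ := hINV d net ε hwr hε K0 isCompact_Icc hK0pos
    refine ⟨P0 ∩ {x | x - c ∈ net.stoich}, ?_, ?_, ?_⟩
    · apply hP01.inter_right
      exact (Submodule.closed_of_finiteDimensional net.stoich).preimage
        (continuous_id.sub continuous_const)
    · rintro x ⟨hx1, hx2⟩
      exact ⟨hP03 x hx1, hx2⟩
    · intro k hk x hx0 hx
      obtain ⟨P, hP1, hP2, hP3, hP4⟩ := hcomp (x 0) hx0.1
      have hxP : ∀ t, 0 ≤ t → x t ∈ P := fun t ht => hstay P k hk x 0 le_rfl hP4 hx hP2 t ht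
      have hcl : ∀ t, 0 ≤ t → x t - c ∈ net.stoich := by
        intro t ht
        have h4 := hCL d net k x hx t ht
        have h5 := net.stoich.add_mem h4 hx0.2
        simpa using h5
      obtain ⟨T, hT0, hT⟩ := hEN d net ε k net.diffs b b M W V P x hε hk hb hpot hV hP1 hP3 hx hxP
      have hbox : x T ∈ K0 := by
        have hpos := hP3 _ (hxP T hT0)
        have h6 := hL (x T) hpos (hcl T hT0) hT
        constructor
        · intro i
          have h7 := (abs_le.1 (h6 i)).1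
          calc Real.exp (-L) ≤ Real.exp (Real.log (x T i)) := Real.exp_le_exp.2 h7
            _ = x T i := Real.exp_log (hpos i)
        · intro i
          have h7 := (abs_le.1 (h6 i)).2
          calc x T i = Real.exp (Real.log (x T i)) := (Real.exp_log (hpos i)).symm
            _ ≤ Real.exp L := Real.exp_le_exp.2 h7
      refine ⟨T, fun t ht => ⟨?_, hcl t (hT0.trans ht)⟩⟩
      exact hstay P0 k hk x T hT0 hP04 hx (hP02 hbox) t ht

end P072
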