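import Vale.Agent.P072.Sep

/-!
# P072: T5a, T5b (greedy extensions)
-/

namespace P072

open Finset Filter Topology

theorem Greedy_congr {p : Par} {x Z Z' : ℕ → ℝ} {m : ℕ} (h : ∀ j < m + 1, Z j = Z' j) :
    Greedy p x Z m ↔ Greedy p x Z' m := by
  have h' : ∀ j < m, Z j = Z' j := fun j hj => h j (by omega)
  unfold Greedy
  rw [Gam_congr h', h m (Nat.lt_succ_self m)]
  simp only [ev_congr h']

/-- **T5a.** -/
theorem grex : S_GREX := by
  intro p x Z0 k hk
  have key : ∀ r, k + r ≤ p.n → ∃ Z : ℕ → ℝ, (∀ j < k, Z j = Z0 j) ∧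
      (∀ m, k ≤ m → m < k + r → Greedy p x Z m) ∧ ∀ m, k + r ≤ m → Z m = 0 := by
    intro r
    induction r with
    | zero =>
      intro _
      refine ⟨fun j => if j < k then Z0 j else 0, ?_, ?_, ?_⟩
      · intro j hj
        simp [hj]
      · intro m h1 h2
        omega
      · intro m hm
        simp only [Nat.add_zero] at hm
        simp [not_lt.2 hm]
    | succ r ih =>
      intro hr
      obtain ⟨Z, hZ1, hZ2, hZ3⟩ := ih (by omega)
      -- the value at level `k + r`
      obtain ⟨z, hz⟩ : ∃ z : ℝ,
          (∃ q ∈ p.Q (k + r), |Real.log (x (k + r)) - ev q (k + r) Z| < Gam p Z (k + r) ∧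
            z = ev q (k + r) Z) ∨
          ((∀ q ∈ p.Q (k + r), Gam p Z (k + r) ≤ |Real.log (x (k + r)) - ev q (k + r) Z|) ∧
            z = Real.log (x (k + r))) := by
        by_cases h : ∃ q ∈ p.Q (k + r), |Real.log (x (k + r)) - ev q (k + r) Z| < Gam p Z (k + r)
        · obtain ⟨q, hq, h⟩ := h
          exact ⟨_, Or.inl ⟨q, hq, h, rfl⟩⟩
        · push Not at h
          exact ⟨_, Or.inr ⟨h, rfl⟩⟩
      have hag : ∀ j < k + r, Z j = Function.update Z (k + r) z j := by
        intro j hj
        rw [Function.update_of_ne (by omega)]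
      refine ⟨Function.update Z (k + r) z, ?_, ?_, ?_⟩
      · intro j hj
        rw [Function.update_of_ne (by omega)]
        exact hZ1 j hj
      · intro m h1 h2
        rcases Nat.lt_or_ge m (k + r) with h3 | h3
        · exact (Greedy_congr fun j hj => hag j (by omega)).1 (hZ2 m h1 h3)
        · obtain rfl : m = k + r := by omega
          unfold Greedy
          rw [← Gam_congr hag, Function.update_self]
          simp only [← ev_congr hag]
          exact hz
      · intro m hm
        rw [Function.update_of_ne (by omega)]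
        exact hZ3 m (by omega)
  obtain ⟨Z, h1, h2, h3⟩ := key (p.n - k) (by omega)
  have e : k + (p.n - k) = p.n := by omega
  rw [e] at h2 h3
  exact ⟨Z, h1, h2, h3⟩

theorem Greedy.lev {p : Par} {x Z : ℕ → ℝ} {m : ℕ} (h : Greedy p x Z m) : lev p Z m := by
  rcases h with ⟨q, hq, _, h⟩ | ⟨h1, h2⟩
  · exact Or.inl ⟨q, hq, h⟩
  · right
    intro q hq
    rw [h2]
    exact h1 q hq

theorem Greedy.near {p : Par} (g : p.Good) {x Z : ℕ → ℝ} {m : ℕ} (hm : m < p.n)
    (h : Greedy p x Z m) : Near p x Z m := by
  have hG := Gam_pos g Z hm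
  have hCs := g.Cs_ge
  rcases h with ⟨q, hq, h1, h2⟩ | ⟨_, h2⟩
  · refine ⟨fun _ => ?_, fun hc => absurd ⟨q, hq, h2⟩ hc⟩
    rw [h2]
    have := (abs_lt.1 h1).2
    linarith
  · refine ⟨fun _ => ?_, fun _ => ?_⟩
    · rw [h2]; linarith
    · rw [h2]

theorem Sorted.log_le {n : ℕ} {x : ℕ → ℝ} (h : Sorted n x) {k : ℕ} (hk : k + 1 < n) :
    Real.log (x (k + 1)) ≤ Real.log (x k) :=
  Real.log_le_log (h.1 _ hk) (h.2 k hk)

/-- From `Near` at level `j` we get that `X_{j+1}` is at most slightly above `Z_j`. -/
theorem Near.step {p : Par} (g : p.Good) {x Z : ℕ → ℝ} (hx : Sorted p.n x) {j : ℕ}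
    (hj : j + 1 < p.n) (h : Near p x Z j) :
    Real.log (x (j + 1)) ≤ Z j + Gam p Z (j + 1) / 50 := by
  have h1 := hx.log_le hj
  have hG1 := Gam_pos g Z hj
  have hG0 := G_le_Gam g Z (show j < p.n by omega)
  by_cases hc : con p Z j
  · have h2 := h.1 hc
    have h3 := (ord p g Z).2.1 j (j + 1) (Nat.lt_succ_self j) hj hc
    have h4 := g.K_100
    have h5 := g.G_8Cs
    have h6 : 100 * Gam p Z j ≤ p.K * Gam p Z j :=
      mul_le_mul_of_nonneg_right h4 (by linarith [g.G_16])
    have h7 := g.Cs_ge
    linarith
  · have h2 := h.2 hc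
    linarith

/-- **T5b.** -/
theorem grprop : S_GRPROP := by
  intro p g x Z k hx hk hlev hsort hnear hgr hzero
  have key : ∀ r, k + r ≤ p.n → (∀ j < k + r, lev p Z j) ∧
      (∀ j, j + 1 < k + r → Z (j + 1) ≤ Z j) ∧
      (∀ j, k ≤ j + 1 → j < k + r → Near p x Z j) := by
    intro r
    induction r with
    | zero =>
      intro _
      refine ⟨fun j hj => hlev j (by omega), fun j hj => hsort j (by omega), fun j h1 h2 => ?_⟩
      exact hnear j (by omega)
    | succ r ih =>
      intro hr
      obtain ⟨ih1, ih2, ih3⟩ := ih (by omega)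
      have hmn : k + r < p.n := by omega
      have hg := hgr (k + r) (by omega) hmn
      refine ⟨fun j hj => ?_, fun j hj => ?_, fun j h1 h2 => ?_⟩
      · rcases Nat.lt_or_ge j (k + r) with h | h
        · exact ih1 j h
        · obtain rfl : j = k + r := by omega
          exact hg.lev
      · rcases Nat.lt_or_ge (j + 1) (k + r) with h | h
        · exact ih2 j h
        · have hj' : j + 1 = k + r := by omega
          have hn : Near p x Z j := ih3 j (by omega) (by omega)
          rw [← hj'] at hg hmn
          have hstep := hn.step g hx hmn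
          have hG := Gam_pos g Z hmn
          obtain ⟨t, ht, et⟩ := g.fam.tie (j + 1) hmn j (Nat.lt_succ_self j)
          rcases hg with ⟨q, hq, h1, h2⟩ | ⟨h1, h2⟩
          · rcases sep p g Z (j + 1) hmn (fun i hi => ih1 i (by omega)) q hq t ht with h3 | ⟨_, h3⟩
            · rw [h2, h3, et]
            · have h4 := h3 (j + 1) le_rfl hmn
              rw [et] at h4
              have h5 := (abs_lt.1 h1).1
              have h6 := g.B_100
              have h7 : 100 * Gam p Z (j + 1) ≤ p.B * Gam p Z (j + 1) :=
                mul_le_mul_of_nonneg_right h6 hG.le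
              rw [h2]
              by_contra hcon
              push Not at hcon
              rw [abs_of_pos (by linarith)] at h4
              linarith
          · have h3 := h1 t ht
            rw [et] at h3
            rw [h2]
            by_contra hcon
            push Not at hcon
            rw [abs_of_pos (by linarith)] at h3
            linarith
      · rcases Nat.lt_or_ge j (k + r) with h | h
        · exact ih3 j h1 h
        · obtain rfl : j = k + r := by omega
          exact hg.near g hmn
  obtain ⟨h1, h2, h3⟩ := key (p.n - k) (by omega)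
  have e : k + (p.n - k) = p.n := by omega
  rw [e] at h1 h2 h3
  exact ⟨⟨h1, h2, hzero⟩, h3⟩

end P072
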