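import Vale.Agent.P072.Statements

/-!
# P072: T5c, T5d (losses at one level)
-/

namespace P072

open Finset Filter Topology

/-- If all the positions below `z` are below `w`, the sum in the cost is at most `R exp w`. -/
theorem sum_exp_le {ι : Type} (S : Finset ι) (v : ι → ℝ) (R z w : ℝ)
    (hR : (S.card : ℝ) ≤ R) (h : ∀ q ∈ S, v q < z → v q ≤ w) :
    ∑ q ∈ S with v q < z, Real.exp (v q) ≤ R * Real.exp w := by
  calc ∑ q ∈ S with v q < z, Real.exp (v q)
      ≤ ∑ q ∈ S with v q < z, Real.exp w := by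
        refine Finset.sum_le_sum fun q hq => ?_
        rw [Finset.mem_filter] at hq
        exact Real.exp_le_exp.2 (h q hq.1 hq.2)
    _ = ((S.filter fun q => v q < z).card : ℝ) * Real.exp w := by
        rw [Finset.sum_const, nsmul_eq_mul]
    _ ≤ R * Real.exp w := by
        refine mul_le_mul_of_nonneg_right ?_ (Real.exp_pos _).le
        exact le_trans (by exact_mod_cast Finset.card_filter_le _ _) hR

/-- The cost at a captured level. -/
theorem oneCost_captured_le {ι : Type} (S : Finset ι) (v : ι → ℝ) (n R B G A Γ z : ℝ)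
    (hn : 1 ≤ n) (hR : 1 ≤ R) (hS : (S.card : ℝ) ≤ R) (hB : 100 * n ^ 2 * R ≤ B) (hG : 1 ≤ G)
    (hexp : ∀ t, G ≤ t → B * (1 + t) ≤ Real.exp (t / 2)) (hA : B ≤ A) (hΓ : G ≤ Γ)
    (hsep : ∀ q ∈ S, ∀ q' ∈ S, v q = v q' ∨ A * Γ ≤ |v q - v q'|) (hz : ∃ q ∈ S, z = v q) :
    oneCost n Γ S v z ≤ Real.exp (-Γ / 2) / (8 * n) * Real.exp z := by
  have hΓ1 : 1 ≤ Γ := hG.trans hΓ
  have hn2 : n ≤ n ^ 2 := by nlinarith
  have hnR : n ≤ n * R := by nlinarith
  have hn2R : n * R ≤ n ^ 2 * R := mul_le_mul_of_nonneg_right hn2 (by linarith)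
  have hB100 : 100 ≤ B := by linarith
  have hBpos : 0 < B := by linarith
  have hnpos : 0 < n := by linarith
  -- the exponential bound
  have h1 : B * Γ ≤ Real.exp (Γ / 2) := by
    have := hexp Γ hΓ
    nlinarith
  -- sum
  have hsum : ∑ q ∈ S with v q < z, Real.exp (v q) ≤ R * Real.exp (z - A * Γ) := by
    refine sum_exp_le S v R z _ hS fun q hq hlt => ?_
    obtain ⟨q0, hq0, rfl⟩ := hz
    rcases hsep q0 hq0 q hq with h | h
    · exact absurd h (ne_of_gt hlt)
    · rw [abs_of_pos (by linarith)] at h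
      linarith
  have hE : Real.exp (z - A * Γ) ≤ Real.exp z * (Real.exp (-Γ) * Real.exp (-Γ)) := by
    rw [← Real.exp_add, ← Real.exp_add]
    refine Real.exp_le_exp.2 ?_
    nlinarith
  unfold oneCost
  rw [if_pos hz]
  have hb : Real.exp (-Γ) = Real.exp (-Γ / 2) * Real.exp (-Γ / 2) := by
    rw [← Real.exp_add]; ring_nf
  have hb' : Real.exp (Γ / 2) * Real.exp (-Γ / 2) = 1 := by
    rw [← Real.exp_add]; simp [neg_div]
  have hb'' : Real.exp Γ * Real.exp (-Γ) = 1 := by
    rw [← Real.exp_add]; simp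
  set e := Real.exp (-Γ / 2) with he
  have hepos : 0 < e := Real.exp_pos _
  have hez : 0 < Real.exp z := Real.exp_pos z
  -- `B * Γ * e ≤ 1`
  have h2 : B * Γ * e ≤ 1 := by
    calc B * Γ * e ≤ Real.exp (Γ / 2) * e := mul_le_mul_of_nonneg_right h1 hepos.le
      _ = 1 := hb'
  have hΓe : 100 * (n * R) * (Γ * e) ≤ 1 := by
    have : 100 * (n * R) ≤ B := by linarith
    have h3 : 0 ≤ Γ * e := by positivity
    calc 100 * (n * R) * (Γ * e) ≤ B * (Γ * e) := mul_le_mul_of_nonneg_right this h3
      _ = B * Γ * e := by ring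
      _ ≤ 1 := h2
  have hΓe' : 100 * (n ^ 2 * R) * (Γ * e) ≤ 1 := by
    have : 100 * (n ^ 2 * R) ≤ B := by linarith
    have h3 : 0 ≤ Γ * e := by positivity
    calc 100 * (n ^ 2 * R) * (Γ * e) ≤ B * (Γ * e) := mul_le_mul_of_nonneg_right this h3
      _ = B * Γ * e := by ring
      _ ≤ 1 := h2
  -- first term
  have t1 : Γ / 2 * Real.exp (-Γ) * Real.exp z ≤ e / (200 * n) * Real.exp z := by
    refine mul_le_mul_of_nonneg_right ?_ hez.le
    rw [hb]
    rw [le_div_iff₀ (by positivity)]
    have h4 : 100 * n * (Γ * e) ≤ 1 := by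
      have h5 : 0 ≤ Γ * e := by positivity
      calc 100 * n * (Γ * e) ≤ 100 * (n * R) * (Γ * e) := by
            refine mul_le_mul_of_nonneg_right (by linarith) h5
        _ ≤ 1 := hΓe
    calc Γ / 2 * (e * e) * (200 * n) = (100 * n * (Γ * e)) * e := by ring
      _ ≤ 1 * e := mul_le_mul_of_nonneg_right h4 hepos.le
      _ = e := one_mul e
  -- second term
  have t2 : 8 * n * Γ * Real.exp Γ * ∑ q ∈ S with v q < z, Real.exp (v q)
      ≤ e * 8 / (100 * n) * Real.exp z := by
    calc 8 * n * Γ * Real.exp Γ * ∑ q ∈ S with v q < z, Real.exp (v q)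
        ≤ 8 * n * Γ * Real.exp Γ * (R * (Real.exp z * (Real.exp (-Γ) * Real.exp (-Γ)))) := by
          refine mul_le_mul_of_nonneg_left ?_ (by positivity)
          exact hsum.trans (mul_le_mul_of_nonneg_left hE (by linarith))
      _ = 8 * n * Γ * R * Real.exp z * Real.exp (-Γ) * (Real.exp Γ * Real.exp (-Γ)) := by ring
      _ = 8 * (n * R) * (Γ * e) * e * Real.exp z := by rw [hb'', hb]; ring
      _ ≤ e * 8 / (100 * n) * Real.exp z := by
          refine mul_le_mul_of_nonneg_right ?_ hez.le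
          rw [le_div_iff₀ (by positivity)]
          calc 8 * (n * R) * (Γ * e) * e * (100 * n)
              = 8 * e * (100 * (n ^ 2 * R) * (Γ * e)) := by ring
            _ ≤ 8 * e * 1 := mul_le_mul_of_nonneg_left hΓe' (by positivity)
            _ = e * 8 := by ring
  calc Γ / 2 * Real.exp (-Γ) * Real.exp z
        + 8 * n * Γ * Real.exp Γ * ∑ q ∈ S with v q < z, Real.exp (v q)
      ≤ e / (200 * n) * Real.exp z + e * 8 / (100 * n) * Real.exp z := add_le_add t1 t2
    _ = (e / n * Real.exp z) * (1 / 200 + 8 / 100) := by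
        field_simp
    _ ≤ (e / n * Real.exp z) * (1 / 8) := by
        refine mul_le_mul_of_nonneg_left (by norm_num) (by positivity)
    _ = e / (8 * n) * Real.exp z := by
        field_simp

/-- **T5d.** -/
theorem L2 : S_L2 := by
  intro ι S v n R B G A Γ x z hn hR hS hB hG hexp hA hΓ hx hsep hz
  unfold oneLoss
  have := oneCost_captured_le S v n R B G A Γ z hn hR hS hB hG hexp hA hΓ hsep hz
  linarith

/-- **T5c.** -/
theorem L1 : S_L1 := by
  intro ι S v n R B G A Γ x z hn hR hS hB hG hexp hA hΓ hx hsep hz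
  have hΓ1 : 1 ≤ Γ := hG.trans hΓ
  have hnR1 : 1 ≤ n * R := by nlinarith
  rcases hz with ⟨q, hq, h1, h2⟩ | ⟨h1, h2⟩
  · have hcap : ∃ q ∈ S, z = v q := ⟨q, hq, h2⟩
    have hL2 := L2 ι S v n R B G A Γ x z hn hR hS hB hG hexp hA hΓ hx hsep hcap
    rw [← h2] at h1
    obtain ⟨h3, h4⟩ := abs_lt.1 h1
    have h5 : Real.exp z ≤ x * Real.exp Γ := by
      calc Real.exp z ≤ Real.exp (Real.log x + Γ) := Real.exp_le_exp.2 (by linarith)
        _ = x * Real.exp Γ := by rw [Real.exp_add, Real.exp_log hx]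
    -- but we need a better bound; use the definition directly
    have hcost : oneCost n Γ S v z ≤ Γ * x := by
      have hn2 : n ≤ n ^ 2 := by nlinarith
      have hn2R : n * R ≤ n ^ 2 * R := mul_le_mul_of_nonneg_right hn2 (by linarith)
      have hsum : ∑ q ∈ S with v q < z, Real.exp (v q) ≤ R * Real.exp (z - A * Γ) := by
        refine sum_exp_le S v R z _ hS fun q' hq' hlt => ?_
        rcases hsep q hq q' hq' with h | h
        · rw [h2, h] at hlt
          exact absurd hlt (lt_irrefl _)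
        · rw [h2] at hlt
          rw [abs_of_pos (by linarith)] at h
          linarith
      have hE : Real.exp (z - A * Γ) ≤ x * (Real.exp (-Γ) * Real.exp (-Γ)) := by
        rw [← Real.exp_add]
        calc Real.exp (z - A * Γ) ≤ Real.exp (Real.log x + (-Γ + -Γ)) := by
              refine Real.exp_le_exp.2 ?_
              nlinarith
          _ = _ := by rw [Real.exp_add, Real.exp_log hx]
      have hb'' : Real.exp Γ * Real.exp (-Γ) = 1 := by
        rw [← Real.exp_add]; simp
      have hexpΓ : B * (1 + Γ) * Real.exp (-Γ) ≤ 1 := by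
        calc B * (1 + Γ) * Real.exp (-Γ) ≤ Real.exp (Γ / 2) * Real.exp (-Γ) :=
              mul_le_mul_of_nonneg_right (hexp Γ hΓ) (Real.exp_pos _).le
          _ = Real.exp (-(Γ / 2)) := by rw [← Real.exp_add]; ring_nf
          _ ≤ 1 := Real.exp_le_one_iff.2 (by linarith)
      unfold oneCost
      rw [if_pos hcap]
      have t1 : Γ / 2 * Real.exp (-Γ) * Real.exp z ≤ Γ / 2 * x := by
        calc Γ / 2 * Real.exp (-Γ) * Real.exp z
            ≤ Γ / 2 * Real.exp (-Γ) * (x * Real.exp Γ) :=
              mul_le_mul_of_nonneg_left h5 (by positivity)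
          _ = Γ / 2 * x * (Real.exp Γ * Real.exp (-Γ)) := by ring
          _ = Γ / 2 * x := by rw [hb'', mul_one]
      have t2 : 8 * n * Γ * Real.exp Γ * ∑ q ∈ S with v q < z, Real.exp (v q) ≤ Γ / 2 * x := by
        calc 8 * n * Γ * Real.exp Γ * ∑ q ∈ S with v q < z, Real.exp (v q)
            ≤ 8 * n * Γ * Real.exp Γ * (R * (x * (Real.exp (-Γ) * Real.exp (-Γ)))) := by
              refine mul_le_mul_of_nonneg_left ?_ (by positivity)
              exact hsum.trans (mul_le_mul_of_nonneg_left hE (by linarith))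
          _ = (8 * (n * R) * Real.exp (-Γ)) * (Real.exp Γ * Real.exp (-Γ)) * (Γ * x) := by ring
          _ = (8 * (n * R) * Real.exp (-Γ)) * (Γ * x) := by rw [hb'', mul_one]
          _ ≤ (1 / 2) * (Γ * x) := by
              refine mul_le_mul_of_nonneg_right ?_ (by positivity)
              have hp : 0 < Real.exp (-Γ) := Real.exp_pos _
              have h6 : 16 * (n * R) ≤ B * (1 + Γ) := by nlinarith
              have h7 : 16 * (n * R) * Real.exp (-Γ) ≤ 1 :=
                (mul_le_mul_of_nonneg_right h6 hp.le).trans hexpΓ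
              linarith
          _ = Γ / 2 * x := by ring
      linarith
    unfold oneLoss
    have h6 : x * (Real.log x - 1 - z) ≤ x * Γ :=
      mul_le_mul_of_nonneg_left (by linarith) hx.le
    have h7 : Γ * x * 1 ≤ Γ * x * (n * R) :=
      mul_le_mul_of_nonneg_left hnR1 (by positivity)
    nlinarith [mul_pos (show 0 < Γ by linarith) hx]
  · have hncap : ¬ ∃ q ∈ S, z = v q := by
      rintro ⟨q, hq, h3⟩
      have h4 := h1 q hq
      rw [← h2, ← h3, sub_self, abs_zero] at h4
      linarith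
    have hsum : ∑ q ∈ S with v q < z, Real.exp (v q) ≤ R * Real.exp (z - Γ) := by
      refine sum_exp_le S v R z _ hS fun q' hq' hlt => ?_
      have h4 := h1 q' hq'
      rw [← h2, abs_of_pos (by linarith)] at h4
      linarith
    have hE : Real.exp (z - Γ) = x * Real.exp (-Γ) := by
      rw [h2, sub_eq_add_neg, Real.exp_add, Real.exp_log hx]
    have hb'' : Real.exp Γ * Real.exp (-Γ) = 1 := by
      rw [← Real.exp_add]; simp
    unfold oneLoss oneCost
    rw [if_neg hncap]
    have hz' : Real.exp z = x := by rw [h2, Real.exp_log hx]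
    have t2 : 8 * n * Γ * Real.exp Γ * ∑ q ∈ S with v q < z, Real.exp (v q)
        ≤ 8 * n * R * Γ * x := by
      calc 8 * n * Γ * Real.exp Γ * ∑ q ∈ S with v q < z, Real.exp (v q)
          ≤ 8 * n * Γ * Real.exp Γ * (R * (x * Real.exp (-Γ))) := by
            refine mul_le_mul_of_nonneg_left ?_ (by positivity)
            rw [← hE]
            exact hsum
        _ = 8 * n * R * Γ * x * (Real.exp Γ * Real.exp (-Γ)) := by ring
        _ = 8 * n * R * Γ * x := by rw [hb'', mul_one]
    rw [hz']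
    rw [← h2]
    linarith

end P072
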