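import Vale.Agent.P072.Statements

/-!
# P072, module T4: the one-level lemma
-/

namespace P072

open Finset Filter Topology

section Pen

variable {ι : Type}

open Classical in
/-- The penalty: sum of `exp` over the positions strictly below `z`. -/
noncomputable def pen (S : Finset ι) (v : ι → ℝ) (z : ℝ) : ℝ :=
  ∑ q ∈ S with v q < z, Real.exp (v q)

lemma pen_nonneg (S : Finset ι) (v : ι → ℝ) (z : ℝ) : 0 ≤ pen S v z :=
  Finset.sum_nonneg fun _ _ => (Real.exp_pos _).le

lemma pen_mono (S : Finset ι) (v : ι → ℝ) {z z' : ℝ} (h : z ≤ z') : pen S v z ≤ pen S v z' := by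
  classical
  refine Finset.sum_le_sum_of_subset_of_nonneg ?_ fun _ _ _ => (Real.exp_pos _).le
  intro q hq
  rw [Finset.mem_filter] at hq ⊢
  exact ⟨hq.1, hq.2.trans_le h⟩

lemma pen_le (S : Finset ι) (v : ι → ℝ) {z c R : ℝ} (hR : (S.card : ℝ) ≤ R)
    (h : ∀ q ∈ S, v q < z → v q ≤ c) : pen S v z ≤ R * Real.exp c := by
  classical
  have h1 : pen S v z ≤ ((S.filter (fun q => v q < z)).card : ℝ) * Real.exp c := by
    unfold pen
    rw [← nsmul_eq_mul]
    refine Finset.sum_le_card_nsmul _ _ _ fun q hq => ?_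
    rw [Finset.mem_filter] at hq
    exact Real.exp_le_exp.mpr (h q hq.1 hq.2)
  refine h1.trans (mul_le_mul_of_nonneg_right ?_ (Real.exp_pos _).le)
  refine le_trans ?_ hR
  exact_mod_cast Finset.card_filter_le _ _

lemma pen_add (S : Finset ι) (v : ι → ℝ) {z : ℝ} {q : ι} (hq : q ∈ S) (hz : v q < z) :
    pen S v (v q) + Real.exp (v q) ≤ pen S v z := by
  classical
  unfold pen
  have hnot : q ∉ S.filter (fun q' => v q' < v q) := by
    rw [Finset.mem_filter]
    rintro ⟨_, h⟩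
    exact lt_irrefl _ h
  rw [add_comm, ← Finset.sum_insert (f := fun q => Real.exp (v q)) hnot]
  refine Finset.sum_le_sum_of_subset_of_nonneg ?_ fun _ _ _ => (Real.exp_pos _).le
  intro q' hq'
  rw [Finset.mem_insert, Finset.mem_filter] at hq'
  rw [Finset.mem_filter]
  rcases hq' with h | h
  · rw [h]; exact ⟨hq, hz⟩
  · exact ⟨h.1, h.2.trans hz⟩

lemma loss_cap (n Γ x : ℝ) (S : Finset ι) (v : ι → ℝ) (z : ℝ) (h : ∃ q ∈ S, z = v q) :
    oneLoss n Γ x S v z = x * (Real.log x - 1 - z) + Γ / 2 * Real.exp (-Γ) * Real.exp z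
      + 8 * n * Γ * Real.exp Γ * pen S v z := by
  unfold oneLoss oneCost pen
  rw [if_pos h]
  ring

lemma loss_free (n Γ x : ℝ) (S : Finset ι) (v : ι → ℝ) (z : ℝ) (h : ¬ ∃ q ∈ S, z = v q) :
    oneLoss n Γ x S v z = x * (Real.log x - 1 - z) + Real.exp z
      + 8 * n * Γ * Real.exp Γ * pen S v z := by
  unfold oneLoss oneCost pen
  rw [if_neg h]
  ring

/-- The standing hypotheses of the one-level lemma. -/
structure LH (S : Finset ι) (v : ι → ℝ) (n R B Cs G A Γ x X : ℝ) : Prop where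
  hn : 1 ≤ n
  hR : 1 ≤ R
  hcard : (S.card : ℝ) ≤ R
  hB : 100 * n ^ 2 * R ≤ B
  hCs : 2 ≤ Cs
  he1 : ∀ t, Cs ≤ t → B * (1 + t) ≤ Real.exp t
  he2 : ∀ t, G ≤ t → B * (1 + t) ≤ Real.exp (t / 2)
  hG : 2 * Cs ≤ G
  hA : B ≤ A
  hΓ : G ≤ Γ
  hx : 0 < x
  hX : X = Real.log x
  sep : ∀ q ∈ S, ∀ q' ∈ S, v q = v q' ∨ A * Γ ≤ |v q - v q'|

variable {S : Finset ι} {v : ι → ℝ} {n R B Cs G A Γ x X : ℝ}

namespace LH

lemma Γ4 (h : LH S v n R B Cs G A Γ x X) : 4 ≤ Γ := by
  have := h.hCs; have := h.hG; have := h.hΓ; linarith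

lemma BnR (h : LH S v n R B Cs G A Γ x X) : 100 * (n * R) ≤ B := by
  have h1 := h.hn; have h2 := h.hR; have h3 := h.hB
  have h4 : n * R ≤ n ^ 2 * R := by nlinarith [mul_nonneg (by linarith : (0:ℝ) ≤ n) (by linarith : (0:ℝ) ≤ R)]
  linarith

lemma Bn2 (h : LH S v n R B Cs G A Γ x X) : 100 * n ^ 2 ≤ B := by
  have h1 := h.hn; have h2 := h.hR; have h3 := h.hB
  nlinarith [sq_nonneg n]

lemma nR1 (h : LH S v n R B Cs G A Γ x X) : 1 ≤ n * R := by
  have h1 := h.hn; have h2 := h.hR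
  nlinarith

lemma B100 (h : LH S v n R B Cs G A Γ x X) : 100 ≤ B := by
  have h1 := h.BnR; have h2 := h.nR1; linarith

lemma A100 (h : LH S v n R B Cs G A Γ x X) : 100 ≤ A := h.B100.trans h.hA

lemma expX (h : LH S v n R B Cs G A Γ x X) : Real.exp X = x := by
  rw [h.hX, Real.exp_log h.hx]

lemma expz (h : LH S v n R B Cs G A Γ x X) (z : ℝ) : Real.exp z = x * Real.exp (z - X) := by
  rw [Real.exp_sub, h.expX]
  have := h.hx.ne'
  field_simp

lemma small1 (h : LH S v n R B Cs G A Γ x X) {t : ℝ} (ht : Cs ≤ t) :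
    8 * (n * R) * Γ * Real.exp (-t) ≤ Γ / 25 := by
  have h1 := h.he1 t ht
  have h2 := h.BnR
  have h3 := h.nR1
  have h4 := h.hCs
  have h5 := h.B100
  have h6 := h.Γ4
  have h7 : 300 * (n * R) ≤ Real.exp t := by nlinarith
  have h8 : Real.exp (-t) * Real.exp t = 1 := by
    rw [← Real.exp_add]; simp
  have h9 : 0 < Real.exp (-t) := Real.exp_pos _
  have h10 : 8 * (n * R) ≤ Real.exp t / 25 := by linarith
  calc 8 * (n * R) * Γ * Real.exp (-t) = 8 * (n * R) * (Γ * Real.exp (-t)) := by ring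
    _ ≤ Real.exp t / 25 * (Γ * Real.exp (-t)) :=
        mul_le_mul_of_nonneg_right h10 (by positivity)
    _ = Γ / 25 * (Real.exp (-t) * Real.exp t) := by ring
    _ = Γ / 25 := by rw [h8, mul_one]

lemma small2 (h : LH S v n R B Cs G A Γ x X) :
    8 * (n * R) * Γ * Real.exp (2 * Γ - A * Γ) ≤ 2 / 25 := by
  have h1 := h.he2 Γ h.hΓ
  have h2 := h.BnR
  have h3 := h.nR1
  have h5 := h.A100
  have h6 := h.Γ4
  have h7 : 100 * (n * R) * Γ ≤ Real.exp (Γ / 2) := by nlinarith
  have h8 : Real.exp (2 * Γ - A * Γ) ≤ Real.exp (-(Γ / 2)) := by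
    apply Real.exp_le_exp.mpr
    nlinarith
  have h9 : Real.exp (-(Γ / 2)) * Real.exp (Γ / 2) = 1 := by
    rw [← Real.exp_add]; simp
  have h10 : 0 ≤ 8 * (n * R) * Γ := by positivity
  calc 8 * (n * R) * Γ * Real.exp (2 * Γ - A * Γ)
      ≤ 8 * (n * R) * Γ * Real.exp (-(Γ / 2)) := mul_le_mul_of_nonneg_left h8 h10
    _ ≤ (2 / 25 * Real.exp (Γ / 2)) * Real.exp (-(Γ / 2)) :=
        mul_le_mul_of_nonneg_right (by linarith) (Real.exp_pos _).le
    _ = 2 / 25 * (Real.exp (-(Γ / 2)) * Real.exp (Γ / 2)) := by ring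
    _ = 2 / 25 := by rw [h9, mul_one]

lemma κnn (h : LH S v n R B Cs G A Γ x X) : 0 ≤ 8 * n * Γ * Real.exp Γ := by
  have h1 := h.hn; have h2 := h.Γ4
  positivity

/-- positions strictly below a position are far below -/
lemma below (h : LH S v n R B Cs G A Γ x X) {q q' : ι} (hq : q ∈ S) (hq' : q' ∈ S)
    (hlt : v q' < v q) : v q' ≤ v q - A * Γ := by
  rcases h.sep q hq q' hq' with h1 | h1
  · exact absurd h1 (ne_of_gt hlt)
  · rw [abs_of_pos (sub_pos.mpr hlt)] at h1
    linarith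

lemma kpen (h : LH S v n R B Cs G A Γ x X) {q : ι} (hq : q ∈ S) (hv : v q ≤ X + Γ) :
    8 * n * Γ * Real.exp Γ * pen S v (v q) ≤ 2 / 25 * x := by
  have h1 : pen S v (v q) ≤ R * Real.exp (X + Γ - A * Γ) := by
    refine pen_le S v h.hcard fun q' hq' hlt => ?_
    have := h.below hq hq' hlt
    linarith
  have h2 : Real.exp Γ * Real.exp (X + Γ - A * Γ) = Real.exp (2 * Γ - A * Γ) * x := by
    rw [← h.expX, ← Real.exp_add, ← Real.exp_add]
    congr 1; ring
  calc 8 * n * Γ * Real.exp Γ * pen S v (v q)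
      ≤ 8 * n * Γ * Real.exp Γ * (R * Real.exp (X + Γ - A * Γ)) :=
        mul_le_mul_of_nonneg_left h1 h.κnn
    _ = 8 * (n * R) * Γ * (Real.exp Γ * Real.exp (X + Γ - A * Γ)) := by ring
    _ = 8 * (n * R) * Γ * Real.exp (2 * Γ - A * Γ) * x := by rw [h2]; ring
    _ ≤ 2 / 25 * x := mul_le_mul_of_nonneg_right h.small2 h.hx.le

lemma eps1 (h : LH S v n R B Cs G A Γ x X) {w : ℝ} (hv : w ≤ X + Γ) :
    Real.exp (-Γ) * Real.exp w ≤ x := by
  rw [← Real.exp_add]
  calc Real.exp (-Γ + w) ≤ Real.exp X := Real.exp_le_exp.mpr (by linarith)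
    _ = x := h.expX

/-- Claim (1): a free value has no position within `Γ` of `X`. -/
lemma claim1 (h : LH S v n R B Cs G A Γ x X) {zc : ℝ} (hfree : ¬ ∃ q ∈ S, zc = v q)
    (hlev : ∀ q ∈ S, Γ ≤ |zc - v q|) {q : ι} (hq : q ∈ S) (hXq : |X - v q| < Γ)
    (hcmp : oneLoss n Γ x S v zc ≤ oneLoss n Γ x S v (v q) + n * x * max (zc - v q) 0
      + Real.exp (-Γ) / 8 * Real.exp (v q)) : False := by
  have hx := h.hx
  have hn := h.hn
  have hΓ4 := h.Γ4
  have hXq' := abs_lt.mp hXq
  have hv : v q ≤ X + Γ := by linarith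
  rw [loss_free n Γ x S v zc hfree, loss_cap n Γ x S v (v q) ⟨q, hq, rfl⟩, ← h.hX] at hcmp
  have hk := h.kpen hq hv
  have he := h.eps1 hv
  have he' : Γ / 2 * Real.exp (-Γ) * Real.exp (v q) ≤ Γ / 2 * x := by
    rw [mul_assoc]
    exact mul_le_mul_of_nonneg_left he (by linarith)
  have he'' : Real.exp (-Γ) / 8 * Real.exp (v q) ≤ x / 8 := by linarith
  have hpz := mul_nonneg h.κnn (pen_nonneg S v zc)
  have hpos : 0 < Real.exp zc := Real.exp_pos _
  rcases le_abs.mp (hlev q hq) with h1 | h1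
  · -- (1a)
    set s := zc - v q with hs
    rw [max_eq_left (by linarith : (0:ℝ) ≤ s)] at hcmp
    have hlt : v q < zc := by linarith
    have hadd := mul_le_mul_of_nonneg_left (pen_add S v hq hlt) h.κnn
    have hlow : 8 * n * Γ * x ≤ 8 * n * Γ * Real.exp Γ * Real.exp (v q) := by
      have : x ≤ Real.exp Γ * Real.exp (v q) := by
        rw [← Real.exp_add, ← h.expX]
        exact Real.exp_le_exp.mpr (by linarith)
      have h2 : 0 ≤ 8 * n * Γ := by positivity
      calc 8 * n * Γ * x ≤ 8 * n * Γ * (Real.exp Γ * Real.exp (v q)) :=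
            mul_le_mul_of_nonneg_left this h2
        _ = _ := by ring
    rw [mul_add] at hadd
    -- cancel `x`
    have hmain : x * (X - 1 - zc + Real.exp (zc - X) + 8 * n * Γ) ≤
        x * (X - 1 - v q + Γ / 2 + n * s + 1 / 8) := by
      have e1 := h.expz zc
      nlinarith [hcmp, hadd, hlow, he', he'', e1]
    have hmain' := le_of_mul_le_mul_left hmain hx
    by_cases hs4 : s ≤ 4 * Γ
    · have e2 := Real.add_one_le_exp (zc - X)
      have : n * s ≤ n * (4 * Γ) := mul_le_mul_of_nonneg_left hs4 (by linarith)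
      nlinarith
    · push Not at hs4
      have ht : 3 / 4 * s ≤ zc - X := by linarith
      have hCsG := h.hG
      have hGΓ := h.hΓ
      have hCst : Cs ≤ zc - X := by linarith
      have e3 := h.he1 (zc - X) hCst
      have hB := h.Bn2
      have e4 : 100 * n * (1 + (zc - X)) ≤ B * (1 + (zc - X)) := by
        apply mul_le_mul_of_nonneg_right _ (by linarith)
        nlinarith
      have e5 : n * s ≤ n * (4 / 3 * (zc - X)) := mul_le_mul_of_nonneg_left (by linarith) (by linarith)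
      have e6 : (1 + (zc - X)) ≤ n * (1 + (zc - X)) := by nlinarith
      nlinarith
  · -- (1b)
    have hle : zc - v q ≤ 0 := by linarith
    rw [max_eq_right hle] at hcmp
    have hmain : x * (v q - zc) ≤ x * (Γ / 2 + 2 / 25 + 1 / 8) := by nlinarith
    have hmain' := le_of_mul_le_mul_left hmain hx
    linarith

/-- Auxiliary: the loss at a captured value. -/
lemma lossz (h : LH S v n R B Cs G A Γ x X) {zc : ℝ} (hcap : ∃ q ∈ S, zc = v q) :
    oneLoss n Γ x S v zc = x * (X - 1 - zc) + Γ / 2 * Real.exp (-Γ) * Real.exp zc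
      + 8 * n * Γ * Real.exp Γ * pen S v zc := by
  rw [loss_cap n Γ x S v zc hcap, ← h.hX]

lemma lossX (h : LH S v n R B Cs G A Γ x X) (hnone : ∀ q ∈ S, Γ ≤ |X - v q|) :
    oneLoss n Γ x S v X = 8 * n * Γ * Real.exp Γ * pen S v X := by
  have hΓ4 := h.Γ4
  have hXfree : ¬ ∃ q ∈ S, X = v q := by
    rintro ⟨q, hq, hXv⟩
    have := hnone q hq
    rw [hXv, sub_self, abs_zero] at this
    linarith
  rw [loss_free n Γ x S v X hXfree, ← h.hX, h.expX]
  ring

lemma epos (h : LH S v n R B Cs G A Γ x X) (z : ℝ) :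
    0 ≤ Γ / 2 * Real.exp (-Γ) * Real.exp z := by
  have := h.Γ4
  positivity

lemma eps2 (h : LH S v n R B Cs G A Γ x X) {w : ℝ} (hv : w ≤ X + Γ) :
    Γ / 2 * Real.exp (-Γ) * Real.exp w ≤ Γ / 2 * x ∧
      Real.exp (-Γ) / 8 * Real.exp w ≤ x / 8 := by
  have he := h.eps1 hv
  have hΓ4 := h.Γ4
  constructor
  · rw [mul_assoc]
    exact mul_le_mul_of_nonneg_left he (by linarith)
  · linarith

/-- numeric contradiction used in (2b) -/
lemma numb (h : LH S v n R B Cs G A Γ x X) {τ : ℝ} (hτ : Cs ≤ τ)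
    (h1 : Γ / 2 * Real.exp τ ≤ (n + 1) * (2 * Γ + τ) + Γ / 2 + 9 / 8) : False := by
  have hexpτ := h.he1 τ hτ
  have hn := h.hn
  have hΓ4 := h.Γ4
  have hCs := h.hCs
  have hbig : Γ / 2 * (100 * n * (1 + τ)) ≤ Γ / 2 * Real.exp τ := by
    apply mul_le_mul_of_nonneg_left _ (by linarith)
    refine le_trans ?_ hexpτ
    apply mul_le_mul_of_nonneg_right _ (by linarith)
    have := h.Bn2
    nlinarith
  nlinarith [mul_nonneg (by linarith : (0:ℝ) ≤ n) (by linarith : (0:ℝ) ≤ τ),
    mul_nonneg (mul_nonneg (by linarith : (0:ℝ) ≤ n) (by linarith : (0:ℝ) ≤ τ))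
      (by linarith : (0:ℝ) ≤ Γ - 4), mul_nonneg (by linarith : (0:ℝ) ≤ n - 1)
      (by linarith : (0:ℝ) ≤ Γ)]

lemma claim2b_i (h : LH S v n R B Cs G A Γ x X) {zc : ℝ} (hcap : ∃ q ∈ S, zc = v q)
    (hfar : X < zc - Γ - Cs) {q : ι} (hq : q ∈ S) (hXq : |X - v q| < Γ)
    (hc : oneLoss n Γ x S v zc ≤ oneLoss n Γ x S v (v q) + n * x * max (zc - v q) 0
      + Real.exp (-Γ) / 8 * Real.exp (v q)) : False := by
  have hx := h.hx
  have hn := h.hn
  have hΓ4 := h.Γ4
  have hCs := h.hCs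
  set τ := zc - X - Γ with hτ
  have hτCs : Cs ≤ τ := by linarith
  have hezc : Γ / 2 * Real.exp (-Γ) * Real.exp zc = x * (Γ / 2 * Real.exp τ) := by
    have : Real.exp (-Γ) * Real.exp zc = x * Real.exp τ := by
      rw [h.expz zc, hτ]
      have e : zc - X - Γ = (-Γ) + (zc - X) := by ring
      rw [e, Real.exp_add]
      ring
    rw [mul_assoc, this]; ring
  have hXq' := abs_lt.mp hXq
  have hv : v q ≤ X + Γ := by linarith
  have hpz := mul_nonneg h.κnn (pen_nonneg S v zc)
  rw [h.lossz hcap, h.lossz ⟨q, hq, rfl⟩, max_eq_left (by linarith : (0:ℝ) ≤ zc - v q), hezc] at hc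
  have hk := h.kpen hq hv
  obtain ⟨he', he''⟩ := h.eps2 hv
  have hmain : x * (Γ / 2 * Real.exp τ) ≤
      x * ((n + 1) * (zc - v q) + Γ / 2 + 2 / 25 + 1 / 8) := by
    linarith
  have hmain' := le_of_mul_le_mul_left hmain hx
  have h5 : (n + 1) * (zc - v q) ≤ (n + 1) * (2 * Γ + τ) :=
    mul_le_mul_of_nonneg_left (by linarith) (by linarith)
  exact h.numb hτCs (by linarith)

lemma claim2b_ii (h : LH S v n R B Cs G A Γ x X) {zc : ℝ} (hcap : ∃ q ∈ S, zc = v q)
    (hfar : X < zc - Γ - Cs) (hnone : ∀ q ∈ S, Γ ≤ |X - v q|)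
    (hc : oneLoss n Γ x S v zc ≤ oneLoss n Γ x S v X + n * x * max (zc - X) 0
      + 1 / 8 * Real.exp X) : False := by
  have hx := h.hx
  have hn := h.hn
  have hΓ4 := h.Γ4
  have hCs := h.hCs
  set τ := zc - X - Γ with hτ
  have hτCs : Cs ≤ τ := by linarith
  have hezc : Γ / 2 * Real.exp (-Γ) * Real.exp zc = x * (Γ / 2 * Real.exp τ) := by
    have : Real.exp (-Γ) * Real.exp zc = x * Real.exp τ := by
      rw [h.expz zc, hτ]
      have e : zc - X - Γ = (-Γ) + (zc - X) := by ring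
      rw [e, Real.exp_add]
      ring
    rw [mul_assoc, this]; ring
  rw [h.lossz hcap, h.lossX hnone, max_eq_left (by linarith : (0:ℝ) ≤ zc - X), h.expX, hezc] at hc
  have hpm := mul_le_mul_of_nonneg_left (pen_mono S v (by linarith : X ≤ zc)) h.κnn
  have hmain : x * (Γ / 2 * Real.exp τ) ≤ x * ((n + 1) * (zc - X) + 9 / 8) := by
    linarith
  have hmain' := le_of_mul_le_mul_left hmain hx
  have h5 : (n + 1) * (zc - X) ≤ (n + 1) * (2 * Γ + τ) :=
    mul_le_mul_of_nonneg_left (by linarith) (by linarith)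
  exact h.numb hτCs (by linarith)

lemma claim2a_i (h : LH S v n R B Cs G A Γ x X) {zc : ℝ} (hcap : ∃ q ∈ S, zc = v q)
    (hfar : zc + Γ + Cs < X) {q : ι} (hq : q ∈ S) (hXq : |X - v q| < Γ)
    (hc : oneLoss n Γ x S v zc ≤ oneLoss n Γ x S v (v q) + n * x * max (zc - v q) 0
      + Real.exp (-Γ) / 8 * Real.exp (v q)) : False := by
  have hx := h.hx
  have hn := h.hn
  have hΓ4 := h.Γ4
  have hCs := h.hCs
  have hAΓ : 100 * Γ ≤ A * Γ := mul_le_mul_of_nonneg_right h.A100 (by linarith)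
  have hXq' := abs_lt.mp hXq
  have hv : v q ≤ X + Γ := by linarith
  have hpz := mul_nonneg h.κnn (pen_nonneg S v zc)
  have hez := h.epos zc
  rw [h.lossz hcap, h.lossz ⟨q, hq, rfl⟩, max_eq_right (by linarith : zc - v q ≤ 0)] at hc
  have hk := h.kpen hq hv
  obtain ⟨he', he''⟩ := h.eps2 hv
  obtain ⟨q0, hq0, hzc⟩ := hcap
  have hbel : v q0 ≤ v q - A * Γ := h.below hq hq0 (by rw [← hzc]; linarith)
  rw [← hzc] at hbel
  have hmain : x * (v q - zc) ≤ x * (Γ / 2 + 2 / 25 + 1 / 8) := by linarith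
  have hmain' := le_of_mul_le_mul_left hmain hx
  linarith

lemma claim2a_ii (h : LH S v n R B Cs G A Γ x X) {zc : ℝ} (hcap : ∃ q ∈ S, zc = v q)
    (hfar : zc + Γ + Cs < X) (hnone : ∀ q ∈ S, Γ ≤ |X - v q|)
    (hc : oneLoss n Γ x S v zc ≤ oneLoss n Γ x S v X + n * x * max (zc - X) 0
      + 1 / 8 * Real.exp X) : False := by
  have hx := h.hx
  have hn := h.hn
  have hΓ4 := h.Γ4
  have hCs := h.hCs
  have hnR := h.nR1
  have hpz := mul_nonneg h.κnn (pen_nonneg S v zc)
  have hez := h.epos zc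
  rw [h.lossz hcap, h.lossX hnone, max_eq_right (by linarith : zc - X ≤ 0), h.expX] at hc
  obtain ⟨q0, hq0, hzc⟩ := hcap
  have hbelX : ∀ q ∈ S, v q < X → v q ≤ X - Γ := by
    intro q hq hlt
    have := hnone q hq
    rw [abs_of_pos (sub_pos.mpr hlt)] at this
    linarith
  by_cases hex : ∃ q ∈ S, zc < v q ∧ v q < X
  · obtain ⟨q, hq, hq1, hq2⟩ := hex
    have hbel : v q0 ≤ v q - A * Γ := h.below hq hq0 (by rw [← hzc]; exact hq1)
    rw [← hzc] at hbel
    have hqX := hbelX q hq hq2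
    have h1 : pen S v X ≤ R * Real.exp (X - Γ) := pen_le S v h.hcard hbelX
    have h2 : Real.exp Γ * Real.exp (X - Γ) = x := by
      rw [← Real.exp_add, ← h.expX]; congr 1; ring
    have h3 : 8 * n * Γ * Real.exp Γ * pen S v X ≤ 8 * (n * R) * Γ * x := by
      calc _ ≤ 8 * n * Γ * Real.exp Γ * (R * Real.exp (X - Γ)) :=
            mul_le_mul_of_nonneg_left h1 h.κnn
        _ = 8 * (n * R) * Γ * (Real.exp Γ * Real.exp (X - Γ)) := by ring
        _ = _ := by rw [h2]
    have hmain : x * (X - zc) ≤ x * (8 * (n * R) * Γ + 9 / 8) := by linarith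
    have hmain' := le_of_mul_le_mul_left hmain hx
    have h4 : 100 * (n * R) * Γ ≤ A * Γ :=
      mul_le_mul_of_nonneg_right (h.BnR.trans h.hA) (by linarith)
    have h5 : 1 * Γ ≤ (n * R) * Γ := mul_le_mul_of_nonneg_right hnR (by linarith)
    linarith
  · push Not at hex
    have hsum : pen S v X ≤ pen S v zc + R * Real.exp zc := by
      classical
      have : pen S v X ≤ pen S v zc + ∑ q ∈ S with v q = zc, Real.exp (v q) := by
        unfold pen
        rw [← Finset.sum_union]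
        · refine Finset.sum_le_sum_of_subset_of_nonneg ?_ fun _ _ _ => (Real.exp_pos _).le
          intro q hq
          rw [Finset.mem_filter] at hq
          rw [Finset.mem_union, Finset.mem_filter, Finset.mem_filter]
          rcases lt_trichotomy (v q) zc with h1 | h1 | h1
          · exact Or.inl ⟨hq.1, h1⟩
          · exact Or.inr ⟨hq.1, h1⟩
          · exact absurd hq.2 (not_lt.mpr (hex q hq.1 h1))
        · rw [Finset.disjoint_filter]
          intro q _ h1 h2
          exact absurd h2 (ne_of_lt h1)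
      refine this.trans (add_le_add le_rfl ?_)
      have h2 : ∑ q ∈ S with v q = zc, Real.exp (v q)
          ≤ ((S.filter (fun q => v q = zc)).card : ℝ) * Real.exp zc := by
        rw [← nsmul_eq_mul]
        refine Finset.sum_le_card_nsmul _ _ _ fun q hq => ?_
        rw [Finset.mem_filter] at hq
        rw [hq.2]
      refine h2.trans (mul_le_mul_of_nonneg_right ?_ (Real.exp_pos _).le)
      refine le_trans ?_ h.hcard
      exact_mod_cast Finset.card_filter_le _ _
    set t := X - zc - Γ with ht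
    have htCs : Cs ≤ t := by linarith
    have hs1 := mul_le_mul_of_nonneg_left (h.small1 htCs) hx.le
    have h2 : Real.exp Γ * Real.exp zc = x * Real.exp (-t) := by
      rw [← h.expX, ← Real.exp_add, ← Real.exp_add]; congr 1; rw [ht]; ring
    have h3 : 8 * n * Γ * Real.exp Γ * pen S v X ≤
        8 * n * Γ * Real.exp Γ * pen S v zc + x * (Γ / 25) := by
      calc _ ≤ 8 * n * Γ * Real.exp Γ * (pen S v zc + R * Real.exp zc) :=
            mul_le_mul_of_nonneg_left hsum h.κnn
        _ = 8 * n * Γ * Real.exp Γ * pen S v zc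
            + 8 * (n * R) * Γ * (Real.exp Γ * Real.exp zc) := by ring
        _ = 8 * n * Γ * Real.exp Γ * pen S v zc
            + x * (8 * (n * R) * Γ * Real.exp (-t)) := by rw [h2]; ring
        _ ≤ _ := by linarith
    have hmain : x * (X - zc) ≤ x * (Γ / 25 + 9 / 8) := by linarith
    have hmain' := le_of_mul_le_mul_left hmain hx
    linarith

/-- Claim (2). -/
lemma claim2 (h : LH S v n R B Cs G A Γ x X) {zc : ℝ} (hcap : ∃ q ∈ S, zc = v q)
    (adm : ℝ → Prop)
    (hadm1 : ∀ q ∈ S, |X - v q| < Γ → adm (v q)) (hadm2 : (∀ q ∈ S, Γ ≤ |X - v q|) → adm X)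
    (hcmp1 : ∀ q ∈ S, adm (v q) → X ≤ v q + Γ + Cs →
      oneLoss n Γ x S v zc ≤ oneLoss n Γ x S v (v q) + n * x * max (zc - v q) 0
      + Real.exp (-Γ) / 8 * Real.exp (v q))
    (hcmp2 : (∀ q ∈ S, Γ ≤ |X - v q|) → adm X →
      oneLoss n Γ x S v zc ≤ oneLoss n Γ x S v X + n * x * max (zc - X) 0 + 1 / 8 * Real.exp X) :
    |X - zc| ≤ Γ + Cs := by
  have hCs := h.hCs
  rw [abs_le]
  constructor
  · by_contra hcon
    push Not at hcon
    have hfar : X < zc - Γ - Cs := by linarith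
    by_cases hpos : ∃ q ∈ S, |X - v q| < Γ
    · obtain ⟨q, hq, hXq⟩ := hpos
      have hXq' := abs_lt.mp hXq
      exact h.claim2b_i hcap hfar hq hXq (hcmp1 q hq (hadm1 q hq hXq) (by linarith))
    · push Not at hpos
      exact h.claim2b_ii hcap hfar hpos (hcmp2 hpos (hadm2 hpos))
  · by_contra hcon
    push Not at hcon
    have hfar : zc + Γ + Cs < X := by linarith
    by_cases hpos : ∃ q ∈ S, |X - v q| < Γ
    · obtain ⟨q, hq, hXq⟩ := hpos
      have hXq' := abs_lt.mp hXq
      exact h.claim2a_i hcap hfar hq hXq (hcmp1 q hq (hadm1 q hq hXq) (by linarith))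
    · push Not at hpos
      exact h.claim2a_ii hcap hfar hpos (hcmp2 hpos (hadm2 hpos))

/-- Claim (3). -/
lemma claim3 (h : LH S v n R B Cs G A Γ x X) {zc : ℝ} (hfree : ¬ ∃ q ∈ S, zc = v q)
    (hlev : ∀ q ∈ S, Γ ≤ |zc - v q|)
    (adm : ℝ → Prop) (hadm0 : ∀ a b, a ≤ b → adm b → adm a)
    (hadm1 : ∀ q ∈ S, |X - v q| < Γ → adm (v q)) (hadm2 : (∀ q ∈ S, Γ ≤ |X - v q|) → adm X)
    (hcmp1 : ∀ q ∈ S, adm (v q) → X ≤ v q + Γ + Cs →
      oneLoss n Γ x S v zc ≤ oneLoss n Γ x S v (v q) + n * x * max (zc - v q) 0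
      + Real.exp (-Γ) / 8 * Real.exp (v q))
    (hcmp2 : (∀ q ∈ S, Γ ≤ |X - v q|) → adm X →
      oneLoss n Γ x S v zc ≤ oneLoss n Γ x S v X + n * x * max (zc - X) 0 + 1 / 8 * Real.exp X) :
    |X - zc| ≤ Cs := by
  have hx := h.hx
  have hn := h.hn
  have hΓ4 := h.Γ4
  have hA := h.A100
  have hCs := h.hCs
  have hnR := h.nR1
  have hAΓ : 100 * Γ ≤ A * Γ := mul_le_mul_of_nonneg_right hA (by linarith)
  have hnone : ∀ q ∈ S, Γ ≤ |X - v q| := by
    intro q hq
    by_contra hcon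
    push Not at hcon
    have hX' := abs_lt.mp hcon
    exact h.claim1 hfree hlev hq hcon (hcmp1 q hq (hadm1 q hq hcon) (by linarith))
  have hXfree : ¬ ∃ q ∈ S, X = v q := by
    rintro ⟨q, hq, hXv⟩
    have := hnone q hq
    rw [hXv, sub_self, abs_zero] at this
    linarith
  have hbelX : ∀ q ∈ S, v q < X → v q ≤ X - Γ := by
    intro q hq hlt
    have := hnone q hq
    rw [abs_of_pos (sub_pos.mpr hlt)] at this
    linarith
  have hadmX := hadm2 hnone
  have hc := hcmp2 hnone hadmX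
  have hlossz := loss_free n Γ x S v zc hfree
  rw [← h.hX] at hlossz
  rw [hlossz, loss_free n Γ x S v X hXfree, ← h.hX, h.expX, h.expz zc] at hc
  have hpz := mul_nonneg h.κnn (pen_nonneg S v zc)
  rw [abs_le]
  constructor
  · -- `zc - X ≤ Cs`
    by_contra hcon
    push Not at hcon
    have hD : Cs < zc - X := by linarith
    rw [max_eq_left (by linarith : (0:ℝ) ≤ zc - X)] at hc
    have hpm := mul_le_mul_of_nonneg_left (pen_mono S v (by linarith : X ≤ zc)) h.κnn
    have hmain : x * (Real.exp (zc - X)) ≤ x * ((n + 1) * (zc - X) + 9 / 8) := by nlinarith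
    have hmain' := le_of_mul_le_mul_left hmain hx
    have e3 := h.he1 (zc - X) hD.le
    have e4 : 100 * n * (1 + (zc - X)) ≤ B * (1 + (zc - X)) := by
      apply mul_le_mul_of_nonneg_right _ (by linarith)
      have := h.Bn2
      nlinarith
    nlinarith [mul_nonneg (by linarith : (0:ℝ) ≤ n - 1) (by linarith : (0:ℝ) ≤ zc - X)]
  · -- `X - zc ≤ Cs`
    by_contra hcon
    push Not at hcon
    rw [max_eq_right (by linarith : zc - X ≤ 0)] at hc
    have hepos : 0 < Real.exp (zc - X) := Real.exp_pos _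
    by_cases hex : ∃ q ∈ S, zc < v q ∧ v q < X
    · -- the largest position below `X`
      classical
      obtain ⟨q, hq, hmax⟩ : ∃ q ∈ S.filter (fun q => v q < X),
          ∀ q' ∈ S.filter (fun q => v q < X), v q' ≤ v q := by
        apply Finset.exists_max_image
        obtain ⟨q, hq, _, hq2⟩ := hex
        exact ⟨q, Finset.mem_filter.mpr ⟨hq, hq2⟩⟩
      obtain ⟨q1, hq1, hq1a, hq1b⟩ := hex
      have hzv : zc < v q := hq1a.trans_le (hmax q1 (Finset.mem_filter.mpr ⟨hq1, hq1b⟩))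
      rw [Finset.mem_filter] at hq
      have hzv' : zc + Γ ≤ v q := by
        have := hlev q hq.1
        rw [abs_of_neg (sub_neg.mpr hzv)] at this
        linarith
      have hXv := hbelX q hq.1 hq.2
      by_cases hsv : Γ + Cs ≤ X - v q
      · -- compare with `X`
        set t := X - v q - Γ with ht
        have hs1 := h.small1 (by linarith : Cs ≤ t)
        have h1 : pen S v X ≤ R * Real.exp (v q) := by
          refine pen_le S v h.hcard fun q' hq' hlt => ?_
          exact hmax q' (Finset.mem_filter.mpr ⟨hq', hlt⟩)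
        have h2 : Real.exp Γ * Real.exp (v q) = x * Real.exp (-t) := by
          rw [← h.expX, ← Real.exp_add, ← Real.exp_add]; congr 1; rw [ht]; ring
        have h3 : 8 * n * Γ * Real.exp Γ * pen S v X ≤ x * (Γ / 25) := by
          calc _ ≤ 8 * n * Γ * Real.exp Γ * (R * Real.exp (v q)) :=
                mul_le_mul_of_nonneg_left h1 h.κnn
            _ = 8 * (n * R) * Γ * (Real.exp Γ * Real.exp (v q)) := by ring
            _ = x * (8 * (n * R) * Γ * Real.exp (-t)) := by rw [h2]; ring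
            _ ≤ _ := mul_le_mul_of_nonneg_left hs1 hx.le
        have hmain : x * (X - zc) ≤ x * (Γ / 25 + 9 / 8) := by nlinarith
        have hmain' := le_of_mul_le_mul_left hmain hx
        linarith
      · -- compare with `v q`
        push Not at hsv
        have hcv := hcmp1 q hq.1 (hadm0 _ _ hq.2.le hadmX) (by linarith)
        rw [hlossz, loss_cap n Γ x S v (v q) ⟨q, hq.1, rfl⟩, ← h.hX,
          max_eq_right (by linarith : zc - v q ≤ 0)] at hcv
        have hv : v q ≤ X + Γ := by linarith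
        have hk := h.kpen hq.1 hv
        have he := h.eps1 hv
        have he'' : Real.exp (-Γ) / 8 * Real.exp (v q) ≤ x / 8 := by linarith
        have he' : Γ / 2 * Real.exp (-Γ) * Real.exp (v q) ≤ x / 2 := by
          have h1 : Real.exp (v q) ≤ x := by
            rw [← h.expX]; exact Real.exp_le_exp.mpr (by linarith)
          have h2 : Γ * Real.exp (-Γ) ≤ 1 := by
            have e1 := Real.add_one_le_exp Γ
            have e2 : Real.exp (-Γ) * Real.exp Γ = 1 := by
              rw [← Real.exp_add]; simp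
            have e3 : 0 < Real.exp (-Γ) := Real.exp_pos _
            nlinarith
          have h3 : Γ / 2 * Real.exp (-Γ) ≤ 1 / 2 := by linarith
          calc Γ / 2 * Real.exp (-Γ) * Real.exp (v q) ≤ 1 / 2 * x := by
                apply mul_le_mul h3 h1 (Real.exp_pos _).le (by norm_num)
            _ = x / 2 := by ring
        have hezc : 0 < Real.exp zc := Real.exp_pos _
        have hmain : x * (v q - zc) ≤ x * (1 / 2 + 2 / 25 + 1 / 8) := by nlinarith
        have hmain' := le_of_mul_le_mul_left hmain hx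
        linarith
    · push Not at hex
      have hpeq : pen S v X ≤ pen S v zc := by
        classical
        unfold pen
        refine Finset.sum_le_sum_of_subset_of_nonneg ?_ fun _ _ _ => (Real.exp_pos _).le
        intro q hq
        rw [Finset.mem_filter] at hq ⊢
        refine ⟨hq.1, ?_⟩
        rcases lt_trichotomy (v q) zc with h1 | h1 | h1
        · exact h1
        · exact absurd ⟨q, hq.1, h1.symm⟩ hfree
        · exact absurd hq.2 (not_lt.mpr (hex q hq.1 h1))
      have hpm := mul_le_mul_of_nonneg_left hpeq h.κnn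
      have hmain : x * (X - zc) ≤ x * (9 / 8) := by nlinarith
      have hmain' := le_of_mul_le_mul_left hmain hx
      linarith

end LH

end Pen

theorem level : S_LEVEL := by
  intro ι S v n R B Cs G A Γ x X zc adm hn hR hcard hB hCs he1 he2 hG hA hΓ hx hX hsep hlev
    hadm0 hadm1 hadm2 hcmp1 hcmp2
  have h : LH S v n R B Cs G A Γ x X := ⟨hn, hR, hcard, hB, hCs, he1, he2, hG, hA, hΓ, hx, hX, hsep⟩
  constructor
  · intro hcap
    exact h.claim2 hcap adm hadm1 hadm2 hcmp1 hcmp2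
  · intro hfree
    have hlev' : ∀ q ∈ S, Γ ≤ |zc - v q| := by
      rcases hlev with h1 | h1
      · exact absurd h1 hfree
      · exact h1
    exact h.claim3 hfree hlev' adm hadm0 hadm1 hadm2 hcmp1 hcmp2

end P072
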