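import Vale.Agent.P072.Statements

/-! P072, T6 : existence of maximisers. -/

namespace P072

open Finset Filter Topology

namespace MaxAux

theorem continuous_ev (q : ℕ → ℝ) (k : ℕ) : Continuous (ev q k) := by
  unfold ev
  fun_prop

/-- The forms are `0` or uniformly large on `DD p`. -/
theorem forms_gap (hord : S_ORD) (hsep : S_SEP) (p : Par) (g : p.Good) :
    ∃ c > 0, ∀ Z ∈ DD p, ∀ k < p.n, ∀ q ∈ p.Q k, Z k = ev q k Z ∨ c ≤ |Z k - ev q k Z| := by
  have hC1 : 1 ≤ p.C := g.fam.C_one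
  have hC0 : 0 < p.C := by linarith
  have hCn : 1 ≤ p.C ^ p.n := one_le_pow₀ hC1
  have hCn1 : 1 ≤ p.C ^ (p.n + 1) := one_le_pow₀ hC1
  have hK1 : 1 ≤ p.K := by
    have := g.K_ge'
    linarith
  have hG : 0 < p.G := by
    have h1 := g.G_ge
    have h2 := g.Cs_ge
    nlinarith [mul_le_mul hCn1 h2 (by norm_num) (by positivity)]
  refine ⟨p.G / p.C ^ p.n, by positivity, ?_⟩
  intro Z hZ k hk q hq
  obtain ⟨hlev, -, -⟩ := hZ
  have hGam : ∀ i < p.n, p.G ≤ Gam p Z i := fun i hi => by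
    have h := ((hord p g Z).1 i hi).1
    have : p.G * 1 ≤ p.G * p.K := mul_le_mul_of_nonneg_left hK1 hG.le
    linarith
  by_cases hcon : con p Z k
  · obtain ⟨s, hs, hZs⟩ := hcon
    rcases hsep p g Z k hk (fun j hj => hlev j (hj.trans hk)) s hs q hq with h | ⟨⟨i, hi, -, hle⟩, -⟩
    · left; rw [hZs, h]
    · right
      rw [hZs, div_le_iff₀ (by positivity)]
      have h1 : p.C ^ k ≤ p.C ^ p.n := pow_le_pow_right₀ hC1 hk.le
      have h2 := hGam i (hi.trans hk)
      have h3 : p.C ^ k * |ev s k Z - ev q k Z| ≤ p.C ^ p.n * |ev s k Z - ev q k Z| :=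
        mul_le_mul_of_nonneg_right h1 (abs_nonneg _)
      linarith [mul_comm (|ev s k Z - ev q k Z|) (p.C ^ p.n)]
  · right
    rcases hlev k hk with h | h
    · exact absurd h hcon
    · have h2 := hGam k hk
      have h3 := h q hq
      have h4 : p.G / p.C ^ p.n ≤ p.G := div_le_self hG.le hCn
      linarith

/-- Near any point the pattern of the forms is constant on `DD p`. -/
theorem pattern {p : Par} {c : ℝ} (hc : 0 < c)
    (hgap : ∀ Z ∈ DD p, ∀ k < p.n, ∀ q ∈ p.Q k, Z k = ev q k Z ∨ c ≤ |Z k - ev q k Z|)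
    (Z0 : ℕ → ℝ) :
    ∀ᶠ Z in 𝓝[DD p] Z0, ∀ k < p.n, ∀ q ∈ p.Q k,
      ((Z k = ev q k Z ↔ Z0 k = ev q k Z0) ∧ (ev q k Z < Z k ↔ ev q k Z0 < Z0 k)) := by
  have key : ∀ k ∈ range p.n, ∀ᶠ Z in 𝓝[DD p] Z0, ∀ q ∈ p.Q k,
      ((Z k = ev q k Z ↔ Z0 k = ev q k Z0) ∧ (ev q k Z < Z k ↔ ev q k Z0 < Z0 k)) := by
    intro k hk
    rw [mem_range] at hk
    refine (Filter.eventually_all_finset (p.Q k)).2 ?_
    intro q hq
    have hcont : Continuous (fun Z : ℕ → ℝ => Z k - ev q k Z) :=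
      (continuous_apply k).sub (continuous_ev q k)
    have htend : Tendsto (fun Z : ℕ → ℝ => Z k - ev q k Z) (𝓝[DD p] Z0)
        (𝓝 (Z0 k - ev q k Z0)) := (hcont.tendsto Z0).mono_left nhdsWithin_le_nhds
    have hmem : ∀ᶠ Z in 𝓝[DD p] Z0, Z ∈ DD p := eventually_mem_nhdsWithin
    rcases lt_trichotomy (Z0 k - ev q k Z0) 0 with h | h | h
    · filter_upwards [htend.eventually (gt_mem_nhds h)] with Z hZ
      constructor
      · constructor
        · intro h'; linarith
        · intro h'; linarith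
      · constructor
        · intro h'; linarith
        · intro h'; linarith
    · have h2 : ∀ᶠ Z in 𝓝[DD p] Z0, |Z k - ev q k Z| < c := by
        have := htend.abs
        rw [h, abs_zero] at this
        exact this.eventually (gt_mem_nhds hc)
      filter_upwards [h2, hmem] with Z hZ hZD
      rcases hgap Z hZD k hk q hq with h3 | h3
      · constructor
        · exact ⟨fun _ => by linarith, fun _ => h3⟩
        · constructor
          · intro h'; linarith
          · intro h'; linarith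
      · linarith
    · filter_upwards [htend.eventually (lt_mem_nhds h)] with Z hZ
      constructor
      · constructor
        · intro h'; linarith
        · intro h'; linarith
      · constructor
        · intro h'; linarith
        · intro h'; linarith
  have := (Filter.eventually_all_finset (range p.n)).2 key
  filter_upwards [this] with Z hZ k hk q hq
  exact hZ k (mem_range.2 hk) q hq

theorem con_of_pattern {p : Par} {Z Z0 : ℕ → ℝ} {k : ℕ}
    (h : ∀ q ∈ p.Q k, ((Z k = ev q k Z ↔ Z0 k = ev q k Z0) ∧ (ev q k Z < Z k ↔ ev q k Z0 < Z0 k))) :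
    con p Z k ↔ con p Z0 k := by
  unfold con
  constructor
  · rintro ⟨q, hq, he⟩; exact ⟨q, hq, (h q hq).1.1 he⟩
  · rintro ⟨q, hq, he⟩; exact ⟨q, hq, (h q hq).1.2 he⟩

theorem Gam_of_pattern {p : Par} {Z Z0 : ℕ → ℝ} {k : ℕ} (hk : k < p.n)
    (h : ∀ k < p.n, ∀ q ∈ p.Q k,
      ((Z k = ev q k Z ↔ Z0 k = ev q k Z0) ∧ (ev q k Z < Z k ↔ ev q k Z0 < Z0 k))) :
    Gam p Z k = Gam p Z0 k := by
  have : val p Z k = val p Z0 k := by
    unfold val
    congr 1
    apply Finset.sum_congr rfl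
    intro i hi
    have hi' := (mem_range.1 hi).trans hk
    have hc := con_of_pattern (h i hi')
    by_cases h1 : con p Z0 i
    · rw [if_pos h1, if_pos (hc.2 h1)]
    · rw [if_neg h1, if_neg (fun h' => h1 (hc.1 h'))]
  unfold Gam
  rw [this]

theorem isClosed_DD {p : Par} {c : ℝ} (hc : 0 < c)
    (hgap : ∀ Z ∈ DD p, ∀ k < p.n, ∀ q ∈ p.Q k, Z k = ev q k Z ∨ c ≤ |Z k - ev q k Z|) :
    IsClosed (DD p) := by
  rw [← closure_subset_iff_isClosed]
  intro Z0 hZ0
  have hne : (𝓝[DD p] Z0).NeBot := mem_closure_iff_nhdsWithin_neBot.1 hZ0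
  have hpat := pattern hc hgap Z0
  have hmem : ∀ᶠ Z in 𝓝[DD p] Z0, Z ∈ DD p := eventually_mem_nhdsWithin
  have hap : ∀ k, Tendsto (fun Z : ℕ → ℝ => Z k) (𝓝[DD p] Z0) (𝓝 (Z0 k)) := fun k =>
    ((continuous_apply k).tendsto Z0).mono_left nhdsWithin_le_nhds
  refine ⟨?_, ?_, ?_⟩
  · intro k hk
    by_cases hcon : con p Z0 k
    · exact Or.inl hcon
    · right
      intro q hq
      have htend : Tendsto (fun Z : ℕ → ℝ => |Z k - ev q k Z|) (𝓝[DD p] Z0)
          (𝓝 |Z0 k - ev q k Z0|) :=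
        ((((continuous_apply k).sub (continuous_ev q k)).abs).tendsto Z0).mono_left
          nhdsWithin_le_nhds
      refine ge_of_tendsto htend ?_
      filter_upwards [hpat, hmem] with Z hp hZ
      have hc' : ¬ con p Z k := fun h' => hcon ((con_of_pattern (hp k hk)).1 h')
      rw [← Gam_of_pattern hk hp]
      rcases hZ.1 k hk with h | h
      · exact absurd h hc'
      · exact h q hq
  · intro k hk
    refine le_of_tendsto_of_tendsto (hap (k + 1)) (hap k) ?_
    filter_upwards [hmem] with Z hZ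
    exact hZ.2.1 k hk
  · intro k hk
    refine tendsto_nhds_unique (hap k) ?_
    refine tendsto_const_nhds.congr' ?_
    filter_upwards [hmem] with Z hZ
    exact (hZ.2.2 k hk).symm

theorem continuousOn_lam {p : Par} {c : ℝ} (hc : 0 < c)
    (hgap : ∀ Z ∈ DD p, ∀ k < p.n, ∀ q ∈ p.Q k, Z k = ev q k Z ∨ c ≤ |Z k - ev q k Z|)
    (x : ℕ → ℝ) {k : ℕ} (hk : k < p.n) :
    ContinuousOn (fun Z => lam p x Z k) (DD p) := by
  classical
  intro Z0 hZ0
  have hpat := pattern hc hgap Z0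
  let A : ℝ := if ∃ q ∈ p.Q k, Z0 k = ev q k Z0 then Gam p Z0 k / 2 * Real.exp (-Gam p Z0 k) else 1
  let S : Finset (ℕ → ℝ) := {q ∈ p.Q k | ev q k Z0 < Z0 k}
  let g : (ℕ → ℝ) → ℝ := fun Z => x k * (Real.log (x k) - 1 - Z k) +
    (A * Real.exp (Z k) + 8 * p.n * Gam p Z0 k * Real.exp (Gam p Z0 k) *
      ∑ q ∈ S, Real.exp (ev q k Z))
  have hg : Continuous g := by
    have h1 := fun q => continuous_ev q k
    have h2 : Continuous fun Z : ℕ → ℝ => Z k := continuous_apply k
    show Continuous fun Z : ℕ → ℝ => x k * (Real.log (x k) - 1 - Z k) +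
      (A * Real.exp (Z k) + 8 * p.n * Gam p Z0 k * Real.exp (Gam p Z0 k) *
        ∑ q ∈ S, Real.exp (ev q k Z))
    have h3 : Continuous fun Z : ℕ → ℝ => ∑ q ∈ S, Real.exp (ev q k Z) :=
      continuous_finsetSum _ (fun q _ => Real.continuous_exp.comp (h1 q))
    fun_prop
  have heq : ∀ Z, (∀ k < p.n, ∀ q ∈ p.Q k,
      ((Z k = ev q k Z ↔ Z0 k = ev q k Z0) ∧ (ev q k Z < Z k ↔ ev q k Z0 < Z0 k))) →
      lam p x Z k = g Z := by
    intro Z hp
    have hG := Gam_of_pattern hk hp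
    have hcon := con_of_pattern (hp k hk)
    show oneLoss p.n (Gam p Z k) (x k) (p.Q k) (fun q => ev q k Z) (Z k) = g Z
    unfold oneLoss oneCost
    rw [hG]
    have hS : {q ∈ p.Q k | ev q k Z < Z k} = S := by
      apply Finset.filter_congr
      intro q hq
      exact (hp k hk q hq).2
    have hA : (if ∃ q ∈ p.Q k, Z k = ev q k Z then
        Gam p Z0 k / 2 * Real.exp (-Gam p Z0 k) else 1) = A := by
      by_cases h1 : ∃ q ∈ p.Q k, Z0 k = ev q k Z0
      · have h2 : ∃ q ∈ p.Q k, Z k = ev q k Z := hcon.2 h1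
        simp only [A, if_pos h1, if_pos h2]
      · have h2 : ¬ ∃ q ∈ p.Q k, Z k = ev q k Z := fun h' => h1 (hcon.1 h')
        simp only [A, if_neg h1, if_neg h2]
    show _ = x k * (Real.log (x k) - 1 - Z k) +
      (A * Real.exp (Z k) + 8 * p.n * Gam p Z0 k * Real.exp (Gam p Z0 k) *
        ∑ q ∈ S, Real.exp (ev q k Z))
    rw [← hA, ← hS]
  have h1 : ContinuousWithinAt g (DD p) Z0 := hg.continuousWithinAt
  refine h1.congr_of_eventuallyEq ?_ ?_
  · filter_upwards [hpat] with Z hp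
    exact heq Z hp
  · exact heq Z0 (fun k _ q _ => ⟨Iff.rfl, Iff.rfl⟩)

end MaxAux

open MaxAux in
theorem smax (hord : S_ORD) (hsep : S_SEP) : S_MAX := by
  intro p g x hx
  classical
  obtain ⟨c, hc, hgap⟩ := forms_gap hord hsep p g
  have hC1 : 1 ≤ p.C := g.fam.C_one
  have hCn1 : 1 ≤ p.C ^ (p.n + 1) := one_le_pow₀ hC1
  have hK1 : 1 ≤ p.K := by
    have := g.K_ge'
    linarith
  have hG : 0 < p.G := by
    have h1 := g.G_ge
    have h2 := g.Cs_ge
    nlinarith [mul_le_mul hCn1 h2 (by norm_num) (by positivity)]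
  -- the uniform lower bound for the coefficient of `exp (Z k)`
  obtain ⟨ε, hε, hεle1, hε2⟩ : ∃ ε > 0, ε ≤ 1 ∧ ∀ Z, ∀ k < p.n,
      ε ≤ Gam p Z k / 2 * Real.exp (-Gam p Z k) := by
    refine ⟨min 1 (p.G / 2 * Real.exp (-(p.G * p.K ^ (2 ^ p.n)))), by positivity,
      min_le_left _ _, ?_⟩
    intro Z k hk
    refine (min_le_right _ _).trans ?_
    have h1 := (hord p g Z).1 k hk
    have h2 : p.G * 1 ≤ p.G * p.K := mul_le_mul_of_nonneg_left hK1 hG.le
    apply mul_le_mul
    · linarith [h1.1]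
    · exact Real.exp_le_exp.2 (by linarith [h1.2])
    · positivity
    · linarith [h1.1]
  have hGpos : ∀ Z, ∀ k < p.n, 0 < Gam p Z k := by
    intro Z k hk
    have h1 := (hord p g Z).1 k hk
    have h2 : p.G * 1 ≤ p.G * p.K := mul_le_mul_of_nonneg_left hK1 hG.le
    linarith [h1.1]
  let ψ : ℕ → ℝ → ℝ := fun k z => x k * (Real.log (x k) - 1 - z) + ε * Real.exp z
  have hlow : ∀ Z, ∀ k < p.n, ψ k (Z k) ≤ lam p x Z k := by
    intro Z k hk
    show x k * (Real.log (x k) - 1 - Z k) + ε * Real.exp (Z k) ≤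
      oneLoss p.n (Gam p Z k) (x k) (p.Q k) (fun q => ev q k Z) (Z k)
    unfold oneLoss oneCost
    have h1 : ε ≤ (if ∃ q ∈ p.Q k, Z k = ev q k Z then
        Gam p Z k / 2 * Real.exp (-Gam p Z k) else 1) := by
      split_ifs
      · exact hε2 Z k hk
      · exact hεle1
    have h2 := mul_le_mul_of_nonneg_right h1 (Real.exp_pos (Z k)).le
    have h3 : 0 ≤ 8 * (p.n : ℝ) * Gam p Z k * Real.exp (Gam p Z k) *
        ∑ q ∈ p.Q k with ev q k Z < Z k, Real.exp (ev q k Z) := by
      have := hGpos Z k hk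
      have h4 : 0 ≤ ∑ q ∈ p.Q k with ev q k Z < Z k, Real.exp (ev q k Z) :=
        Finset.sum_nonneg (fun q _ => (Real.exp_pos _).le)
      positivity
    linarith
  have hexp : ∀ z : ℝ, 0 ≤ z → z ^ 2 / 2 ≤ Real.exp z := by
    intro z hz
    have := Real.quadratic_le_exp_of_nonneg hz
    linarith
  -- bounded below
  have hbelow : ∀ k < p.n, ∃ m : ℝ, ∀ z, m ≤ ψ k z := by
    intro k hk
    have hxk := hx k hk
    refine ⟨x k * (Real.log (x k) - 1) - x k ^ 2 / (2 * ε), ?_⟩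
    intro z
    show _ ≤ x k * (Real.log (x k) - 1 - z) + ε * Real.exp z
    rcases le_total z 0 with hz | hz
    · have h1 : 0 ≤ x k ^ 2 / (2 * ε) := by positivity
      have h2 : 0 ≤ ε * Real.exp z := by positivity
      have h3 : x k * z ≤ 0 := mul_nonpos_of_nonneg_of_nonpos hxk.le hz
      nlinarith
    · have h1 := mul_le_mul_of_nonneg_left (hexp z hz) hε.le
      have h2 : x k * z - ε * (z ^ 2 / 2) ≤ x k ^ 2 / (2 * ε) := by
        rw [le_div_iff₀ (by positivity)]
        nlinarith [sq_nonneg (x k - ε * z)]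
      nlinarith
  obtain ⟨m, hm0, hm⟩ : ∃ m : ℝ, m ≤ 0 ∧ ∀ k < p.n, ∀ z, m ≤ ψ k z := by
    have h1 : ∀ k ∈ range p.n, ∀ᶠ m in (atBot : Filter ℝ), ∀ z, m ≤ ψ k z := by
      intro k hk
      obtain ⟨m, hm⟩ := hbelow k (mem_range.1 hk)
      filter_upwards [eventually_le_atBot m] with m' hm' z
      exact hm'.trans (hm z)
    have h2 := (Filter.eventually_all_finset (range p.n)).2 h1
    obtain ⟨m, hm1, hm2⟩ := (h2.and (eventually_le_atBot (0 : ℝ))).exists
    exact ⟨m, hm2, fun k hk => hm1 k (mem_range.2 hk)⟩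
  -- coercivity
  let f : (ℕ → ℝ) → ℝ := fun Z => ∑ k ∈ range p.n, lam p x Z k
  let B : ℝ := f 0 - p.n * m
  have hcoer : ∀ k < p.n, ∃ M : ℝ, ∀ z, M < |z| → B < ψ k z := by
    intro k hk
    have hxk := hx k hk
    let L : ℝ := Real.log (x k) - 1
    refine ⟨max (|L - B / x k|) (max (2 * (x k + 1) / ε) (|B - x k * L|)), ?_⟩
    intro z hz
    have hz1 : |L - B / x k| < |z| := (le_max_left _ _).trans_lt hz
    have hz2 : 2 * (x k + 1) / ε < |z| :=
      ((le_max_left _ _).trans (le_max_right _ _)).trans_lt hz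
    have hz3 : |B - x k * L| < |z| :=
      ((le_max_right _ _).trans (le_max_right _ _)).trans_lt hz
    show B < x k * (L - z) + ε * Real.exp z
    rcases le_total z 0 with h0 | h0
    · rw [abs_of_nonpos h0] at hz1
      have h1 : z < L - B / x k := by linarith [neg_abs_le (L - B / x k)]
      have h2 : B / x k < L - z := by linarith
      rw [div_lt_iff₀ hxk] at h2
      have h3 : 0 < ε * Real.exp z := by positivity
      nlinarith
    · rw [abs_of_nonneg h0] at hz2 hz3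
      have h1 := mul_le_mul_of_nonneg_left (hexp z h0) hε.le
      have h2 : 2 * (x k + 1) < z * ε := by rwa [div_lt_iff₀ hε] at hz2
      have h3 : B - x k * L < z := (le_abs_self _).trans_lt hz3
      have h4 : z * (x k + 1) ≤ z * (z * ε / 2) := mul_le_mul_of_nonneg_left (by linarith) h0
      nlinarith
  obtain ⟨M, hM0, hM⟩ : ∃ M : ℝ, 0 ≤ M ∧ ∀ k < p.n, ∀ z, M < |z| → B < ψ k z := by
    have h1 : ∀ k ∈ range p.n, ∀ᶠ M in (atTop : Filter ℝ), ∀ z, M < |z| → B < ψ k z := by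
      intro k hk
      obtain ⟨M, hM⟩ := hcoer k (mem_range.1 hk)
      filter_upwards [eventually_ge_atTop M] with M' hM' z hz
      exact hM z (hM'.trans_lt hz)
    have h2 := (Filter.eventually_all_finset (range p.n)).2 h1
    obtain ⟨M, hM1, hM2⟩ := (h2.and (eventually_ge_atTop (0 : ℝ))).exists
    exact ⟨M, hM2, fun k hk => hM1 k (mem_range.2 hk)⟩
  have h0D : (0 : ℕ → ℝ) ∈ DD p := by
    refine ⟨?_, fun k _ => le_refl _, fun k _ => rfl⟩
    intro k hk
    have hev : ∀ q, ev q k (0 : ℕ → ℝ) = 0 := fun q => by simp [ev]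
    by_cases h : ∃ q, q ∈ p.Q k
    · obtain ⟨q, hq⟩ := h
      exact Or.inl ⟨q, hq, by rw [hev]; rfl⟩
    · exact Or.inr (fun q hq => absurd ⟨q, hq⟩ h)
  -- outside the box the loss is larger than at `0`
  have hout : ∀ Z ∈ DD p, (∃ k < p.n, M < |Z k|) → f 0 < f Z := by
    rintro Z hZ ⟨k, hk, hkM⟩
    have h1 : B < lam p x Z k := (hM k hk _ hkM).trans_le (hlow Z k hk)
    have h2 : ∑ j ∈ (range p.n).erase k, m ≤ ∑ j ∈ (range p.n).erase k, lam p x Z j := by
      apply Finset.sum_le_sum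
      intro j hj
      have hj' := mem_range.1 (Finset.mem_of_mem_erase hj)
      exact (hm j hj' _).trans (hlow Z j hj')
    have h3 : f Z = lam p x Z k + ∑ j ∈ (range p.n).erase k, lam p x Z j :=
      (Finset.add_sum_erase _ _ (mem_range.2 hk)).symm
    rw [Finset.sum_const, Finset.card_erase_of_mem (mem_range.2 hk), card_range,
      nsmul_eq_mul] at h2
    have h4 : (p.n : ℝ) * m ≤ ((p.n - 1 : ℕ) : ℝ) * m := by
      have : ((p.n - 1 : ℕ) : ℝ) ≤ (p.n : ℝ) := by exact_mod_cast Nat.sub_le _ _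
      exact mul_le_mul_of_nonpos_right this hm0
    rw [h3]
    have : B = f 0 - p.n * m := rfl
    linarith
  -- compactness
  let Kb : Set (ℕ → ℝ) := Set.pi Set.univ (fun _ => Set.Icc (-M) M)
  have hKb : IsCompact Kb := isCompact_univ_pi (fun _ => isCompact_Icc)
  have hcomp : IsCompact (DD p ∩ Kb) := hKb.inter_left (isClosed_DD hc hgap)
  have hne : (DD p ∩ Kb).Nonempty := ⟨0, h0D, fun i _ => ⟨by simpa using hM0, by simpa using hM0⟩⟩
  have hcont : ContinuousOn f (DD p ∩ Kb) := by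
    refine ContinuousOn.mono ?_ Set.inter_subset_left
    exact continuousOn_finsetSum _ (fun k hk => continuousOn_lam hc hgap x (mem_range.1 hk))
  obtain ⟨Z, hZ, hmin⟩ := hcomp.exists_isMinOn hne hcont
  refine ⟨Z, hZ.1, ?_⟩
  intro Z' hZ'
  by_cases hin : Z' ∈ Kb
  · exact hmin ⟨hZ', hin⟩
  · have h1 : ∃ k < p.n, M < |Z' k| := by
      by_contra hcon
      push Not at hcon
      apply hin
      intro k _
      by_cases hk : k < p.n
      · exact abs_le.1 (hcon k hk)
      · have : Z' k = 0 := hZ'.2.2 k (not_lt.1 hk)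
        rw [this]
        exact ⟨by linarith, hM0⟩
    have h2 := hout Z' hZ' h1
    have h3 : f Z ≤ f 0 := hmin ⟨h0D, fun i _ => ⟨by simpa using hM0, by simpa using hM0⟩⟩
    exact h3.trans h2.le

end P072
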