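import Vale.Agent.P072.Statements

/-!
# P072, T2 : good parameters exist
-/

namespace P072

/-- The exponential beats linear functions, with an explicit threshold. -/
theorem exp_half_ge {B t : ℝ} (h2 : 2 ≤ t) (h16 : 16 * B ≤ t) :
    B * (1 + t) ≤ Real.exp (t / 2) := by
  have h := Real.quadratic_le_exp_of_nonneg (x := t / 2) (by linarith)
  have h1 : 16 * B * t ≤ t * t := mul_le_mul_of_nonneg_right h16 (by linarith)
  nlinarith

/-- **T2.** Good parameters exist, with `G` as large as we like. -/
theorem par_exists : S_PAR := by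
  intro n Q C R g hn hF
  have hC := hF.C_one
  have hR := hF.R_one
  set B : ℝ := 100 * (n : ℝ) ^ 2 * R with hB
  have hB0 : 0 ≤ B := by positivity
  set Cs : ℝ := max 2 (16 * B) with hCs
  have hCs2 : 2 ≤ Cs := le_max_left _ _
  have hCsB : 16 * B ≤ Cs := le_max_right _ _
  set G : ℝ := max g (8 * C ^ (n + 1) * Cs) with hG
  have hC1 : (1 : ℝ) ≤ C ^ (n + 1) := one_le_pow₀ hC
  have hGge : 8 * C ^ (n + 1) * Cs ≤ G := le_max_right _ _
  have hGCs : Cs ≤ G := by nlinarith
  refine ⟨{ n := n, Q := Q, C := C, R := R, K := max (B * C ^ n) (8 * C ^ (n + 1)), G := G,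
            Cs := Cs, B := B }, ?_, rfl, rfl, rfl, rfl, le_max_left _ _⟩
  refine { n_pos := hn, fam := hF, B_ge := le_refl _, Cs_ge := hCs2, exp_Cs := ?_, exp_G := ?_,
           G_ge := hGge, K_ge := le_max_left _ _, K_ge' := le_max_right _ _ }
  · intro t ht
    have ht' : Cs ≤ t := ht
    refine le_trans (exp_half_ge (by linarith) (by linarith)) ?_
    exact Real.exp_le_exp.mpr (by linarith)
  · intro t ht
    have ht' : G ≤ t := ht
    exact exp_half_ge (by linarith) (by linarith)

end P072
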