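import Vale.Agent.P072.Statements

/-!
# P072, T8 : symmetrisation
-/

namespace P072

open Finset Filter Topology

variable {d : ℕ}

/-- The sequence `y (σ 0), y (σ 1), …`, extended by `0`. -/
noncomputable def seqOf {I : Finset (Fin d)} (σ : Fin I.card ≃ {i // i ∈ I}) (y : Fin d → ℝ) :
    ℕ → ℝ := fun k => if h : k < I.card then y (σ ⟨k, h⟩) else 0

lemma seqOf_fin {I : Finset (Fin d)} (σ : Fin I.card ≃ {i // i ∈ I}) (y : Fin d → ℝ)
    (k : Fin I.card) : seqOf σ y k = y (σ k) := by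
  unfold seqOf; rw [dif_pos k.2]

lemma sum_seq {I : Finset (Fin d)} (σ : Fin I.card ≃ {i // i ∈ I}) (Z : ℕ → ℝ) (y : Fin d → ℝ) :
    ∑ k ∈ range I.card, Z k * seqOf σ y k = ∑ k : Fin I.card, Z k * y (σ k) := by
  rw [Finset.sum_range]
  exact Finset.sum_congr rfl fun k _ => by rw [seqOf_fin]

/-- the vector with entries `Z (σ⁻¹ i)` on `I`. -/
noncomputable def vecOf {I : Finset (Fin d)} (σ : Fin I.card ≃ {i // i ∈ I}) (Z : ℕ → ℝ) :
    Fin d → ℝ := fun i => if h : i ∈ I then Z (σ.symm ⟨i, h⟩) else 0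

lemma vecOf_apply {I : Finset (Fin d)} (σ : Fin I.card ≃ {i // i ∈ I}) (Z : ℕ → ℝ)
    (k : Fin I.card) : vecOf σ Z (σ k) = Z k := by
  unfold vecOf; rw [dif_pos (σ k).2]; simp

lemma sum_I {I : Finset (Fin d)} (σ : Fin I.card ≃ {i // i ∈ I}) (g : Fin d → ℝ) :
    ∑ i ∈ I, g i = ∑ k : Fin I.card, g (σ k) := by
  rw [← Finset.sum_coe_sort I g]
  exact (Equiv.sum_comp σ (fun i : {i // i ∈ I} => g i)).symm

lemma sum_vec {I : Finset (Fin d)} (σ : Fin I.card ≃ {i // i ∈ I}) (Z : ℕ → ℝ) (y : Fin d → ℝ) :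
    ∑ i, vecOf σ Z i * y i = ∑ k : Fin I.card, Z k * y (σ k) := by
  have h1 : ∑ i, vecOf σ Z i * y i = ∑ i ∈ I, vecOf σ Z i * y i := by
    symm
    apply Finset.sum_subset (Finset.subset_univ I)
    intro i _ hi
    unfold vecOf; rw [dif_neg hi, zero_mul]
  rw [h1, sum_I σ]
  exact Finset.sum_congr rfl fun k _ => by rw [vecOf_apply]

lemma exists_enum (I : Finset (Fin d)) (x : Fin d → ℝ) : ∃ σ : Fin I.card ≃ {i // i ∈ I},
    Antitone fun k => x (σ k) := by
  classical
  set e : Fin I.card ≃ {i // i ∈ I} := I.equivFin.symm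
  set g : Fin I.card → ℝ := fun k => - x (e k)
  refine ⟨(Tuple.sort g).trans e, ?_⟩
  have h := Tuple.monotone_sort g
  intro a b hab
  have := h hab
  simp only [Function.comp, g] at this
  simp only [Equiv.trans_apply]
  linarith

theorem pot (hS : S_SORTED) : S_POT := by
  classical
  intro d I Rs b
  set n := I.card with hn
  set Rs' : Finset (ℕ → ℝ) :=
    (Rs ×ˢ (Finset.univ : Finset (Fin I.card ≃ {i // i ∈ I}))).image (fun q => seqOf q.2 q.1)
    with hRs'
  obtain ⟨D, h, M, hD, hmax⟩ := hS I.card Rs' b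
  have key : ∀ x : Fin d → ℝ, ∃ (σ : Fin I.card ≃ {i // i ∈ I}) (Z : ℕ → ℝ), (∀ i, 0 < x i) →
      (Antitone fun k => x (σ k)) ∧ Z ∈ D ∧
      (∀ Z' ∈ D, ∑ i ∈ range I.card, Z' i * seqOf σ x i - h Z' ≤
        ∑ i ∈ range I.card, Z i * seqOf σ x i - h Z) ∧
      (∀ i < I.card, |Z i - Real.log (seqOf σ x i)| ≤ M) ∧
      (∀ r ∈ Rs', 0 < ev r I.card Z → b ≤ ev r I.card Z ∧
        ev r I.card Z ≤ 2 * ev r I.card (fun i => Real.log (seqOf σ x i))) ∧
      ∑ i ∈ range I.card, seqOf σ x i * (Real.log (seqOf σ x i) - M) ≤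
        ∑ i ∈ range I.card, Z i * seqOf σ x i - h Z ∧
      ∑ i ∈ range I.card, Z i * seqOf σ x i - h Z ≤
        ∑ i ∈ range I.card, seqOf σ x i * (Real.log (seqOf σ x i) + M) := by
    intro x
    obtain ⟨σ, hσ⟩ := exists_enum I x
    by_cases hx : ∀ i, 0 < x i
    · have hs : Sorted I.card (seqOf σ x) := by
        constructor
        · intro i hi
          have := seqOf_fin σ x ⟨i, hi⟩
          simp only at this
          rw [this]; exact hx _
        · intro k hk
          have h1 := seqOf_fin σ x ⟨k, by omega⟩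
          have h2 := seqOf_fin σ x ⟨k + 1, hk⟩
          simp only at h1 h2
          rw [h1, h2]
          exact hσ (by simp)
      obtain ⟨Z, h1, h2, h3, h4, h5, h6⟩ := hmax _ hs
      exact ⟨σ, Z, fun _ => ⟨hσ, h1, h2, h3, h4, h5, h6⟩⟩
    · exact ⟨σ, fun _ => 0, fun h => absurd h hx⟩
  choose σ Z hP using key
  refine ⟨M, fun x => ∑ i ∈ range I.card, Z x i * seqOf (σ x) x i - h (Z x),
    fun x => vecOf (σ x) (Z x), ?_⟩
  constructor
  · -- sub
    intro x y hx hy
    obtain ⟨-, hZx, -, -, -, -, -⟩ := hP x hx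
    obtain ⟨hay, -, hmy, -, -, -, -⟩ := hP y hy
    have h1 := hmy (Z x) hZx
    refine le_trans ?_ h1
    have h2 : ∑ i, vecOf (σ x) (Z x) i * (y i - x i) =
        ∑ k : Fin I.card, Z x k * y (σ x k) - ∑ k : Fin I.card, Z x k * x (σ x k) := by
      rw [← sum_vec, ← sum_vec, ← Finset.sum_sub_distrib]
      exact Finset.sum_congr rfl fun i _ => by ring
    have h3 : ∑ k : Fin I.card, Z x k * y (σ x k) ≤ ∑ k : Fin I.card, Z x k * y (σ y k) := by
      have hf : Antitone fun k : Fin I.card => Z x k := by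
        have hle : ∀ i j, i ≤ j → j < I.card → Z x j ≤ Z x i := by
          intro i j hij
          induction j, hij using Nat.le_induction with
          | base => intro _; exact le_rfl
          | succ m hkm ih => intro hm; exact le_trans (hD _ hZx m hm) (ih (by omega))
        intro a b hab
        exact hle a b hab b.2
      have hmono : Monovary (fun k : Fin I.card => Z x k) (fun k => y (σ y k)) :=
        hf.monovary hay
      have h4 := hmono.sum_mul_comp_perm_le_sum_mul (σ := (σ x).trans (σ y).symm)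
      simpa using h4
    rw [h2]
    rw [sum_seq, sum_seq]
    linarith
  · -- supp
    intro x i hi
    simp only [vecOf]; rw [dif_neg hi]
  · -- near
    intro x hx i hi
    obtain ⟨-, -, -, h3, -, -, -⟩ := hP x hx
    have h4 := h3 ((σ x).symm ⟨i, hi⟩) ((σ x).symm ⟨i, hi⟩).2
    rw [seqOf_fin] at h4
    simp only [Equiv.apply_symm_apply] at h4
    simp only [vecOf]; rw [dif_pos hi]
    exact h4
  · -- compat
    intro x hx r hr hpos
    obtain ⟨-, -, -, -, h4, -, -⟩ := hP x hx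
    have hmem : seqOf (σ x) r ∈ Rs' := by
      rw [hRs']
      exact Finset.mem_image.2 ⟨(r, σ x), Finset.mem_product.2 ⟨hr, Finset.mem_univ _⟩, rfl⟩
    have h5 : ∀ Y : ℕ → ℝ, ev (seqOf (σ x) r) I.card Y = ∑ i, r i * vecOf (σ x) Y i := by
      intro Y
      unfold ev
      have : ∑ i, r i * vecOf (σ x) Y i = ∑ i, vecOf (σ x) Y i * r i :=
        Finset.sum_congr rfl fun i _ => mul_comm _ _
      rw [this, sum_vec, ← sum_seq]
      exact Finset.sum_congr rfl fun i _ => mul_comm _ _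
    have h6 := h4 _ hmem
    rw [h5] at h6
    obtain ⟨h7, h8⟩ := h6 hpos
    refine ⟨h7, h8.trans_eq ?_⟩
    congr 1
    rw [sum_I (σ x)]
    unfold ev
    rw [Finset.sum_range]
    exact Finset.sum_congr rfl fun k _ => by rw [seqOf_fin]; simp only [seqOf_fin]
  · -- lower
    intro x hx
    obtain ⟨-, -, -, -, -, h5, -⟩ := hP x hx
    refine le_trans (le_of_eq ?_) h5
    rw [sum_I (σ x), Finset.sum_range]
    exact Finset.sum_congr rfl fun k _ => by rw [seqOf_fin]
  · intro x hx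
    obtain ⟨-, -, -, -, -, -, h6⟩ := hP x hx
    refine le_trans h6 (le_of_eq ?_)
    rw [sum_I (σ x), Finset.sum_range]
    exact Finset.sum_congr rfl fun k _ => by rw [seqOf_fin]

end P072
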