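import Vale.Agent.P072.Statements

/-!
# P072: T3 (locality, order of the gaps, separation of the positions)
-/

namespace P072

open Finset Filter Topology

/-! ### T3a : locality -/

theorem ev_congr {Z Z' : ℕ → ℝ} {k : ℕ} (h : ∀ j < k, Z j = Z' j) (q : ℕ → ℝ) :
    ev q k Z = ev q k Z' := by
  unfold ev
  refine Finset.sum_congr rfl fun j hj => ?_
  rw [h j (Finset.mem_range.1 hj)]

theorem con_congr {p : Par} {Z Z' : ℕ → ℝ} {k : ℕ} (h : ∀ j < k + 1, Z j = Z' j) :
    con p Z k ↔ con p Z' k := by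
  have h' : ∀ j < k, Z j = Z' j := fun j hj => h j (by omega)
  unfold con
  rw [h k (Nat.lt_succ_self k)]
  constructor
  · rintro ⟨q, hq, e⟩
    exact ⟨q, hq, by rw [e, ev_congr h']⟩
  · rintro ⟨q, hq, e⟩
    exact ⟨q, hq, by rw [e, ev_congr h']⟩

theorem val_congr {p : Par} {Z Z' : ℕ → ℝ} {k : ℕ} (h : ∀ j < k, Z j = Z' j) :
    val p Z k = val p Z' k := by
  unfold val
  congr 1
  refine Finset.sum_congr rfl fun i hi => ?_
  have hi' := Finset.mem_range.1 hi
  have : con p Z i ↔ con p Z' i := con_congr fun j hj => h j (by omega)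
  by_cases hc : con p Z i
  · rw [if_pos hc, if_pos (this.1 hc)]
  · rw [if_neg hc, if_neg (fun h => hc (this.2 h))]

theorem Gam_congr {p : Par} {Z Z' : ℕ → ℝ} {k : ℕ} (h : ∀ j < k, Z j = Z' j) :
    Gam p Z k = Gam p Z' k := by
  unfold Gam
  rw [val_congr h]

theorem lev_congr {p : Par} {Z Z' : ℕ → ℝ} {k : ℕ} (h : ∀ j < k + 1, Z j = Z' j) :
    lev p Z k ↔ lev p Z' k := by
  have h' : ∀ j < k, Z j = Z' j := fun j hj => h j (by omega)
  unfold lev
  rw [con_congr h, Gam_congr h', h k (Nat.lt_succ_self k)]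
  simp only [ev_congr h']

theorem lam_congr {p : Par} {Z Z' : ℕ → ℝ} {k : ℕ} (h : ∀ j < k + 1, Z j = Z' j)
    (x : ℕ → ℝ) : lam p x Z k = lam p x Z' k := by
  have h' : ∀ j < k, Z j = Z' j := fun j hj => h j (by omega)
  unfold lam
  rw [Gam_congr h', h k (Nat.lt_succ_self k)]
  simp only [ev_congr h']

theorem cost_congr {p : Par} {Z Z' : ℕ → ℝ} {k : ℕ} (h : ∀ j < k + 1, Z j = Z' j) :
    cost p Z k = cost p Z' k := by
  have h' : ∀ j < k, Z j = Z' j := fun j hj => h j (by omega)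
  unfold cost
  rw [Gam_congr h', h k (Nat.lt_succ_self k)]
  simp only [ev_congr h']

/-- **T3a.** -/
theorem loc : S_LOC := by
  intro p Z Z' k h
  refine ⟨ev_congr h, Gam_congr h, fun j hj => ⟨?_, ?_, ?_, ?_, ?_, ?_⟩⟩
  · exact con_congr fun i hi => h i (by omega)
  · exact lev_congr fun i hi => h i (by omega)
  · exact Gam_congr fun i hi => h i (by omega)
  · exact ev_congr fun i hi => h i (by omega)
  · exact lam_congr fun i hi => h i (by omega)
  · exact cost_congr fun i hi => h i (by omega)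

/-! ### Simple consequences of `Par.Good` -/

theorem Par.Good.C_one {p : Par} (g : p.Good) : 1 ≤ p.C := g.fam.C_one

theorem Par.Good.R_one {p : Par} (g : p.Good) : 1 ≤ p.R := g.fam.R_one

theorem Par.Good.n_one {p : Par} (g : p.Good) : (1 : ℝ) ≤ p.n := by
  exact_mod_cast g.n_pos

theorem Par.Good.B_100 {p : Par} (g : p.Good) : 100 ≤ p.B := by
  have h1 := g.n_one
  have h2 := g.R_one
  have h3 := g.B_ge
  have h4 : (1 : ℝ) ≤ (p.n : ℝ) ^ 2 := one_le_pow₀ h1
  nlinarith [mul_le_mul h4 h2 zero_le_one (by positivity)]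

theorem Par.Good.Cpow_one {p : Par} (g : p.Good) (k : ℕ) : 1 ≤ p.C ^ k :=
  one_le_pow₀ g.C_one

theorem Par.Good.K_100 {p : Par} (g : p.Good) : 100 ≤ p.K := by
  have h1 := g.Cpow_one p.n
  have h2 := g.B_100
  have h3 := g.K_ge
  nlinarith [mul_le_mul h2 h1 zero_le_one (by linarith)]

theorem Par.Good.K_one {p : Par} (g : p.Good) : 1 ≤ p.K := by
  linarith [g.K_100]

theorem Par.Good.G_16 {p : Par} (g : p.Good) : 16 ≤ p.G := by
  have h1 := g.Cpow_one (p.n + 1)
  have h2 := g.Cs_ge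
  have h3 := g.G_ge
  nlinarith [mul_le_mul h1 h2 (by norm_num) (by linarith)]

theorem Par.Good.G_8Cs {p : Par} (g : p.Good) : 8 * p.Cs ≤ p.G := by
  have h1 := g.Cpow_one (p.n + 1)
  have h2 := g.Cs_ge
  have h3 := g.G_ge
  nlinarith [mul_le_mul_of_nonneg_right h1 (by linarith : (0 : ℝ) ≤ p.Cs)]

/-! ### T3b : order of the gaps -/

theorem geom_two (n : ℕ) : ∀ k, k ≤ n →
    (∑ i ∈ range k, 2 ^ (n - 1 - i)) + 2 ^ (n - k) = 2 ^ n := by
  intro k
  induction k with
  | zero => intro _; simp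
  | succ k ih =>
    intro hk
    have ih' := ih (by omega)
    rw [Finset.sum_range_succ]
    have e1 : n - 1 - k = n - (k + 1) := by omega
    have e2 : n - k = (n - (k + 1)) + 1 := by omega
    rw [e2, pow_succ] at ih'
    rw [e1]
    omega

theorem val_le {p : Par} {Z : ℕ → ℝ} {k : ℕ} (hk : k < p.n) : val p Z k ≤ 2 ^ p.n := by
  classical
  have h1 := geom_two p.n k hk.le
  have h2 : (∑ i ∈ range k, if con p Z i then 2 ^ (p.n - 1 - i) else 0)
      ≤ ∑ i ∈ range k, 2 ^ (p.n - 1 - i) := by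
    refine Finset.sum_le_sum fun i _ => ?_
    split_ifs
    · exact le_rfl
    · exact Nat.zero_le _
  have h3 : 2 ^ (p.n - 1 - k) ≤ 2 ^ (p.n - k) := Nat.pow_le_pow_right (by norm_num) (by omega)
  unfold val
  omega

theorem one_le_val {p : Par} {Z : ℕ → ℝ} {k : ℕ} : 1 ≤ val p Z k := by
  unfold val
  have : 1 ≤ 2 ^ (p.n - 1 - k) := Nat.one_le_two_pow
  omega

theorem val_con {p : Par} {Z : ℕ → ℝ} {i m : ℕ} (him : i < m) (hc : con p Z i) :
    val p Z i + 1 ≤ val p Z m := by
  classical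
  have h1 : (∑ j ∈ range (i + 1), if con p Z j then 2 ^ (p.n - 1 - j) else 0)
      ≤ ∑ j ∈ range m, if con p Z j then 2 ^ (p.n - 1 - j) else 0 := by
    refine Finset.sum_le_sum_of_subset (fun j hj => ?_)
    rw [Finset.mem_range] at *
    omega
  rw [Finset.sum_range_succ, if_pos hc] at h1
  have : 1 ≤ 2 ^ (p.n - 1 - m) := Nat.one_le_two_pow
  unfold val
  omega

theorem val_free {p : Par} {Z : ℕ → ℝ} {i m : ℕ} (him : i < m) (hm : m < p.n)
    (hc : ¬ con p Z i) : val p Z m + 1 ≤ val p Z i := by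
  classical
  have key : ∀ r, i + 1 + r ≤ p.n →
      (∑ j ∈ range (i + 1 + r), if con p Z j then 2 ^ (p.n - 1 - j) else 0)
        + 2 ^ (p.n - (i + 1 + r))
      ≤ (∑ j ∈ range i, if con p Z j then 2 ^ (p.n - 1 - j) else 0) + 2 ^ (p.n - 1 - i) := by
    intro r
    induction r with
    | zero =>
      intro _
      rw [Nat.add_zero, Finset.sum_range_succ, if_neg hc]
      have : p.n - (i + 1) = p.n - 1 - i := by omega
      rw [this]
      omega
    | succ r ih =>
      intro hr
      have ih' := ih (by omega)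
      rw [← Nat.add_assoc, Finset.sum_range_succ]
      have e1 : p.n - 1 - (i + 1 + r) = p.n - (i + 1 + r + 1) := by omega
      have e2 : p.n - (i + 1 + r) = (p.n - (i + 1 + r + 1)) + 1 := by omega
      rw [e2, pow_succ] at ih'
      rw [e1]
      split_ifs <;> omega
  obtain ⟨r, rfl⟩ : ∃ r, m = i + 1 + r := ⟨m - (i + 1), by omega⟩
  have hk := key r (by omega)
  have e2 : p.n - (i + 1 + r) = (p.n - 1 - (i + 1 + r)) + 1 := by omega
  rw [e2, pow_succ] at hk
  have : 1 ≤ 2 ^ (p.n - 1 - (i + 1 + r)) := Nat.one_le_two_pow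
  unfold val
  omega

theorem Gam_le_of_val {p : Par} (g : p.Good) {Z : ℕ → ℝ} {i m : ℕ}
    (h : val p Z i + 1 ≤ val p Z m) : p.K * Gam p Z i ≤ Gam p Z m := by
  unfold Gam
  have hG : 0 ≤ p.G := by linarith [g.G_16]
  have h1 : p.K ^ (val p Z i + 1) ≤ p.K ^ val p Z m := pow_le_pow_right₀ g.K_one h
  calc p.K * (p.G * p.K ^ val p Z i) = p.G * p.K ^ (val p Z i + 1) := by ring
    _ ≤ p.G * p.K ^ val p Z m := mul_le_mul_of_nonneg_left h1 hG

/-- **T3b.** -/
theorem ord : S_ORD := by
  intro p g Z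
  have hG : 0 ≤ p.G := by linarith [g.G_16]
  refine ⟨fun k hk => ⟨?_, ?_⟩, fun i m him _ hc => ?_, fun i m him hm hc => ?_⟩
  · unfold Gam
    refine mul_le_mul_of_nonneg_left ?_ hG
    calc p.K = p.K ^ 1 := (pow_one _).symm
      _ ≤ p.K ^ val p Z k := pow_le_pow_right₀ g.K_one one_le_val
  · unfold Gam
    exact mul_le_mul_of_nonneg_left (pow_le_pow_right₀ g.K_one (val_le hk)) hG
  · exact Gam_le_of_val g (val_con him hc)
  · exact Gam_le_of_val g (val_free him hm hc)

theorem Gam_ge {p : Par} (g : p.Good) (Z : ℕ → ℝ) {k : ℕ} (hk : k < p.n) :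
    p.G * p.K ≤ Gam p Z k := ((ord p g Z).1 k hk).1

theorem G_le_Gam {p : Par} (g : p.Good) (Z : ℕ → ℝ) {k : ℕ} (hk : k < p.n) :
    p.G ≤ Gam p Z k := by
  have h1 := Gam_ge g Z hk
  have h2 := g.K_one
  have h3 := g.G_16
  nlinarith

theorem Gam_pos {p : Par} (g : p.Good) (Z : ℕ → ℝ) {k : ℕ} (hk : k < p.n) :
    0 < Gam p Z k := by
  linarith [G_le_Gam g Z hk, g.G_16]

/-! ### T3c : separation -/

/-- **T3c.** -/
theorem sep : S_SEP := by
  intro p g Z k
  induction k using Nat.strong_induction_on with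
  | _ k ih =>
  intro hk hlev q hq q' hq'
  have hC := g.C_one
  have hB := g.B_100
  -- the second part follows from the first
  have second : (∃ i < k, ¬ con p Z i ∧ Gam p Z i ≤ p.C ^ k * |ev q k Z - ev q' k Z|) →
      ∀ m, k ≤ m → m < p.n → p.B * Gam p Z m ≤ |ev q k Z - ev q' k Z| := by
    rintro ⟨i, hik, hfree, hi⟩ m hkm hm
    have h1 : p.K * Gam p Z m ≤ Gam p Z i := (ord p g Z).2.2 i m (by omega) hm hfree
    have hGm := Gam_pos g Z hm
    have h2 : p.B * p.C ^ p.n * Gam p Z m ≤ p.K * Gam p Z m :=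
      mul_le_mul_of_nonneg_right g.K_ge hGm.le
    have h3 : p.C ^ k * |ev q k Z - ev q' k Z| ≤ p.C ^ p.n * |ev q k Z - ev q' k Z| :=
      mul_le_mul_of_nonneg_right (pow_le_pow_right₀ hC hk.le) (abs_nonneg _)
    have hCn : 0 < p.C ^ p.n := by linarith [g.Cpow_one p.n]
    have h4 : p.C ^ p.n * (p.B * Gam p Z m) ≤ p.C ^ p.n * |ev q k Z - ev q' k Z| := by
      linarith
    exact le_of_mul_le_mul_left h4 hCn
  rcases g.fam.clos k hk q hq q' hq' with h | ⟨l, hl, s, hs, a, ha, h⟩
  · left; exact h Z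
  · have hln : l < p.n := by omega
    by_cases h0 : Z l = ev s l Z
    · left
      have := h Z
      rw [h0, sub_self, mul_zero, sub_eq_zero] at this
      exact this
    · right
      have hd : |ev q k Z - ev q' k Z| = |a| * |Z l - ev s l Z| := by rw [h Z, abs_mul]
      have first : ∃ i < k, ¬ con p Z i ∧ Gam p Z i ≤ p.C ^ k * |ev q k Z - ev q' k Z| := by
        by_cases hc : con p Z l
        · obtain ⟨q1, hq1, e1⟩ := hc
          rcases ih l hl hln (fun j hj => hlev j (by omega)) q1 hq1 s hs with h2 | ⟨⟨i, hi, hfree, h3⟩, _⟩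
          · exact absurd (e1.trans h2) h0
          · refine ⟨i, by omega, hfree, ?_⟩
            rw [← e1] at h3
            rw [hd]
            have h4 : |Z l - ev s l Z| ≤ p.C * (|a| * |Z l - ev s l Z|) := by
              calc |Z l - ev s l Z| = 1 * |Z l - ev s l Z| := (one_mul _).symm
                _ ≤ (p.C * |a|) * |Z l - ev s l Z| :=
                  mul_le_mul_of_nonneg_right ha (abs_nonneg _)
                _ = _ := by ring
            have h5 : 0 ≤ |a| * |Z l - ev s l Z| := by positivity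
            calc Gam p Z i ≤ p.C ^ l * |Z l - ev s l Z| := h3
              _ ≤ p.C ^ l * (p.C * (|a| * |Z l - ev s l Z|)) :=
                mul_le_mul_of_nonneg_left h4 (by linarith [g.Cpow_one l])
              _ = p.C ^ (l + 1) * (|a| * |Z l - ev s l Z|) := by ring
              _ ≤ p.C ^ k * (|a| * |Z l - ev s l Z|) :=
                mul_le_mul_of_nonneg_right (pow_le_pow_right₀ hC (by omega)) h5
        · refine ⟨l, hl, hc, ?_⟩
          have hG : Gam p Z l ≤ |Z l - ev s l Z| := by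
            rcases hlev l hl with h2 | h2
            · exact absurd h2 hc
            · exact h2 s hs
          rw [hd]
          have h4 : |Z l - ev s l Z| ≤ p.C * (|a| * |Z l - ev s l Z|) := by
            calc |Z l - ev s l Z| = 1 * |Z l - ev s l Z| := (one_mul _).symm
              _ ≤ (p.C * |a|) * |Z l - ev s l Z| :=
                mul_le_mul_of_nonneg_right ha (abs_nonneg _)
              _ = _ := by ring
          have h5 : 0 ≤ |a| * |Z l - ev s l Z| := by positivity
          have h6 : p.C ≤ p.C ^ k := by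
            calc p.C = p.C ^ 1 := (pow_one _).symm
              _ ≤ p.C ^ k := pow_le_pow_right₀ hC (by omega)
          calc Gam p Z l ≤ |Z l - ev s l Z| := hG
            _ ≤ p.C * (|a| * |Z l - ev s l Z|) := h4
            _ ≤ p.C ^ k * (|a| * |Z l - ev s l Z|) := mul_le_mul_of_nonneg_right h6 h5
      exact ⟨first, second first⟩

end P072
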