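import Vale.Agent.P072.CP

/-!
# P072, T7c and T7 : the greedy value and the sorted theorem
-/

namespace P072

open Finset Filter Topology

theorem grval (hORD : S_ORD) (hSEP : S_SEP) (hEX : S_GREX) (hPR : S_GRPROP) (hL1 : S_L1) :
    S_GRVAL := by
  intro p hp x hx
  obtain ⟨Z, -, h2, h3⟩ := hEX p x (fun _ => 0) 0 (Nat.zero_le _)
  obtain ⟨hD, -⟩ := hPR p hp x Z 0 hx (Nat.zero_le _) (fun j hj => absurd hj (by omega))
    (fun j hj => absurd hj (by omega)) (fun j hj => absurd hj (by omega)) h2 h3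
  refine ⟨Z, hD, Finset.sum_le_sum fun m hm => ?_⟩
  rw [Finset.mem_range] at hm
  have hn1 : (1 : ℝ) ≤ p.n := by exact_mod_cast hp.n_pos
  have hR1 := hp.fam.R_one
  have hx0 : 0 < x m := hx.1 m hm
  have hGG := hp.Gam_ge hORD Z hm
  have hG16 := hp.G_ge_16
  have hsep : ∀ q ∈ p.Q m, ∀ q' ∈ p.Q m, ev q m Z = ev q' m Z ∨
      p.B * Gam p Z m ≤ |ev q m Z - ev q' m Z| := by
    intro q hq q' hq'
    rcases hSEP p hp Z m hm (fun j hj => hD.1 j (by omega)) q hq q' hq' with h | h
    · exact Or.inl h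
    · exact Or.inr (h.2 m le_rfl hm)
  have h1 := hL1 (ℕ → ℝ) (p.Q m) (fun q => ev q m Z) p.n p.R p.B p.G p.B (Gam p Z m) (x m)
    (Z m) hn1 hR1 (hp.fam.card m hm) hp.B_ge (by linarith) hp.exp_G le_rfl hGG hx0 hsep (by
      rcases h2 m (Nat.zero_le _) hm with ⟨q, hq, h1, h2⟩ | ⟨h1, h2⟩
      · exact Or.inl ⟨q, hq, h1, h2⟩
      · exact Or.inr ⟨h1, h2⟩)
  have h4 : lam p x Z m = oneLoss p.n (Gam p Z m) (x m) (p.Q m) (fun q => ev q m Z) (Z m) := rfl
  rw [← h4] at h1
  refine h1.trans ?_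
  have h5 := ((hORD p hp Z).1 m hm).2
  gcongr

lemma lam_eq (p : Par) (x Z : ℕ → ℝ) (k : ℕ) :
    lam p x Z k = x k * (Real.log (x k) - 1 - Z k) + cost p Z k := rfl

theorem sorted (hCLOS : S_CLOS) (hPAR : S_PAR) (hORD : S_ORD) (hMAX : S_MAX) (hTRACK : S_TRACK)
    (hCOMPAT : S_COMPAT) (hGRVAL : S_GRVAL) : S_SORTED := by
  intro n Rs b
  rcases Nat.eq_zero_or_pos n with rfl | hn
  · refine ⟨{0}, fun _ => 0, 0, ?_, ?_⟩
    · intro Z _ k hk; omega
    · intro x _
      refine ⟨0, rfl, ?_, ?_, ?_, ?_, ?_⟩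
      · intro Z' _; simp
      · intro i hi; omega
      · intro r _ h; simp [ev] at h
      · simp
      · simp
  obtain ⟨Q, C, R, hfam, hRs⟩ := hCLOS n hn Rs
  obtain ⟨p, hp, rfl, rfl, rfl, rfl, hg⟩ := hPAR n Q C R (C ^ n * C * |b|) hn hfam
  have hn1 : (1 : ℝ) ≤ p.n := by exact_mod_cast hp.n_pos
  have hR1 := hp.fam.R_one
  have hC1 := hp.fam.C_one
  have hG16 := hp.G_ge_16
  have hK := hp.K_ge_100
  have hCs := hp.Cs_ge
  set Γ := p.G * p.K ^ (2 ^ p.n) with hΓ
  have hΓ0 : 0 ≤ Γ := by positivity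
  set M := 8 * p.n * p.R * Γ + Γ + p.Cs + 1 with hM
  have hM1 : Γ + p.Cs ≤ M := by
    have : 0 ≤ 8 * p.n * p.R * Γ := by positivity
    rw [hM]; linarith
  refine ⟨DD p, fun Z => ∑ k ∈ range p.n, cost p Z k, M, fun Z hZ k hk => hZ.2.1 k hk, ?_⟩
  intro x hx
  obtain ⟨Z, hZ⟩ := hMAX p hp x hx.1
  have htr := hTRACK p hp x Z hx hZ
  have hnear : ∀ i < p.n, |Z i - Real.log (x i)| ≤ M := by
    intro i hi
    rw [abs_sub_comm]
    have h1 := ((hORD p hp Z).1 i hi).2
    by_cases hc : con p Z i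
    · have := (htr i hi).1 hc
      linarith
    · have := (htr i hi).2 hc
      linarith
  have hkey : ∀ Y : ℕ → ℝ, ∑ k ∈ range p.n, Y k * x k - ∑ k ∈ range p.n, cost p Y k =
      ∑ k ∈ range p.n, x k * (Real.log (x k) - 1) - ∑ k ∈ range p.n, lam p x Y k := by
    intro Y
    rw [← Finset.sum_sub_distrib, ← Finset.sum_sub_distrib]
    apply Finset.sum_congr rfl
    intro k _
    rw [lam_eq]; ring
  refine ⟨Z, hZ.1, ?_, hnear, ?_, ?_, ?_⟩
  · intro Z' hZ'
    rw [hkey, hkey]
    have := hZ.2 Z' hZ'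
    linarith
  · intro r hr hpos
    rcases hRs r hr with h | ⟨l, hl, s, hs, a, ha, haZ⟩
    · rw [h Z] at hpos; exact absurd hpos (lt_irrefl _)
    · rw [haZ Z] at hpos ⊢
      rw [haZ]
      rcases hCOMPAT p hp (fun i => Real.log (x i)) Z hZ.1.1 htr l hl s hs with h0 | ⟨h1, h2⟩
      · rw [h0, sub_self, mul_zero] at hpos; exact absurd hpos (lt_irrefl _)
      · have h3 : a * (Z l - ev s l Z) = |a| * |Z l - ev s l Z| := by
          rw [← abs_mul, abs_of_pos hpos]
        constructor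
        · rw [h3]
          have hφ : 0 ≤ |Z l - ev s l Z| := abs_nonneg _
          have hCn : 0 < p.C ^ p.n := by positivity
          -- b ≤ |b| ≤ G / (C^n C) ≤ |φ| / C ≤ |a| |φ|
          have e1 : p.C ^ p.n * (p.C * |b|) ≤ p.C ^ p.n * |Z l - ev s l Z| := by
            calc p.C ^ p.n * (p.C * |b|) = p.C ^ p.n * p.C * |b| := by ring
              _ ≤ p.G := hg
              _ ≤ _ := h1
          have e2 : p.C * |b| ≤ |Z l - ev s l Z| := le_of_mul_le_mul_left e1 hCn
          have e3 : p.C * |b| ≤ p.C * (|a| * |Z l - ev s l Z|) := by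
            calc p.C * |b| ≤ 1 * |Z l - ev s l Z| := by linarith
              _ ≤ (p.C * |a|) * |Z l - ev s l Z| := mul_le_mul_of_nonneg_right ha hφ
              _ = _ := by ring
          have e4 : |b| ≤ |a| * |Z l - ev s l Z| := le_of_mul_le_mul_left e3 (by linarith)
          exact (le_abs_self b).trans e4
        · have e1 : |a * (((fun i => Real.log (x i)) l - ev s l fun i => Real.log (x i)) -
              (Z l - ev s l Z))| ≤ |a| * (|Z l - ev s l Z| / 2) := by
            rw [abs_mul]; exact mul_le_mul_of_nonneg_left h2 (abs_nonneg _)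
          have e2 := (abs_le.1 e1).1
          have e3 : |a| * (|Z l - ev s l Z| / 2) = a * (Z l - ev s l Z) / 2 := by rw [h3]; ring
          rw [e3] at e2
          have e4 : a * (((fun i => Real.log (x i)) l - ev s l fun i => Real.log (x i)) -
              (Z l - ev s l Z)) = a * (Real.log (x l) - ev s l fun i => Real.log (x i)) -
              a * (Z l - ev s l Z) := by ring
          rw [e4] at e2
          linarith
  · rw [hkey]
    obtain ⟨Y, hY, hYv⟩ := hGRVAL p hp x hx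
    have h1 := hZ.2 Y hY
    have h2 : ∑ i ∈ range p.n, x i * (Real.log (x i) - M) ≤
        ∑ i ∈ range p.n, (x i * (Real.log (x i) - 1) - 8 * p.n * p.R * Γ * x i) := by
      apply Finset.sum_le_sum
      intro i hi
      have hx0 := hx.1 i (Finset.mem_range.1 hi)
      have : x i * (Real.log (x i) - 1) - 8 * p.n * p.R * Γ * x i =
        x i * (Real.log (x i) - 1 - 8 * p.n * p.R * Γ) := by ring
      rw [this]
      apply mul_le_mul_of_nonneg_left _ hx0.le
      rw [hM]; linarith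
    rw [Finset.sum_sub_distrib] at h2
    linarith
  · rw [hkey]
    have h2 : ∑ i ∈ range p.n, (x i * (Real.log (x i) - 1) - lam p x Z i) ≤
        ∑ i ∈ range p.n, x i * (Real.log (x i) + M) := by
      apply Finset.sum_le_sum
      intro i hi
      have hi' := Finset.mem_range.1 hi
      have hx0 := hx.1 i hi'
      have h3 := lam_ge hORD hp x Z hi'
      have h4 := (abs_le.1 (hnear i hi')).2
      have h5 : x i * (Z i - Real.log (x i)) ≤ x i * M := mul_le_mul_of_nonneg_left h4 hx0.le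
      nlinarith
    rw [Finset.sum_sub_distrib] at h2
    exact h2

end P072
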