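import Vale.Agent.P072.CP

/-!
# P072, T7a : tracking
-/

namespace P072

open Finset Filter Topology

/-- The induction step of tracking. -/
lemma track_step (hORD : S_ORD) (hSEP : S_SEP) (hLEVEL : S_LEVEL) (hCP : S_CP)
    {p : Par} (hp : p.Good) {x Z : ℕ → ℝ} (hx : Sorted p.n x) (hZ : IsOpt p x Z) {k : ℕ}
    (hk : k < p.n)
    (hprev : ∀ j, k = j + 1 → (con p Z j → |Real.log (x j) - Z j| ≤ Gam p Z j + p.Cs) ∧
      (¬ con p Z j → |Real.log (x j) - Z j| ≤ p.Cs)) :
    (con p Z k → |Real.log (x k) - Z k| ≤ Gam p Z k + p.Cs) ∧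
    (¬ con p Z k → |Real.log (x k) - Z k| ≤ p.Cs) := by
  have hn1 : (1 : ℝ) ≤ p.n := by exact_mod_cast hp.n_pos
  have hB := hp.B_ge_100
  have hGG := hp.Gam_ge hORD Z hk
  have hG16 := hp.G_ge_16
  have hCs := hp.Cs_ge
  have hG8 := hp.G_ge_8Cs
  have hlevs := hZ.1.1
  have hsep : ∀ q ∈ p.Q k, ∀ q' ∈ p.Q k, ev q k Z = ev q' k Z ∨
      p.B * Gam p Z k ≤ |ev q k Z - ev q' k Z| := by
    intro q hq q' hq'
    rcases hSEP p hp Z k hk (fun j hj => hlevs j (by omega)) q hq q' hq' with h | h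
    · exact Or.inl h
    · exact Or.inr (h.2 k le_rfl hk)
  -- the position `Z j` for `k = j + 1`
  have hstar : ∀ j, k = j + 1 → Real.log (x k) ≤ Z j + Gam p Z k / 2 := by
    intro j hj
    have hjn : j < p.n := by omega
    have h1 : Real.log (x k) ≤ Real.log (x j) :=
      Real.log_le_log (hx.1 k hk) (by rw [hj]; exact hx.2 j (by omega))
    obtain ⟨h2, h3⟩ := hprev j hj
    by_cases hc : con p Z j
    · have h4 := (abs_le.1 (h2 hc)).2
      have h5 := (hORD p hp Z).2.1 j k (by omega) hk hc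
      have h6 := hp.Gam_ge hORD Z hjn
      have h7 := hp.K_ge_100
      nlinarith
    · have h4 := (abs_le.1 (h3 hc)).2
      linarith
  have hpos : ∀ j, k = j + 1 → ∃ q ∈ p.Q k, ev q k Z = Z j := by
    intro j hj
    obtain ⟨q, hq, h⟩ := hp.fam.tie k hk j (by omega)
    exact ⟨q, hq, h Z⟩
  have hmain := hLEVEL (ℕ → ℝ) (p.Q k) (fun q => ev q k Z) p.n p.R p.B p.Cs p.G p.B
    (Gam p Z k) (x k) (Real.log (x k)) (Z k) (fun z => ∀ j, k = j + 1 → z ≤ Z j)
    hn1 hp.fam.R_one (hp.fam.card k hk) hp.B_ge hCs hp.exp_Cs hp.exp_G (by linarith) le_rfl hGG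
    (hx.1 k hk) rfl hsep (hlevs k hk) (fun a b hab hb j hj => hab.trans (hb j hj))
    (by
      intro q hq hqX j hj
      by_contra hlt
      push Not at hlt
      obtain ⟨q', hq', hq'e⟩ := hpos j hj
      have h1 := hsep q hq q' hq'
      rw [hq'e] at h1
      rcases h1 with h1 | h1
      · exact absurd h1 hlt.ne'
      · rw [abs_of_pos (by linarith)] at h1
        have h2 := hstar j hj
        have h3 := (abs_lt.1 hqX).1
        nlinarith)
    (by
      intro hfree j hj
      obtain ⟨q', hq', hq'e⟩ := hpos j hj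
      have h1 := hfree q' hq'
      simp only [hq'e] at h1
      have h2 := hstar j hj
      rcases le_abs'.1 h1 with h3 | h3 <;> linarith)
    (by
      intro q hq hadm hX
      exact (hCP p hp x Z hx hZ k hk (ev q k Z) hadm).1 ⟨q, hq, rfl⟩ hX)
    (by
      intro hfree hadm
      exact (hCP p hp x Z hx hZ k hk (Real.log (x k)) hadm).2 hfree rfl)
  exact hmain

theorem track (hORD : S_ORD) (hSEP : S_SEP) (hLEVEL : S_LEVEL) (hCP : S_CP) : S_TRACK := by
  intro p hp x Z hx hZ k
  induction k with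
  | zero =>
    intro hk
    exact track_step hORD hSEP hLEVEL hCP hp hx hZ hk (fun j hj => absurd hj (by omega))
  | succ k ih =>
    intro hk
    refine track_step hORD hSEP hLEVEL hCP hp hx hZ hk (fun j hj => ?_)
    obtain rfl : k = j := by omega
    exact ih (by omega)

end P072
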