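import Vale.Agent.P072.Clos
import Vale.Agent.P072.Par
import Vale.Agent.P072.Sep
import Vale.Agent.P072.Level
import Vale.Agent.P072.Greedy
import Vale.Agent.P072.L12
import Vale.Agent.P072.CP
import Vale.Agent.P072.Track
import Vale.Agent.P072.Compat
import Vale.Agent.P072.Sorted
import Vale.Agent.P072.Box
import Vale.Agent.P072.Dyn2
import Vale.Agent.P072.Barrier2
import Vale.Agent.P072.Inv2
import Vale.Agent.P072.Cara2
import Vale.Agent.P072.Final2
import Vale.Agent.P072.Const
import Vale.Agent.P072.Max
import Vale.Agent.P072.Pot
import Vale.Agent.P072.Enter2Alt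

/-!
# P072 : the whole proof put together
-/

namespace P072

theorem cp' : S_CP := cp loc ord sep grex grprop L1 L2
theorem track' : S_TRACK := track ord sep level cp'
theorem compat' : S_COMPAT := compat ord sep
theorem grval' : S_GRVAL := grval ord sep grex grprop L1
theorem sorted' : S_SORTED :=
  sorted clos par_exists ord (smax ord sep) track' compat' grval'
theorem pot' : S_POT := pot sorted'
theorem inv2' : S2_INV := inv2 (face2 pot' dyn2 locn2') (top2 pot' dyn2 locn2')
theorem main2 : S2_FINAL := final2 pot' dyn2 inv2' uniq2 glob2 class2 box enter2'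
theorem main : S_FINAL := final_of_final2 main2

end P072
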