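import Vale.Agent.P072.Cont

/-!
# P072, T11/T12 (and U3/U4) : barriers, for an abstract notion of solution
-/

namespace P072

open Finset Filter Topology

/-- Abstract form of potentials do not increase along solutions. -/
def AbsDec {d : ℕ} (net : Network d) (b : ℝ) (Sol : (ℝ → (Fin d → ℝ)) → ℝ → ℝ → Prop) : Prop :=
  ∀ (I : Finset (Fin d)) (b' M : ℝ) (W : (Fin d → ℝ) → ℝ) (V : (Fin d → ℝ) → (Fin d → ℝ))
    (p : Fin d → ℝ), (∀ i, 0 < p i) → IsPotOn I net.diffs b' M W V →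
    (∀ᶠ y in 𝓝 p, ∀ r ∈ net.diffs, 0 < ∑ i, r i * V y i →
      b ≤ ∑ i, r i * V y i ∧ ∑ i, r i * V y i ≤ 4 * ∑ i, r i * Real.log (y i)) →
    ∀ (x : ℝ → (Fin d → ℝ)) (t0 t1 : ℝ), t0 < t1 → Sol x t0 t1 → x t0 = p →
      ∀ᶠ t in 𝓝[>] t0, W (x t) ≤ W p

lemma tendsto_of_contOn {d : ℕ} {x : ℝ → (Fin d → ℝ)} {t0 t1 : ℝ} (h : t0 < t1)
    (hx : ContinuousOn x (Set.Icc t0 t1)) : Tendsto x (𝓝[>] t0) (𝓝 (x t0)) := by
  have h1 := (hx t0 ⟨le_rfl, h.le⟩).tendsto
  refine h1.mono_left ?_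
  rw [← nhdsWithin_Ioo_eq_nhdsGT h]
  exact nhdsWithin_mono _ Set.Ioo_subset_Icc_self

lemma eventually_pos {d : ℕ} {p : Fin d → ℝ} (hp : ∀ i, 0 < p i) :
    ∀ᶠ y in 𝓝 p, ∀ i, 0 < y i := orthant_open.mem_nhds hp

lemma relClosed {d : ℕ} {Φ : (Fin d → ℝ) → ℝ} {c : ℝ}
    (hΦ : ContinuousOn Φ {x | ∀ i, 0 < x i}) :
    ∀ x : Fin d → ℝ, (∀ i, 0 < x i) → x ∈ closure {x | (∀ i, 0 < x i) ∧ Φ x ≤ c} →
      x ∈ {x : Fin d → ℝ | (∀ i, 0 < x i) ∧ Φ x ≤ c} := by
  intro x hx hcl
  refine ⟨hx, ?_⟩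
  by_contra hlt
  push Not at hlt
  have h1 : ContinuousAt Φ x := hΦ.continuousAt (orthant_open.mem_nhds hx)
  have h2 : ∀ᶠ y in 𝓝 x, c < Φ y := h1.eventually (lt_mem_nhds hlt)
  rw [mem_closure_iff_frequently] at hcl
  obtain ⟨y, hy1, hy2⟩ := (hcl.and_eventually h2).exists
  exact absurd hy1.2 (not_le.2 hy2)

lemma xlog_lower (M t : ℝ) (ht : 0 < t) : -Real.exp M ≤ t * (Real.log t - M) := by
  -- t (log t - M) ≥ - e^{M-1} ≥ - e^M
  have h1 : Real.log t - M = -(Real.log (Real.exp M / t)) := by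
    rw [Real.log_div (Real.exp_pos M).ne' ht.ne', Real.log_exp]; ring
  have h2 : Real.log (Real.exp M / t) ≤ Real.exp M / t - 1 :=
    Real.log_le_sub_one_of_pos (div_pos (Real.exp_pos M) ht)
  rw [h1]
  have h3 : t * Real.log (Real.exp M / t) ≤ t * (Real.exp M / t - 1) :=
    mul_le_mul_of_nonneg_left h2 ht.le
  have h4 : t * (Real.exp M / t - 1) = Real.exp M - t := by field_simp
  nlinarith

/-- **The top constraint.** -/
theorem absTop (hPOT : S_POT) {d : ℕ} (net : Network d) (b : ℝ)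
    (Sol : (ℝ → (Fin d → ℝ)) → ℝ → ℝ → Prop)
    (hS : ∀ x t0 t1, t0 < t1 → Sol x t0 t1 → ContinuousOn x (Set.Icc t0 t1))
    (hD : AbsDec net b Sol) (K0 : Set (Fin d → ℝ)) (hK : IsCompact K0)
    (hKpos : ∀ x ∈ K0, ∀ i, 0 < x i) :
    ∃ (F : Set (Fin d → ℝ)) (Bd : ℝ), K0 ⊆ F ∧ (∀ x ∈ F, ∀ i, 0 < x i) ∧
      (∀ x, (∀ i, 0 < x i) → x ∈ closure F → x ∈ F) ∧ (∀ x ∈ F, ∀ i, x i ≤ Bd) ∧
      ∀ p ∈ F, ∀ (x : ℝ → (Fin d → ℝ)) (t0 t1 : ℝ), t0 < t1 → Sol x t0 t1 → x t0 = p →
        ∀ᶠ t in 𝓝[>] t0, x t ∈ F := by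
  obtain ⟨M, W, V, hpot⟩ := hPOT d univ net.diffs b
  have hWc : ContinuousOn W {x | ∀ i, 0 < x i} := cont d univ net.diffs b M W V hpot
  obtain ⟨c, hc⟩ : ∃ c : ℝ, ∀ x ∈ K0, W x ≤ c := by
    obtain ⟨c, hc⟩ := (hK.image_of_continuousOn (hWc.mono hKpos)).bddAbove
    exact ⟨c, fun x hx => hc (Set.mem_image_of_mem W hx)⟩
  refine ⟨{x | (∀ i, 0 < x i) ∧ W x ≤ c},
    max (Real.exp (M + 1)) (c + d * Real.exp M), ?_, ?_, ?_, ?_, ?_⟩
  · exact fun x hx => ⟨hKpos x hx, hc x hx⟩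
  · exact fun x hx => hx.1
  · exact relClosed hWc
  · rintro x ⟨hx1, hx2⟩ i
    by_contra hcon
    push Not at hcon
    rw [max_lt_iff] at hcon
    obtain ⟨h1, h2⟩ := hcon
    have h3 := hpot.lower x hx1
    have h4 : ∑ j, x j * (Real.log (x j) - M) =
        x i * (Real.log (x i) - M) + ∑ j ∈ univ.erase i, x j * (Real.log (x j) - M) :=
      (Finset.add_sum_erase _ _ (Finset.mem_univ i)).symm
    have h5 : -(d * Real.exp M) ≤ ∑ j ∈ univ.erase i, x j * (Real.log (x j) - M) := by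
      have h6 : ∑ _j ∈ univ.erase i, (-Real.exp M) ≤
          ∑ j ∈ univ.erase i, x j * (Real.log (x j) - M) :=
        Finset.sum_le_sum fun j _ => xlog_lower M (x j) (hx1 j)
      refine le_trans ?_ h6
      rw [Finset.sum_const, nsmul_eq_mul]
      have h7 : ((univ.erase i).card : ℝ) ≤ d := by
        have := Finset.card_erase_le (s := (univ : Finset (Fin d))) (a := i)
        rw [Finset.card_univ, Fintype.card_fin] at this
        exact_mod_cast this
      have := Real.exp_pos M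
      nlinarith
    have h8 : M + 1 < Real.log (x i) := by
      rw [Real.lt_log_iff_exp_lt (hx1 i)]; exact h1
    have h9 : x i ≤ x i * (Real.log (x i) - M) := by
      have := hx1 i
      nlinarith
    linarith
  · intro p hp x t0 t1 ht hx hxp
    have hcx := tendsto_of_contOn ht (hS x t0 t1 ht hx)
    rw [hxp] at hcx
    have h1 : ∀ᶠ t in 𝓝[>] t0, ∀ i, 0 < x t i := hcx.eventually (eventually_pos hp.1)
    have h2 := hD univ b M W V p hp.1 hpot ?_ x t0 t1 ht hx hxp
    · filter_upwards [h1, h2] with t h3 h4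
      exact ⟨h3, h4.trans hp.2⟩
    · filter_upwards [eventually_pos hp.1] with y hy r hr hpos
      obtain ⟨h3, h4⟩ := hpot.compat y hy r hr hpos
      exact ⟨h3, by linarith⟩

/-- truncation of the coordinates in `I` at `θ` -/
noncomputable def trunc {d : ℕ} (I : Finset (Fin d)) (θ : ℝ) (x : Fin d → ℝ) : Fin d → ℝ :=
  fun i => if i ∈ I then min (x i) θ else x i

lemma trunc_pos {d : ℕ} (I : Finset (Fin d)) {θ : ℝ} (hθ : 0 < θ) {x : Fin d → ℝ}
    (hx : ∀ i, 0 < x i) : ∀ i, 0 < trunc I θ x i := by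
  intro i
  unfold trunc
  split_ifs
  · exact lt_min (hx i) hθ
  · exact hx i

lemma trunc_cont {d : ℕ} (I : Finset (Fin d)) (θ : ℝ) : Continuous (trunc I θ) := by
  refine continuous_pi fun i => ?_
  unfold trunc
  split_ifs
  · exact (continuous_apply i).min continuous_const
  · exact continuous_apply i

lemma trunc_eq {d : ℕ} (I : Finset (Fin d)) {θ : ℝ} {x : Fin d → ℝ}
    (hx : ∀ i ∈ I, x i ≤ θ) : trunc I θ x = x := by
  funext i
  unfold trunc
  split_ifs with h
  · exact min_eq_left (hx i h)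
  · rfl

lemma exists_small (M δ : ℝ) (hδ : 0 < δ) : ∃ ρ' : ℝ, 0 < ρ' ∧ ∀ t, 0 < t → t < ρ' →
    -δ < t * (Real.log t - M) := by
  have h1 : Tendsto (fun t : ℝ => t * (Real.log t - M)) (𝓝[>] 0) (𝓝 0) := by
    have h2 : Tendsto (fun t : ℝ => Real.log t * t) (𝓝[>] 0) (𝓝 0) := by
      simpa only [Real.rpow_one] using tendsto_log_mul_rpow_nhdsGT_zero zero_lt_one
    have h3 : Tendsto (fun t : ℝ => t * M) (𝓝[>] 0) (𝓝 0) := by
      have : Tendsto (fun t : ℝ => t * M) (𝓝 0) (𝓝 (0 * M)) :=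
        (continuous_id.mul continuous_const).tendsto 0
      rw [zero_mul] at this
      exact this.mono_left nhdsWithin_le_nhds
    have h4 := h2.sub h3
    rw [sub_zero] at h4
    refine h4.congr fun t => ?_
    ring
  have h5 : ∀ᶠ t in 𝓝[>] (0:ℝ), -δ < t * (Real.log t - M) :=
    h1.eventually (lt_mem_nhds (by linarith))
  rw [eventually_nhdsWithin_iff, Metric.eventually_nhds_iff] at h5
  obtain ⟨ε, hε, h6⟩ := h5
  refine ⟨ε, hε, fun t ht1 ht2 => ?_⟩
  apply h6 _ ht1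
  rw [Real.dist_eq, sub_zero, abs_of_pos ht1]
  exact ht2

/-- **The face constraints.** -/
theorem absFace (hPOT : S_POT) {d : ℕ} (net : Network d) (b : ℝ)
    (Sol : (ℝ → (Fin d → ℝ)) → ℝ → ℝ → Prop)
    (hS : ∀ x t0 t1, t0 < t1 → Sol x t0 t1 → ContinuousOn x (Set.Icc t0 t1))
    (hD : AbsDec net b Sol) (K0 : Set (Fin d → ℝ)) (hK : IsCompact K0)
    (hKpos : ∀ x ∈ K0, ∀ i, 0 < x i) (I : Finset (Fin d)) (hI : I.Nonempty) (Bd ρ : ℝ)
    (hρ : 0 < ρ) :
    ∃ (F : Set (Fin d → ℝ)) (ρ' : ℝ), 0 < ρ' ∧ K0 ⊆ F ∧ (∀ x ∈ F, ∀ i, 0 < x i) ∧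
      (∀ x, (∀ i, 0 < x i) → x ∈ closure F → x ∈ F) ∧ (∀ x ∈ F, ∃ i ∈ I, ρ' ≤ x i) ∧
      ∀ p ∈ F, (∀ i, p i ≤ Bd) → (∀ j, j ∉ I → ∃ i ∈ insert j I, ρ ≤ p i) →
        ∀ (x : ℝ → (Fin d → ℝ)) (t0 t1 : ℝ), t0 < t1 → Sol x t0 t1 → x t0 = p →
          ∀ᶠ t in 𝓝[>] t0, x t ∈ F := by
  classical
  set ℓ : ℝ := |Real.log (ρ/2)| + |Real.log (Bd + 1)| with hℓ
  have hℓ0 : 0 ≤ ℓ := by positivity
  set Λ : ℝ := ∑ r ∈ net.diffs, ∑ j, |r j| * ℓ with hΛ
  have hΛr : ∀ r ∈ net.diffs, ∑ j, |r j| * ℓ ≤ Λ := by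
    intro r hr
    exact Finset.single_le_sum (f := fun r : Fin d → ℝ => ∑ j, |r j| * ℓ)
      (fun r _ => Finset.sum_nonneg fun j _ => mul_nonneg (abs_nonneg _) hℓ0) hr
  set bI : ℝ := max b (4 * Λ) with hbI
  obtain ⟨M, W, V, hpot⟩ := hPOT d I net.diffs bI
  have hWc : ContinuousOn W {x | ∀ i, 0 < x i} := cont d I net.diffs bI M W V hpot
  set θ : ℝ := Real.exp (-(M+1)) with hθ
  have hθ0 : 0 < θ := Real.exp_pos _
  have hlogθ : Real.log θ = -(M+1) := Real.log_exp _
  set Φ : (Fin d → ℝ) → ℝ := fun x => W (trunc I θ x) with hΦ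
  have hΦc : ContinuousOn Φ {x | ∀ i, 0 < x i} :=
    hWc.comp (trunc_cont I θ).continuousOn fun x hx => trunc_pos I hθ0 hx
  -- upper bound for Φ
  have hΦup : ∀ x : Fin d → ℝ, (∀ i, 0 < x i) → ∀ τ, (∃ i ∈ I, τ ≤ min (x i) θ) → Φ x ≤ -τ := by
    intro x hx τ hτ
    obtain ⟨i, hi, hτi⟩ := hτ
    have h1 := hpot.upper (trunc I θ x) (trunc_pos I hθ0 hx)
    have h2 : ∑ j ∈ I, trunc I θ x j * (Real.log (trunc I θ x j) + M) ≤
        ∑ j ∈ I, -(trunc I θ x j) := by
      apply Finset.sum_le_sum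
      intro j hj
      have hpos := trunc_pos I hθ0 hx j
      have hle : trunc I θ x j ≤ θ := by
        unfold trunc
        rw [if_pos hj]
        exact min_le_right _ _
      have : Real.log (trunc I θ x j) ≤ -(M+1) := by
        rw [← hlogθ]
        exact Real.log_le_log hpos hle
      nlinarith
    have h3 : ∑ j ∈ I, -(trunc I θ x j) ≤ -(trunc I θ x i) := by
      rw [Finset.sum_neg_distrib]
      have := Finset.single_le_sum (f := fun j => trunc I θ x j)
        (fun j _ => (trunc_pos I hθ0 hx j).le) hi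
      linarith
    have h4 : trunc I θ x i = min (x i) θ := by
      unfold trunc; rw [if_pos hi]
    rw [h4] at h3
    simp only [hΦ]
    linarith
  -- lower bound of the coordinates on K0
  obtain ⟨m0, hm0, hm0'⟩ : ∃ m0 : ℝ, 0 < m0 ∧ ∀ x ∈ K0, ∀ i, m0 ≤ x i := by
    rcases K0.eq_empty_or_nonempty with rfl | hne
    · exact ⟨1, one_pos, by simp⟩
    · have : ∀ i : Fin d, ∃ m : ℝ, 0 < m ∧ ∀ x ∈ K0, m ≤ x i := by
        intro i
        obtain ⟨z, hz, hz'⟩ := hK.exists_isMinOn hne (continuous_apply i).continuousOn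
        exact ⟨z i, hKpos z hz i, fun x hx => hz' hx⟩
      choose m hm hm' using this
      have hun : (univ : Finset (Fin d)).Nonempty := hI.mono (Finset.subset_univ _)
      refine ⟨univ.inf' hun m, ?_, ?_⟩
      · exact (Finset.lt_inf'_iff hun).2 fun i _ => hm i
      · intro x hx i
        exact (Finset.inf'_le m (Finset.mem_univ i)).trans (hm' i x hx)
  set τ : ℝ := min ρ θ with hτ
  have hτ0 : 0 < τ := lt_min hρ hθ0
  set η : ℝ := min (min m0 θ) (τ/2) with hη
  have hη0 : 0 < η := lt_min (lt_min hm0 hθ0) (by linarith)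
  -- lower bound for Φ
  obtain ⟨ρ1, hρ1, hρ1'⟩ := exists_small M (η / (I.card + 1)) (by positivity)
  refine ⟨{x | (∀ i, 0 < x i) ∧ Φ x ≤ -η}, min ρ1 θ, lt_min hρ1 hθ0, ?_, ?_, ?_, ?_, ?_⟩
  · intro x hx
    refine ⟨hKpos x hx, ?_⟩
    obtain ⟨i0, hi0⟩ := hI
    apply hΦup x (hKpos x hx)
    refine ⟨i0, hi0, ?_⟩
    refine (min_le_left _ _).trans ?_
    exact min_le_min_right θ (hm0' x hx i0)
  · exact fun x hx => hx.1
  · exact relClosed hΦc
  · rintro x ⟨hx1, hx2⟩
    by_contra hcon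
    push Not at hcon
    have hle : ∀ i ∈ I, x i ≤ θ := fun i hi => ((hcon i hi).trans_le (min_le_right _ _)).le
    have h1 := hpot.lower x hx1
    have h2 : Φ x = W x := by
      simp only [hΦ]; rw [trunc_eq I hle]
    have h3 : ∑ _i ∈ I, (-(η / (I.card + 1))) ≤ ∑ i ∈ I, x i * (Real.log (x i) - M) :=
      Finset.sum_le_sum fun i hi => (hρ1' (x i) (hx1 i)
        ((hcon i hi).trans_le (min_le_left _ _))).le
    rw [Finset.sum_const, nsmul_eq_mul] at h3
    have h4 : (I.card : ℝ) * (-(η / (I.card + 1))) > -η := by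
      have h5 : (0:ℝ) ≤ I.card := Nat.cast_nonneg _
      have h6 : (I.card : ℝ) * (η / (I.card + 1)) < η := by
        rw [mul_div_assoc', div_lt_iff₀ (by linarith)]
        nlinarith
      linarith
    rw [h2] at hx2
    linarith
  · intro p hp hpB hpρ x t0 t1 ht hx hxp
    have hcx := tendsto_of_contOn ht (hS x t0 t1 ht hx)
    rw [hxp] at hcx
    have hpos : ∀ᶠ t in 𝓝[>] t0, ∀ i, 0 < x t i := hcx.eventually (eventually_pos hp.1)
    by_cases hA : ∃ i ∈ I, τ ≤ p i
    · -- case A : strict inequality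
      obtain ⟨i, hi, hτi⟩ := hA
      have h1 : Φ p ≤ -τ := hΦup p hp.1 τ ⟨i, hi, le_min hτi (min_le_right _ _)⟩
      have h2 : Φ p < -η := by
        have : η ≤ τ/2 := min_le_right _ _
        linarith
      have h3 : ContinuousAt Φ p := hΦc.continuousAt (orthant_open.mem_nhds hp.1)
      have h4 : ∀ᶠ y in 𝓝 p, Φ y < -η := h3.eventually (gt_mem_nhds h2)
      filter_upwards [hpos, hcx.eventually h4] with t h5 h6
      exact ⟨h5, h6.le⟩
    · -- case B : all coordinates in I are small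
      push Not at hA
      have hsm : ∀ i ∈ I, p i < θ := fun i hi => (hA i hi).trans_le (min_le_right _ _)
      have hJ : ∀ j, j ∉ I → ρ ≤ p j := by
        intro j hj
        obtain ⟨i, hi, hρi⟩ := hpρ j hj
        rw [Finset.mem_insert] at hi
        rcases hi with rfl | hi
        · exact hρi
        · exact absurd ((min_le_left ρ θ).trans hρi) (not_le.2 (hA i hi))
      have hsm' : ∀ᶠ y in 𝓝 p, ∀ i ∈ I, y i < θ := by
        rw [Filter.eventually_all_finset]
        intro i hi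
        exact (continuous_apply i).continuousAt.eventually (gt_mem_nhds (hsm i hi))
      have hJ1 : ∀ᶠ y in 𝓝 p, ∀ j, j ∉ I → ρ / 2 < y j := by
        rw [Filter.eventually_all]
        intro j
        by_cases hj : j ∈ I
        · exact Filter.Eventually.of_forall fun y h => absurd hj h
        · have h0 : ρ/2 < p j := by linarith [hJ j hj]
          have h1 : ∀ᶠ y in 𝓝 p, ρ/2 < y j :=
            (continuous_apply j).continuousAt.eventually (lt_mem_nhds h0)
          filter_upwards [h1] with y hy _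
          exact hy
      have hJ2 : ∀ᶠ y in 𝓝 p, ∀ j, y j < Bd + 1 := by
        rw [Filter.eventually_all]
        intro j
        have h0 : p j < Bd + 1 := by linarith [hpB j]
        exact (continuous_apply j).continuousAt.eventually (gt_mem_nhds h0)
      have hΦW : ∀ᶠ y in 𝓝 p, Φ y = W y := by
        filter_upwards [hsm'] with y hy
        simp only [hΦ]
        rw [trunc_eq I fun i hi => (hy i hi).le]
      have hΦWp : Φ p = W p := by
        simp only [hΦ]
        rw [trunc_eq I fun i hi => (hsm i hi).le]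
      have h1 := hD I bI M W V p hp.1 hpot ?_ x t0 t1 ht hx hxp
      · filter_upwards [hpos, h1, hcx.eventually hΦW] with t h2 h3 h4
        refine ⟨h2, ?_⟩
        rw [h4]
        have := hp.2
        rw [hΦWp] at this
        exact h3.trans this
      · filter_upwards [eventually_pos hp.1, hJ1, hJ2] with y hy hy1 hy2 r hr hrpos
        obtain ⟨h3, h4⟩ := hpot.compat y hy r hr hrpos
        have hb1 : b ≤ bI := le_max_left _ _
        have hb2 : 4 * Λ ≤ bI := le_max_right _ _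
        refine ⟨hb1.trans h3, ?_⟩
        have h5 : ∑ i, r i * Real.log (y i) =
            ∑ i ∈ I, r i * Real.log (y i) + ∑ i ∈ Iᶜ, r i * Real.log (y i) :=
          (Finset.sum_add_sum_compl I _).symm
        have h6 : -Λ ≤ ∑ i ∈ Iᶜ, r i * Real.log (y i) := by
          have h7 : |∑ i ∈ Iᶜ, r i * Real.log (y i)| ≤ ∑ i ∈ Iᶜ, |r i| * ℓ := by
            refine (Finset.abs_sum_le_sum_abs _ _).trans ?_
            apply Finset.sum_le_sum
            intro j hj
            rw [Finset.mem_compl] at hj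
            rw [abs_mul]
            apply mul_le_mul_of_nonneg_left _ (abs_nonneg _)
            have a1 := hy1 j hj
            have a2 := hy2 j
            have a3 : Real.log (ρ/2) ≤ Real.log (y j) := Real.log_le_log (by linarith) a1.le
            have a4 : Real.log (y j) ≤ Real.log (Bd+1) := Real.log_le_log (hy j) a2.le
            rw [abs_le]
            constructor
            · have := neg_abs_le (Real.log (ρ/2))
              have := abs_nonneg (Real.log (Bd+1))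
              linarith
            · have := le_abs_self (Real.log (Bd+1))
              have := abs_nonneg (Real.log (ρ/2))
              linarith
          have h8 : ∑ i ∈ Iᶜ, |r i| * ℓ ≤ ∑ i, |r i| * ℓ :=
            Finset.sum_le_sum_of_subset_of_nonneg (Finset.subset_univ _)
              fun j _ _ => mul_nonneg (abs_nonneg _) hℓ0
          have h9 := hΛr r hr
          have := neg_abs_le (∑ i ∈ Iᶜ, r i * Real.log (y i))
          linarith
        linarith

end P072
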