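import Vale.Agent.P072.Statements2

/-!
# P072: U6, U7 (Carathéodory existence and uniqueness, classes)
-/

namespace P072

open Finset Filter Topology MeasureTheory

/-! ### The mass-action field: bounds, Lipschitz constants, measurability -/

theorem RateOK.abs_le {d : ℕ} {net : Network d} {ε : ℝ} (hε : 0 < ε)
    {κ : (Fin d → ℕ) × (Fin d → ℕ) → ℝ} (h : RateOK net ε κ) {r} (hr : r ∈ net.reactions) :
    |κ r| ≤ ε⁻¹ := by
  have := h r hr
  rw [abs_of_pos (by linarith)]
  exact this.2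

/-- Bound and Lipschitz constant of the mass-action fields on a ball, uniform in the rates. -/
theorem massAction_bounds {d : ℕ} (net : Network d) {ε : ℝ} (hε : 0 < ε) (R : ℝ) :
    ∃ M L : ℝ, 0 < M ∧ 0 < L ∧ ∀ κ, RateOK net ε κ → ∀ x ∈ Metric.closedBall (0 : Fin d → ℝ) R,
      ‖net.massAction κ x‖ ≤ M ∧ ∀ y ∈ Metric.closedBall (0 : Fin d → ℝ) R,
        ‖net.massAction κ x - net.massAction κ y‖ ≤ L * ‖x - y‖ := by
  have hK : IsCompact (Metric.closedBall (0 : Fin d → ℝ) R) := isCompact_closedBall 0 R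
  -- monomials
  have hmono : ∀ r : (Fin d → ℕ) × (Fin d → ℕ), ∃ m l : ℝ, 0 ≤ m ∧ 0 ≤ l ∧
      ∀ x ∈ Metric.closedBall (0 : Fin d → ℝ) R, |∏ i, x i ^ r.1 i| ≤ m ∧
        ∀ y ∈ Metric.closedBall (0 : Fin d → ℝ) R,
          |(∏ i, x i ^ r.1 i) - ∏ i, y i ^ r.1 i| ≤ l * ‖x - y‖ := by
    intro r
    have hsm : ContDiff ℝ 1 fun x : Fin d → ℝ => ∏ i, x i ^ r.1 i := by fun_prop
    obtain ⟨m, hm⟩ := hK.exists_bound_of_continuousOn hsm.continuous.continuousOn
    obtain ⟨l, hl⟩ := (hsm.contDiffOn.locallyLipschitzOn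
      (convex_closedBall 0 R)).exists_lipschitzOnWith_of_compact hK
    refine ⟨max m 0, l, le_max_right _ _, l.2, fun x hx => ⟨?_, fun y hy => ?_⟩⟩
    · exact (hm x hx).trans (le_max_left _ _)
    · have := hl.dist_le_mul x hx y hy
      rwa [Real.dist_eq, dist_eq_norm] at this
  choose m l hm hl hml using hmono
  refine ⟨(∑ r ∈ net.reactions, ε⁻¹ * m r * ‖rvec r‖) + 1,
    (∑ r ∈ net.reactions, ε⁻¹ * l r * ‖rvec r‖) + 1, ?_, ?_, ?_⟩
  · have : 0 ≤ ∑ r ∈ net.reactions, ε⁻¹ * m r * ‖rvec r‖ :=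
      Finset.sum_nonneg fun r _ =>
        mul_nonneg (mul_nonneg (inv_nonneg.2 hε.le) (hm r)) (norm_nonneg _)
    linarith
  · have : 0 ≤ ∑ r ∈ net.reactions, ε⁻¹ * l r * ‖rvec r‖ :=
      Finset.sum_nonneg fun r _ =>
        mul_nonneg (mul_nonneg (inv_nonneg.2 hε.le) (hl r)) (norm_nonneg _)
    linarith
  · intro κ hκ x hx
    refine ⟨?_, fun y hy => ?_⟩
    · have : ‖net.massAction κ x‖ ≤ ∑ r ∈ net.reactions, ε⁻¹ * m r * ‖rvec r‖ := by
        unfold Network.massAction
        refine (norm_sum_le _ _).trans (Finset.sum_le_sum fun r hr => ?_)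
        rw [norm_smul, Real.norm_eq_abs, abs_mul]
        refine mul_le_mul_of_nonneg_right ?_ (norm_nonneg _)
        exact mul_le_mul (hκ.abs_le hε hr) (hml r x hx).1 (abs_nonneg _) (inv_nonneg.2 hε.le)
      linarith
    · have : ‖net.massAction κ x - net.massAction κ y‖
          ≤ (∑ r ∈ net.reactions, ε⁻¹ * l r * ‖rvec r‖) * ‖x - y‖ := by
        unfold Network.massAction
        rw [← Finset.sum_sub_distrib, Finset.sum_mul]
        refine (norm_sum_le _ _).trans (Finset.sum_le_sum fun r hr => ?_)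
        rw [← sub_smul, ← mul_sub, norm_smul, Real.norm_eq_abs, abs_mul]
        have h1 := (hml r x hx).2 y hy
        calc |κ r| * |(∏ i, x i ^ r.1 i) - ∏ i, y i ^ r.1 i| * ‖rvec r‖
            ≤ (ε⁻¹ * (l r * ‖x - y‖)) * ‖rvec r‖ := by
              refine mul_le_mul_of_nonneg_right ?_ (norm_nonneg _)
              exact mul_le_mul (hκ.abs_le hε hr) h1 (abs_nonneg _) (inv_nonneg.2 hε.le)
          _ = ε⁻¹ * l r * ‖rvec r‖ * ‖x - y‖ := by ring
      have h2 : 0 ≤ ‖x - y‖ := norm_nonneg _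
      linarith

/-- Measurability of `s ↦ F(s, x(s))`. -/
theorem field_measurable {d : ℕ} (net : Network d) {k : ℝ → (Fin d → ℕ) × (Fin d → ℕ) → ℝ}
    (hk : ∀ r ∈ net.reactions, Measurable fun t => k t r) {x : ℝ → (Fin d → ℝ)}
    (hx : Measurable x) : Measurable fun s => net.field k s (x s) := by
  unfold Network.field Network.massAction
  refine Finset.measurable_fun_sum _ fun r hr => ?_
  have h1 := hk r hr
  have h2 : Measurable fun s => ∏ i, x s i ^ r.1 i := by
    refine Finset.measurable_fun_prod _ fun i _ => ?_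
    exact ((measurable_pi_apply i).comp hx).pow_const _
  exact (h1.mul h2).smul_const _

/-- A function continuous on `[a, b]`, extended by constants. -/
noncomputable def ext {d : ℕ} {a b : ℝ} (hab : a ≤ b) (x : ℝ → (Fin d → ℝ)) : ℝ → (Fin d → ℝ) :=
  Set.IccExtend hab (Set.domRestrict (Set.Icc a b) x)

theorem ext_eq {d : ℕ} {a b : ℝ} (hab : a ≤ b) (x : ℝ → (Fin d → ℝ)) {s : ℝ}
    (hs : s ∈ Set.Icc a b) : ext hab x s = x s := by
  unfold ext
  rw [Set.IccExtend_of_mem _ _ hs]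
  rfl

theorem ext_continuous {d : ℕ} {a b : ℝ} (hab : a ≤ b) {x : ℝ → (Fin d → ℝ)}
    (hx : ContinuousOn x (Set.Icc a b)) : Continuous (ext hab x) :=
  (continuousOn_iff_continuous_domRestrict.1 hx).Icc_extend'

theorem exists_ball {d : ℕ} {a b : ℝ} {x : ℝ → (Fin d → ℝ)}
    (hx : ContinuousOn x (Set.Icc a b)) :
    ∃ R : ℝ, ∀ s ∈ Set.Icc a b, x s ∈ Metric.closedBall (0 : Fin d → ℝ) R := by
  obtain ⟨R, hR⟩ := isCompact_Icc.exists_bound_of_continuousOn hx
  exact ⟨R, fun s hs => by rw [mem_closedBall_zero_iff]; exact hR s hs⟩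

theorem field_intervalIntegrable {d : ℕ} {net : Network d} {ε : ℝ}
    {k : ℝ → (Fin d → ℕ) × (Fin d → ℕ) → ℝ} (hε : 0 < ε) (hk : Rates net ε k)
    {a b : ℝ} (ha : 0 ≤ a) (hab : a ≤ b) {x : ℝ → (Fin d → ℝ)}
    (hx : ContinuousOn x (Set.Icc a b)) :
    IntervalIntegrable (fun s => net.field k s (x s)) volume a b := by
  obtain ⟨R, hR⟩ := exists_ball hx
  obtain ⟨M, L, _, _, hML⟩ := massAction_bounds net hε R
  have hmeas : Measurable fun s => net.field k s (ext hab x s) :=
    field_measurable net hk.meas (ext_continuous hab hx).measurable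
  have h1 : IntervalIntegrable (fun s => net.field k s (ext hab x s)) volume a b := by
    rw [intervalIntegrable_iff_integrableOn_Ioc_of_le hab]
    refine Measure.integrableOn_of_bounded (M := M) (by simp) hmeas.aestronglyMeasurable ?_
    refine (ae_restrict_iff' measurableSet_Ioc).2 (Filter.Eventually.of_forall fun s hs => ?_)
    have hs' : s ∈ Set.Icc a b := ⟨hs.1.le, hs.2⟩
    rw [ext_eq hab x hs']
    exact (hML (k s) (hk.bounds s (ha.trans hs'.1)) (x s) (hR s hs')).1
  refine h1.congr ?_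
  rw [Set.uIoc_of_le hab]
  intro s hs
  have hs' : s ∈ Set.Icc a b := ⟨hs.1.le, hs.2⟩
  simp only [ext_eq hab x hs']

/-! ### Uniqueness -/

theorem uniq_Icc {d : ℕ} {net : Network d} {ε : ℝ}
    {k : ℝ → (Fin d → ℕ) × (Fin d → ℕ) → ℝ} (hε : 0 < ε) (hk : Rates net ε k)
    {t : ℝ} (ht : 0 ≤ t) {x y : ℝ → (Fin d → ℝ)}
    (hx : IsCSol (net.field k) 0 (Set.Icc 0 t) x) (hy : IsCSol (net.field k) 0 (Set.Icc 0 t) y)
    (h0 : x 0 = y 0) : ∀ s ∈ Set.Icc 0 t, x s = y s := by
  obtain ⟨R1, hR1⟩ := exists_ball hx.1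
  obtain ⟨R2, hR2⟩ := exists_ball hy.1
  have hR1' : ∀ s ∈ Set.Icc 0 t, x s ∈ Metric.closedBall (0 : Fin d → ℝ) (max R1 R2) :=
    fun s hs => Metric.closedBall_subset_closedBall (le_max_left _ _) (hR1 s hs)
  have hR2' : ∀ s ∈ Set.Icc 0 t, y s ∈ Metric.closedBall (0 : Fin d → ℝ) (max R1 R2) :=
    fun s hs => Metric.closedBall_subset_closedBall (le_max_right _ _) (hR2 s hs)
  obtain ⟨M, L, _, hL, hML⟩ := massAction_bounds net hε (max R1 R2)
  -- the continuous function `u`
  set u : ℝ → ℝ := fun s => ‖ext ht x s - ext ht y s‖ with hu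
  have hucont : Continuous u :=
    ((ext_continuous ht hx.1).sub (ext_continuous ht hy.1)).norm
  have hueq : ∀ s ∈ Set.Icc 0 t, u s = ‖x s - y s‖ := by
    intro s hs
    simp only [hu, ext_eq ht _ hs]
  set v : ℝ → ℝ := fun s => ∫ τ in (0 : ℝ)..s, u τ with hv
  have hvderiv : ∀ s, HasDerivAt v (u s) s := fun s =>
    intervalIntegral.integral_hasDerivAt_right (hucont.intervalIntegrable _ _)
      (hucont.stronglyMeasurableAtFilter _ _) hucont.continuousAt
  have hv0 : v 0 = 0 := by simp [hv]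
  have hvnn : ∀ s, 0 ≤ s → 0 ≤ v s := fun s hs =>
    intervalIntegral.integral_nonneg hs fun τ _ => norm_nonneg _
  have hbound : ∀ s ∈ Set.Icc 0 t, u s ≤ L * v s := by
    intro s hs
    have hsub : Set.Icc 0 s ⊆ Set.Icc 0 t := Set.Icc_subset_Icc_right hs.2
    have hix := field_intervalIntegrable hε hk le_rfl hs.1 (hx.1.mono hsub)
    have hiy := field_intervalIntegrable hε hk le_rfl hs.1 (hy.1.mono hsub)
    have e : x s - y s = ∫ τ in (0 : ℝ)..s, (net.field k τ (x τ) - net.field k τ (y τ)) := by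
      rw [intervalIntegral.integral_sub hix hiy, hx.2 s hs, hy.2 s hs, h0]
      abel
    rw [hueq s hs, e]
    calc ‖∫ τ in (0 : ℝ)..s, (net.field k τ (x τ) - net.field k τ (y τ))‖
        ≤ ∫ τ in (0 : ℝ)..s, L * u τ := by
          refine intervalIntegral.norm_integral_le_of_norm_le hs.1 ?_
            ((continuous_const.mul hucont).intervalIntegrable _ _)
          refine Filter.Eventually.of_forall fun τ hτ => ?_
          have hτ' : τ ∈ Set.Icc 0 t := ⟨hτ.1.le, hτ.2.trans hs.2⟩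
          rw [hueq τ hτ']
          exact (hML (k τ) (hk.bounds τ hτ'.1) (x τ) (hR1' τ hτ')).2 (y τ) (hR2' τ hτ')
      _ = L * v s := by rw [intervalIntegral.integral_const_mul]
  have hvzero := eq_zero_of_abs_deriv_le_mul_abs_self_of_eq_zero_right (f := v) (f' := u) (K := L)
    (a := 0) (b := t)
    (fun s _ => (hvderiv s).continuousAt.continuousWithinAt)
    (fun s _ => (hvderiv s).hasDerivWithinAt) hv0
    (fun s hs => by
      have h1 := hbound s ⟨hs.1, hs.2.le⟩
      rw [Real.norm_eq_abs, Real.norm_eq_abs, abs_of_nonneg (hvnn s hs.1),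
        abs_of_nonneg (norm_nonneg _)]
      exact h1)
  intro s hs
  have h1 := hbound s hs
  rw [hvzero s hs, mul_zero, hueq s hs] at h1
  exact sub_eq_zero.1 (norm_le_zero_iff.1 h1)

/-- **U6a.** -/
theorem uniq2 : S2_UNIQ := by
  intro d net ε k hε hk x y T hx hy h0 t ht
  have hx' : IsCSol (net.field k) 0 (Set.Icc 0 t) x :=
    ⟨hx.1.mono Set.Icc_subset_Ici_self, fun s hs => hx.2 s hs.1⟩
  have hsub : Set.Icc 0 t ⊆ Set.Ico 0 T := fun s hs => ⟨hs.1, hs.2.trans_lt ht.2⟩
  have hy' : IsCSol (net.field k) 0 (Set.Icc 0 t) y :=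
    ⟨hy.1.mono hsub, fun s hs => hy.2 s (hsub hs)⟩
  exact (uniq_Icc hε hk ht.1 hx' hy' h0 t ⟨ht.1, le_rfl⟩).symm

/-! ### Classes -/

/-- **U7.** -/
theorem class2 : S2_CLASS := by
  intro d net k x hx t ht
  rw [hx.2 t ht, add_sub_cancel_left]
  by_contra hcon
  obtain ⟨f, hf, hle⟩ := Submodule.exists_le_ker_of_notMem hcon
  apply hf
  by_cases hint : IntervalIntegrable (fun s => net.field k s (x s)) volume 0 t
  · have h1 := (LinearMap.toContinuousLinearMap f).intervalIntegral_comp_comm hint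
    have h2 : ∀ s, (LinearMap.toContinuousLinearMap f) (net.field k s (x s)) = 0 := by
      intro s
      have : net.field k s (x s) ∈ net.stoich := by
        unfold Network.field Network.massAction
        refine Submodule.sum_mem _ fun r hr => Submodule.smul_mem _ _ ?_
        exact Submodule.subset_span ⟨r, hr, rfl⟩
      exact hle this
    simp only [h2, intervalIntegral.integral_zero] at h1
    exact h1.symm
  · rw [intervalIntegral.integral_undef hint, map_zero]

end P072
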