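import Vale.Agent.P072.Statements

/-!
# P072, module T1: the finite closed family of positions
-/

namespace P072

open Finset Filter Topology

/-- The normalised coefficient vector of the form with coefficients `c`, last index `l`. -/
noncomputable def nrm (c : ℕ → ℝ) (l : ℕ) : ℕ → ℝ := fun j => -(c j) / c l

lemma ev_last (c : ℕ → ℝ) (m l : ℕ) (hl : l < m) (hcl : c l ≠ 0)
    (hz : ∀ j, l < j → j < m → c j = 0) (Z : ℕ → ℝ) :
    ev c m Z = c l * (Z l - ev (nrm c l) l Z) := by
  have h1 : ev c m Z = ev c (l + 1) Z := by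
    unfold ev
    symm
    apply Finset.sum_subset
    · intro j hj
      simp only [Finset.mem_range] at hj ⊢
      omega
    · intro j hj hj'
      simp only [Finset.mem_range] at hj hj'
      rw [hz j (by omega) hj, zero_mul]
  rw [h1]
  unfold ev nrm
  rw [Finset.sum_range_succ, mul_sub, Finset.mul_sum]
  have h2 : ∀ j ∈ range l, c l * (-(c j) / c l * Z j) = -(c j * Z j) := by
    intro j _
    field_simp
  rw [Finset.sum_congr rfl h2, Finset.sum_neg_distrib]
  ring

lemma last_dich (c : ℕ → ℝ) (m : ℕ) :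
    (∀ j < m, c j = 0) ∨ ∃ l < m, c l ≠ 0 ∧ ∀ j, l < j → j < m → c j = 0 := by
  induction m with
  | zero => left; intro j hj; omega
  | succ m ih =>
    by_cases h : c m = 0
    · rcases ih with ih | ⟨l, hl, hcl, hz⟩
      · left
        intro j hj
        rcases Nat.lt_succ_iff_lt_or_eq.mp hj with h1 | h1
        · exact ih j h1
        · rw [h1]; exact h
      · right
        refine ⟨l, by omega, hcl, ?_⟩
        intro j hj hj'
        rcases Nat.lt_succ_iff_lt_or_eq.mp hj' with h1 | h1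
        · exact hz j hj h1
        · rw [h1]; exact h
    · right
      refine ⟨m, by omega, h, ?_⟩
      intro j hj hj'
      omega

lemma ev_sub (q q' : ℕ → ℝ) (k : ℕ) (Z : ℕ → ℝ) :
    ev (fun j => q j - q' j) k Z = ev q k Z - ev q' k Z := by
  unfold ev
  rw [← Finset.sum_sub_distrib]
  exact Finset.sum_congr rfl fun j _ => by ring

lemma ev_zero_of (c : ℕ → ℝ) (k : ℕ) (h : ∀ j < k, c j = 0) (Z : ℕ → ℝ) : ev c k Z = 0 := by
  unfold ev
  apply Finset.sum_eq_zero
  intro j hj
  rw [h j (Finset.mem_range.mp hj), zero_mul]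

open Classical in
/-- Existence of the closed family, by downward recursion on the level. -/
lemma exists_closed (n : ℕ) (P0 : ℕ → Finset (ℕ → ℝ)) (i : ℕ) (hi : i ≤ n) :
    ∃ Q : ℕ → Finset (ℕ → ℝ), (∀ l, P0 l ⊆ Q l) ∧
      ∀ k, n - i ≤ k → k < n → ∀ q ∈ Q k, ∀ q' ∈ Q k, ∀ l < k,
        nrm (fun j => q j - q' j) l ∈ Q l := by
  induction i with
  | zero => exact ⟨P0, fun l => Finset.Subset.refl _, fun k h1 h2 => by omega⟩
  | succ i ih =>
    obtain ⟨Q, hQ0, hQ⟩ := ih (by omega)
    set k0 := n - (i + 1) with hk0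
    refine ⟨fun l => Q l ∪ (if l < k0 then
      ((Q k0) ×ˢ (Q k0)).image (fun pr => nrm (fun j => pr.1 j - pr.2 j) l) else ∅), ?_, ?_⟩
    · intro l
      exact (hQ0 l).trans Finset.subset_union_left
    · intro k hk1 hk2 q hq q' hq' l hl
      have hnk : ¬ k < k0 := by omega
      simp only [if_neg hnk, Finset.union_empty] at hq hq'
      rcases Nat.eq_or_lt_of_le hk1 with h | h
      · -- k = k0
        have hl' : l < k0 := by omega
        rw [← h] at hq hq'
        simp only [if_pos hl']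
        apply Finset.mem_union_right
        rw [Finset.mem_image]
        exact ⟨(q, q'), Finset.mk_mem_product hq hq', rfl⟩
      · apply Finset.mem_union_left
        exact hQ k (by omega) hk2 q hq q' hq' l hl

open Classical in
theorem clos : S_CLOS := by
  intro n hn Rs
  obtain ⟨Q, hQ0, hQ⟩ := exists_closed n
    (fun l => Rs.image (fun r => nrm r l) ∪
      ((range l).image (fun j => (Pi.single j 1 : ℕ → ℝ)) ∪ {0})) n le_rfl
  have hRs : ∀ r ∈ Rs, ∀ l, nrm r l ∈ Q l := by
    intro r hr l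
    apply hQ0 l
    exact Finset.mem_union_left _ (Finset.mem_image_of_mem _ hr)
  have htie : ∀ l, ∀ j < l, (Pi.single j 1 : ℕ → ℝ) ∈ Q l := by
    intro l j hj
    apply hQ0 l
    apply Finset.mem_union_right
    apply Finset.mem_union_left
    exact Finset.mem_image_of_mem _ (Finset.mem_range.mpr hj)
  have h0 : (0 : ℕ → ℝ) ∈ Q 0 := by
    apply hQ0 0
    apply Finset.mem_union_right
    apply Finset.mem_union_right
    exact Finset.mem_singleton_self _
  -- the constants
  have hev : ∀ a : ℝ, a ≠ 0 → ∀ᶠ C : ℝ in atTop, 1 ≤ C * |a| := by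
    intro a ha
    filter_upwards [eventually_ge_atTop (1 / |a|)] with C hC
    have ha' : 0 < |a| := abs_pos.mpr ha
    rwa [div_le_iff₀ ha'] at hC
  have e1 : ∀ᶠ C : ℝ in atTop, ∀ k ∈ range n, ∀ q ∈ Q k, ∑ j ∈ range k, |q j| ≤ C := by
    rw [Filter.eventually_all_finset]
    intro k _
    rw [Filter.eventually_all_finset]
    intro q _
    exact eventually_ge_atTop _
  have e2 : ∀ᶠ C : ℝ in atTop, ∀ k ∈ range n, ∀ q ∈ Q k, ∀ q' ∈ Q k,
      (∀ Z : ℕ → ℝ, ev q k Z = ev q' k Z) ∨
      ∃ l < k, ∃ s ∈ Q l, ∃ a : ℝ, 1 ≤ C * |a| ∧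
        ∀ Z : ℕ → ℝ, ev q k Z - ev q' k Z = a * (Z l - ev s l Z) := by
    rw [Filter.eventually_all_finset]
    intro k hk
    rw [Filter.eventually_all_finset]
    intro q hq
    rw [Filter.eventually_all_finset]
    intro q' hq'
    rw [Finset.mem_range] at hk
    rcases last_dich (fun j => q j - q' j) k with h | ⟨l, hl, hcl, hz⟩
    · refine Filter.Eventually.of_forall fun C => Or.inl fun Z => ?_
      have h1 := ev_zero_of _ k h Z
      rw [ev_sub] at h1
      linarith
    · filter_upwards [hev _ hcl] with C hC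
      right
      refine ⟨l, hl, _, hQ k (by omega) hk q hq q' hq' l hl, _, hC, ?_⟩
      intro Z
      rw [← ev_sub]
      exact ev_last _ k l hl hcl hz Z
  have e3 : ∀ᶠ C : ℝ in atTop, ∀ r ∈ Rs, (∀ Z : ℕ → ℝ, ev r n Z = 0) ∨
      ∃ l < n, ∃ s ∈ Q l, ∃ a : ℝ, 1 ≤ C * |a| ∧
        ∀ Z : ℕ → ℝ, ev r n Z = a * (Z l - ev s l Z) := by
    rw [Filter.eventually_all_finset]
    intro r hr
    rcases last_dich r n with h | ⟨l, hl, hcl, hz⟩
    · exact Filter.Eventually.of_forall fun C => Or.inl fun Z => ev_zero_of _ n h Z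
    · filter_upwards [hev _ hcl] with C hC
      right
      exact ⟨l, hl, _, hRs r hr l, _, hC, fun Z => ev_last _ n l hl hcl hz Z⟩
  have e4 : ∀ᶠ R : ℝ in atTop, ∀ k ∈ range n, ((Q k).card : ℝ) ≤ R := by
    rw [Filter.eventually_all_finset]
    intro k _
    exact eventually_ge_atTop _
  obtain ⟨C, hC1, hC2, hC3, hC4⟩ := ((eventually_ge_atTop (1 : ℝ)).and (e1.and (e2.and e3))).exists
  obtain ⟨R, hR1, hR2⟩ := ((eventually_ge_atTop (1 : ℝ)).and e4).exists
  refine ⟨Q, C, R, ⟨hC1, hR1, ?_, ?_, ⟨0, h0⟩, ?_, ?_⟩, hC4⟩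
  · intro k hk
    exact hR2 k (Finset.mem_range.mpr hk)
  · intro k hk q hq
    exact hC2 k (Finset.mem_range.mpr hk) q hq
  · intro k _ j hj
    refine ⟨_, htie k j hj, fun Z => ?_⟩
    unfold ev
    simp [Pi.single_apply, hj]
  · intro k hk q hq q' hq'
    exact hC3 k (Finset.mem_range.mpr hk) q hq q' hq'

end P072
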