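import Vale.Agent.P072.Statements

/-!
# P072, T10b : potentials are continuous on the open orthant
-/

namespace P072

open Finset Filter Topology

lemma orthant_open {d : ℕ} : IsOpen {x : Fin d → ℝ | ∀ i, 0 < x i} := by
  have : {x : Fin d → ℝ | ∀ i, 0 < x i} = ⋂ i, {x : Fin d → ℝ | 0 < x i} := by
    ext x; simp
  rw [this]
  exact isOpen_iInter_of_finite fun i => isOpen_lt continuous_const (continuous_apply i)

lemma orthant_convex {d : ℕ} : Convex ℝ {x : Fin d → ℝ | ∀ i, 0 < x i} := by
  intro x hx y hy a b ha hb hab i
  have h1 := hx i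
  have h2 := hy i
  simp only [Pi.add_apply, Pi.smul_apply, smul_eq_mul]
  rcases ha.eq_or_lt with rfl | ha'
  · have : b = 1 := by linarith
    subst this; simpa using h2
  · have := mul_pos ha' h1
    have := mul_nonneg hb h2.le
    linarith

theorem cont : S_CONT := by
  intro d I Rs b M W V h
  have hconv : ConvexOn ℝ {x : Fin d → ℝ | ∀ i, 0 < x i} W := by
    refine ⟨orthant_convex, ?_⟩
    intro x hx y hy a c ha hc hac
    have hz := orthant_convex hx hy ha hc hac
    set z := a • x + c • y with hzdef
    have h1 := h.sub z x hz hx
    have h2 := h.sub z y hz hy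
    have h3 : a * ∑ i, V z i * (x i - z i) + c * ∑ i, V z i * (y i - z i) = 0 := by
      rw [Finset.mul_sum, Finset.mul_sum, ← Finset.sum_add_distrib]
      apply Finset.sum_eq_zero
      intro i _
      have : z i = a * x i + c * y i := by simp [hzdef]
      rw [this]
      have hc' : c = 1 - a := by linarith
      subst hc'
      ring
    have h4 := mul_le_mul_of_nonneg_left h1 ha
    have h5 := mul_le_mul_of_nonneg_left h2 hc
    simp only [smul_eq_mul]
    have h6 : a * W z + c * W z = W z := by rw [← add_mul, hac, one_mul]
    nlinarith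
  exact hconv.continuousOn orthant_open

end P072
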