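import Vale.Agent.P072.Net

/-!
# P072: permanence of weakly reversible mass-action systems -- definitions

Part 1: combinatorial core (positions, captured levels, losses).
Part 2: potentials.
Part 3: auxiliary notions for reaction networks (the networks themselves are in Net.lean).
-/

namespace P072

open Finset Filter Topology

/-! ## Part 1 : the combinatorial core

Everything lives on sequences `ℕ → ℝ`, of which only the first `n` entries matter. -/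

/-- Value of the linear functional with coefficients `q` on the first `k` coordinates of `Z`. -/
def ev (q : ℕ → ℝ) (k : ℕ) (Z : ℕ → ℝ) : ℝ := ∑ j ∈ range k, q j * Z j

/-- Parameters of the construction. `Q k` is the finite set of (functionals giving the)
positions at level `k`. -/
structure Par where
  n : ℕ
  Q : ℕ → Finset (ℕ → ℝ)
  C : ℝ
  R : ℝ
  K : ℝ
  G : ℝ
  Cs : ℝ
  B : ℝ

/-- Level `k` of `Z` is captured: `Z k` is one of the positions. -/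
def con (p : Par) (Z : ℕ → ℝ) (k : ℕ) : Prop := ∃ q ∈ p.Q k, Z k = ev q k Z

open Classical in
/-- The exponent of the gap at level `k`; it depends on which levels `< k` are captured. -/
noncomputable def val (p : Par) (Z : ℕ → ℝ) (k : ℕ) : ℕ :=
  (∑ i ∈ range k, if con p Z i then 2 ^ (p.n - 1 - i) else 0) + 2 ^ (p.n - 1 - k)

/-- The gap at level `k`. -/
noncomputable def Gam (p : Par) (Z : ℕ → ℝ) (k : ℕ) : ℝ := p.G * p.K ^ val p Z k

/-- The level condition: captured, or at distance at least the gap from all positions. -/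
def lev (p : Par) (Z : ℕ → ℝ) (k : ℕ) : Prop :=
  con p Z k ∨ ∀ q ∈ p.Q k, Gam p Z k ≤ |Z k - ev q k Z|

/-- The set `D`. -/
def DD (p : Par) : Set (ℕ → ℝ) :=
  {Z | (∀ k < p.n, lev p Z k) ∧ (∀ k, k + 1 < p.n → Z (k + 1) ≤ Z k) ∧ ∀ k, p.n ≤ k → Z k = 0}

open Classical in
/-- The cost of one level: `z` is the value, `v q` (`q ∈ S`) the positions, `Γ` the gap. -/
noncomputable def oneCost {ι : Type} (n Γ : ℝ) (S : Finset ι) (v : ι → ℝ) (z : ℝ) : ℝ :=
  (if ∃ q ∈ S, z = v q then Γ / 2 * Real.exp (-Γ) else 1) * Real.exp z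
    + 8 * n * Γ * Real.exp Γ * ∑ q ∈ S with v q < z, Real.exp (v q)

/-- The loss of one level. -/
noncomputable def oneLoss {ι : Type} (n Γ x : ℝ) (S : Finset ι) (v : ι → ℝ) (z : ℝ) : ℝ :=
  x * (Real.log x - 1 - z) + oneCost n Γ S v z

/-- The cost of level `k` of `Z`; the function `h` is the sum over `k < n`. -/
noncomputable def cost (p : Par) (Z : ℕ → ℝ) (k : ℕ) : ℝ :=
  oneCost p.n (Gam p Z k) (p.Q k) (fun q => ev q k Z) (Z k)

/-- The loss at level `k`. -/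
noncomputable def lam (p : Par) (x Z : ℕ → ℝ) (k : ℕ) : ℝ :=
  oneLoss p.n (Gam p Z k) (x k) (p.Q k) (fun q => ev q k Z) (Z k)

/-- `Z` is a maximiser of `Z ⬝ x - h Z` on `D`, i.e. it minimises the total loss. -/
def IsOpt (p : Par) (x Z : ℕ → ℝ) : Prop :=
  Z ∈ DD p ∧ ∀ Z' ∈ DD p, ∑ k ∈ range p.n, lam p x Z k ≤ ∑ k ∈ range p.n, lam p x Z' k

/-- What the family of positions has to satisfy. -/
structure Fam (n : ℕ) (Q : ℕ → Finset (ℕ → ℝ)) (C R : ℝ) : Prop where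
  C_one : 1 ≤ C
  R_one : 1 ≤ R
  card : ∀ k < n, ((Q k).card : ℝ) ≤ R
  norm : ∀ k < n, ∀ q ∈ Q k, ∑ j ∈ range k, |q j| ≤ C
  base : (Q 0).Nonempty
  tie : ∀ k < n, ∀ j < k, ∃ q ∈ Q k, ∀ Z : ℕ → ℝ, ev q k Z = Z j
  clos : ∀ k < n, ∀ q ∈ Q k, ∀ q' ∈ Q k, (∀ Z : ℕ → ℝ, ev q k Z = ev q' k Z) ∨
    ∃ l < k, ∃ s ∈ Q l, ∃ a : ℝ, 1 ≤ C * |a| ∧
      ∀ Z : ℕ → ℝ, ev q k Z - ev q' k Z = a * (Z l - ev s l Z)

/-- All requirements on the parameters. -/
structure Par.Good (p : Par) : Prop where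
  n_pos : 1 ≤ p.n
  fam : Fam p.n p.Q p.C p.R
  B_ge : 100 * (p.n : ℝ) ^ 2 * p.R ≤ p.B
  Cs_ge : 2 ≤ p.Cs
  exp_Cs : ∀ t, p.Cs ≤ t → p.B * (1 + t) ≤ Real.exp t
  exp_G : ∀ t, p.G ≤ t → p.B * (1 + t) ≤ Real.exp (t / 2)
  G_ge : 8 * p.C ^ (p.n + 1) * p.Cs ≤ p.G
  K_ge : p.B * p.C ^ p.n ≤ p.K
  K_ge' : 8 * p.C ^ (p.n + 1) ≤ p.K

/-- Non-increasing positive data. -/
def Sorted (n : ℕ) (x : ℕ → ℝ) : Prop := (∀ i < n, 0 < x i) ∧ ∀ k, k + 1 < n → x (k + 1) ≤ x k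

/-! ## Part 2 : potentials -/

/-- A potential on the face `I`: a convex function `W` of `x_I` with a selected subgradient `V`,
which is at bounded distance from `log x` and compatible with the vectors in `Rs`. -/
structure IsPotOn {d : ℕ} (I : Finset (Fin d)) (Rs : Finset (Fin d → ℝ)) (b M : ℝ)
    (W : (Fin d → ℝ) → ℝ) (V : (Fin d → ℝ) → (Fin d → ℝ)) : Prop where
  sub : ∀ x y, (∀ i, 0 < x i) → (∀ i, 0 < y i) → W x + ∑ i, V x i * (y i - x i) ≤ W y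
  supp : ∀ x, ∀ i, i ∉ I → V x i = 0
  near : ∀ x, (∀ i, 0 < x i) → ∀ i ∈ I, |V x i - Real.log (x i)| ≤ M
  compat : ∀ x, (∀ i, 0 < x i) → ∀ r ∈ Rs, 0 < ∑ i, r i * V x i →
    b ≤ ∑ i, r i * V x i ∧ ∑ i, r i * V x i ≤ 2 * ∑ i ∈ I, r i * Real.log (x i)
  lower : ∀ x, (∀ i, 0 < x i) → ∑ i ∈ I, x i * (Real.log (x i) - M) ≤ W x
  upper : ∀ x, (∀ i, 0 < x i) → W x ≤ ∑ i ∈ I, x i * (Real.log (x i) + M)

/-! ## Part 3 : auxiliary notions for reaction networks -/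

/-- All differences of two complexes, as real vectors. -/
noncomputable def Network.diffs {d : ℕ} (net : Network d) : Finset (Fin d → ℝ) :=
  (net.complexes ×ˢ net.complexes).image rvec

/-- Forward invariance of `P` for the flow of `f`. -/
def FwdInv {d : ℕ} (f : (Fin d → ℝ) → (Fin d → ℝ)) (P : Set (Fin d → ℝ)) : Prop :=
  ∀ (x : ℝ → (Fin d → ℝ)) (T : ℝ), 0 < T → IsSol f (Set.Icc 0 T) x → x 0 ∈ P →
    ∀ t ∈ Set.Icc 0 T, x t ∈ P

/-- Local forward invariance of `F` at the point `p`. -/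
def LocInv {d : ℕ} (f : (Fin d → ℝ) → (Fin d → ℝ)) (F : Set (Fin d → ℝ)) (p : Fin d → ℝ) : Prop :=
  ∀ (x : ℝ → (Fin d → ℝ)) (t0 t1 : ℝ), t0 < t1 → IsSol f (Set.Icc t0 t1) x → x t0 = p →
    ∀ᶠ t in 𝓝[>] t0, x t ∈ F

end P072
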