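import Vale.Agent.P072.Locn2Alt

/-!
# P072: U8 (every solution reaches the orthogonality set)
-/

namespace P072

open Finset Filter Topology MeasureTheory

/-- **U8.** -/
theorem enter2' : S2_ENTER := by
  intro d net ε k Rs b b' M W V P x hε hk hb hW hdyn hP hPpos hsol hxP
  by_contra hcon
  push Not at hcon
  -- some reaction exists
  have hPne : P.Nonempty := ⟨x 0, hxP 0 le_rfl⟩
  -- lower bound of the dissipation
  obtain ⟨a, ha, hadis⟩ : ∃ a : ℝ, 0 < a ∧ ∀ r ∈ net.reactions, ∀ y ∈ P,
      a ≤ b / 2 * (ε * ∏ i, y i ^ r.1 i) := by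
    have h1 : ∀ r : (Fin d → ℕ) × (Fin d → ℕ), ∃ a : ℝ, 0 < a ∧ ∀ y ∈ P,
        a ≤ b / 2 * (ε * ∏ i, y i ^ r.1 i) := by
      intro r
      have hc : ContinuousOn (fun y : Fin d → ℝ => b / 2 * (ε * ∏ i, y i ^ r.1 i)) P := by
        fun_prop
      obtain ⟨y0, hy0, hmin⟩ := hP.exists_isMinOn hPne hc
      refine ⟨b / 2 * (ε * ∏ i, y0 i ^ r.1 i), ?_, fun y hy => hmin hy⟩
      have : 0 < ∏ i, y0 i ^ r.1 i := Finset.prod_pos fun i _ => pow_pos (hPpos y0 hy0 i) _
      positivity
    choose a ha hay using h1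
    by_cases hne : net.reactions.Nonempty
    · obtain ⟨r0, hr0, hmin⟩ := net.reactions.exists_min_image a hne
      exact ⟨a r0, ha r0, fun r hr y hy => (hmin r hr).trans (hay r y hy)⟩
    · exact ⟨1, one_pos, fun r hr => absurd ⟨r, hr⟩ hne⟩
  have hdis : ∀ t, 0 ≤ t → ∀ κ, RateOK net ε κ → dotL (V (x t)) (net.massAction κ (x t)) ≤ -a := by
    intro t ht κ hκ
    rw [dotL_apply]
    rcases hdyn κ hκ (x t) (hPpos _ (hxP t ht)) with h | ⟨r, hr, h⟩
    · obtain ⟨r, hr, hne⟩ := hcon t ht
      exact absurd (h r hr) hne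
    · have := hadis r hr (x t) (hxP t ht)
      linarith
  -- bound on `V`
  obtain ⟨Bd, hBd0, hBd⟩ : ∃ Bd : ℝ, 0 ≤ Bd ∧ ∀ y ∈ P, ∀ i, |V y i| ≤ Bd := by
    have h1 : ContinuousOn (fun y : Fin d → ℝ => fun i => Real.log (y i)) P := by
      refine continuousOn_pi.2 fun i => ?_
      refine ContinuousOn.log (continuous_apply i).continuousOn fun y hy => (hPpos y hy i).ne'
    obtain ⟨C, hC⟩ := hP.exists_bound_of_continuousOn h1
    refine ⟨|C| + |M|, by positivity, fun y hy i => ?_⟩
    have h2 := hW.near y (hPpos y hy) i (Finset.mem_univ i)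
    have h3 : |Real.log (y i)| ≤ C :=
      (norm_le_pi_norm (fun i => Real.log (y i)) i).trans (hC y hy)
    have h4 : |V y i| ≤ |V y i - Real.log (y i)| + |Real.log (y i)| := by
      have := abs_add_le (V y i - Real.log (y i)) (Real.log (y i))
      rwa [sub_add_cancel] at this
    have h5 := le_abs_self C
    have h6 := le_abs_self M
    linarith
  -- the ball and the constants of the field
  obtain ⟨R, hR⟩ := hP.isBounded.subset_closedBall (0 : Fin d → ℝ)
  obtain ⟨N, L, hN, hL, hNL⟩ := massAction_bounds net hε R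
  have hxR : ∀ t, 0 ≤ t → x t ∈ Metric.closedBall (0 : Fin d → ℝ) R := fun t ht => hR (hxP t ht)
  have hint : ∀ s t, 0 ≤ s → s ≤ t →
      IntervalIntegrable (fun τ => net.field k τ (x τ)) volume s t := by
    intro s t hs hst
    exact field_intervalIntegrable hε hk hs hst
      (hsol.1.mono fun τ hτ => hs.trans hτ.1)
  have hdiff : ∀ s t, 0 ≤ s → s ≤ t → x t - x s = ∫ τ in s..t, net.field k τ (x τ) := by
    intro s t hs hst
    have h1 := hsol.2 t (hs.trans hst)
    have h2 := hsol.2 s hs
    have h3 := intervalIntegral.integral_add_adjacent_intervals (hint 0 s le_rfl hs)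
      (hint s t hs hst)
    rw [h1, h2, ← h3]
    abel
  have hlip : ∀ s t, 0 ≤ s → s ≤ t → ‖x t - x s‖ ≤ N * (t - s) := by
    intro s t hs hst
    rw [hdiff s t hs hst]
    have := intervalIntegral.norm_integral_le_of_norm_le_const (a := s) (b := t) (C := N)
      (f := fun τ => net.field k τ (x τ)) (fun τ hτ => by
        rw [Set.uIoc_of_le hst] at hτ
        have hτ0 : 0 ≤ τ := hs.trans hτ.1.le
        exact (hNL (k τ) (hk.bounds τ hτ0) (x τ) (hxR τ hτ0)).1)
    rwa [abs_of_nonneg (by linarith)] at this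
  -- the step length
  obtain ⟨h, hh0, hh⟩ : ∃ h : ℝ, 0 < h ∧ (d : ℝ) * Bd * (L * (N * h)) ≤ a / 2 := by
    refine ⟨a / (2 * ((d : ℝ) * Bd * (L * N) + 1)), by positivity, ?_⟩
    have e : (d : ℝ) * Bd * (L * (N * (a / (2 * ((d : ℝ) * Bd * (L * N) + 1)))))
        = a / 2 * (((d : ℝ) * Bd * (L * N)) / ((d : ℝ) * Bd * (L * N) + 1)) := by
      field_simp
    rw [e]
    calc a / 2 * (((d : ℝ) * Bd * (L * N)) / ((d : ℝ) * Bd * (L * N) + 1)) ≤ a / 2 * 1 := by
          refine mul_le_mul_of_nonneg_left ?_ (by positivity)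
          rw [div_le_one (by positivity)]
          linarith
      _ = a / 2 := mul_one _
  have hstep : ∀ t, 0 ≤ t → W (x (t + h)) ≤ W (x t) - h * (a / 2) := by
    intro t ht
    have hth : t ≤ t + h := by linarith
    have hth0 : 0 ≤ t + h := by linarith
    have h1 := hW.sub (x (t + h)) (x t) (hPpos _ (hxP _ hth0)) (hPpos _ (hxP t ht))
    have h2 : ∑ i, V (x (t + h)) i * (x t i - x (t + h) i)
        = - ∫ τ in t..(t + h), dotL (V (x (t + h))) (net.field k τ (x τ)) := by
      rw [ContinuousLinearMap.intervalIntegral_comp_comm _ (hint t (t + h) ht hth),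
        ← hdiff t (t + h) ht hth, dotL_apply, ← Finset.sum_neg_distrib]
      refine Finset.sum_congr rfl fun i _ => ?_
      rw [Pi.sub_apply]
      ring
    have h3 : ∀ τ ∈ Set.Icc t (t + h),
        dotL (V (x (t + h))) (net.field k τ (x τ)) ≤ -(a / 2) := by
      intro τ hτ
      have hτ0 : 0 ≤ τ := ht.trans hτ.1
      have h4 := hdis (t + h) hth0 (k τ) (hk.bounds τ hτ0)
      have h5 : dotL (V (x (t + h))) (net.field k τ (x τ)) =
          dotL (V (x (t + h))) (net.massAction (k τ) (x (t + h))) +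
            dotL (V (x (t + h))) (net.massAction (k τ) (x τ) - net.massAction (k τ) (x (t + h))) := by
        rw [← map_add, add_sub_cancel]
        rfl
      have h6 := abs_dotL_le (hBd _ (hxP _ hth0))
        (net.massAction (k τ) (x τ) - net.massAction (k τ) (x (t + h)))
      have h7 := (hNL (k τ) (hk.bounds τ hτ0) (x τ) (hxR τ hτ0)).2 (x (t + h)) (hxR _ hth0)
      have h8 : ‖x τ - x (t + h)‖ ≤ N * h := by
        rw [norm_sub_rev]
        refine (hlip τ (t + h) hτ0 hτ.2).trans ?_
        refine mul_le_mul_of_nonneg_left ?_ hN.le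
        linarith [hτ.1]
      have h9 : (d : ℝ) * Bd * ‖net.massAction (k τ) (x τ) - net.massAction (k τ) (x (t + h))‖
          ≤ (d : ℝ) * Bd * (L * (N * h)) := by
        refine mul_le_mul_of_nonneg_left ?_ (by positivity)
        exact h7.trans (mul_le_mul_of_nonneg_left h8 hL.le)
      have h10 := le_abs_self (dotL (V (x (t + h)))
        (net.massAction (k τ) (x τ) - net.massAction (k τ) (x (t + h))))
      rw [h5]
      linarith
    have hint2 : IntervalIntegrable
        (fun s => dotL (V (x (t + h))) (net.field k s (x s))) volume t (t + h) :=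
      ⟨(dotL (V (x (t + h)))).integrable_comp (hint t (t + h) ht hth).1,
        (dotL (V (x (t + h)))).integrable_comp (hint t (t + h) ht hth).2⟩
    have h4 : ∫ τ in t..(t + h), dotL (V (x (t + h))) (net.field k τ (x τ)) ≤ -(h * (a / 2)) := by
      calc ∫ τ in t..(t + h), dotL (V (x (t + h))) (net.field k τ (x τ))
          ≤ ∫ _τ in t..(t + h), (-(a / 2)) :=
            intervalIntegral.integral_mono_on hth hint2 (by simp) h3
        _ = -(h * (a / 2)) := by
            rw [intervalIntegral.integral_const, add_sub_cancel_left, smul_eq_mul]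
            ring
    rw [h2] at h1
    linarith
  have hiter : ∀ m : ℕ, W (x (m * h)) ≤ W (x 0) - m * (h * (a / 2)) := by
    intro m
    induction m with
    | zero => simp
    | succ m ih =>
      have h1 := hstep (m * h) (by positivity)
      have e : ((m + 1 : ℕ) : ℝ) * h = m * h + h := by push_cast; ring
      rw [e]
      refine h1.trans ?_
      push_cast
      linarith
  -- lower bound for `W` on `P`
  obtain ⟨w, hw⟩ : ∃ w : ℝ, ∀ y ∈ P, w ≤ W y := by
    have hc : ContinuousOn (fun y : Fin d → ℝ => ∑ i, y i * (Real.log (y i) - M)) P := by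
      refine continuousOn_finsetSum _ fun i _ => ?_
      refine (continuous_apply i).continuousOn.mul (ContinuousOn.sub ?_ continuousOn_const)
      exact ContinuousOn.log (continuous_apply i).continuousOn fun y hy => (hPpos y hy i).ne'
    obtain ⟨y0, _, hmin⟩ := hP.exists_isMinOn hPne hc
    exact ⟨_, fun y hy => (hmin hy).trans (hW.lower y (hPpos y hy))⟩
  obtain ⟨m, hm⟩ := exists_nat_gt ((W (x 0) - w) / (h * (a / 2)))
  rw [div_lt_iff₀ (by positivity)] at hm
  have h1 := hiter m
  have h2 := hw (x (m * h)) (hxP _ (by positivity))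
  linarith

end P072
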