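import Vale.Agent.P072.Top

/-!
# P072, T11 : the face barriers for the mass-action field
-/

namespace P072

open Finset Filter Topology

theorem face (hPOT : S_POT) (hDYN : S_DYN) (hLOCN : S_LOCN) : S_FACE := by
  intro d net k hwr hk K0 hK hKpos I hI Bd ρ hρ
  obtain ⟨b, hb, hdyn⟩ := hDYN d net k hwr hk
  obtain ⟨F, ρ', h0, h1, h2, h3, h4, h5⟩ := absFace hPOT net b
    (fun x t0 t1 => IsSol (net.massAction k) (Set.Icc t0 t1) x)
    (fun x t0 t1 _ h => h.contOn) (absDec_of hLOCN net k hk b hb hdyn) K0 hK hKpos I hI Bd ρ hρ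
  exact ⟨F, ρ', h0, h1, h2, h3, h4,
    fun p hp hB hr x t0 t1 ht hx hxp => h5 p hp hB hr x t0 t1 ht hx hxp⟩

end P072
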