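import Vale.Agent.P072.Statements

/-!
# P072, T18 : assembly of the permanence theorem
-/

namespace P072

open Finset Filter Topology

lemma IsSol.shift {d : ℕ} {f : (Fin d → ℝ) → (Fin d → ℝ)} {x : ℝ → (Fin d → ℝ)}
    (hx : IsSol f (Set.Ici 0) x) {t0 : ℝ} (ht0 : 0 ≤ t0) (T : ℝ) :
    IsSol f (Set.Icc 0 T) (fun s => x (s + t0)) := by
  intro t ht
  have h1 : HasDerivWithinAt x (f (x (t + t0))) (Set.Ici 0) (t + t0) :=
    hx (t + t0) (by simp only [Set.mem_Ici]; linarith [ht.1])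
  have h2 : HasDerivWithinAt (fun s : ℝ => s + t0) 1 (Set.Icc 0 T) t :=
    (hasDerivWithinAt_id t _).add_const t0
  have h3 := h1.scomp t h2 (fun s hs => by
    simp only [Set.mem_Ici]; linarith [hs.1])
  rw [one_smul] at h3
  exact h3

lemma IsSol.mono {d : ℕ} {f : (Fin d → ℝ) → (Fin d → ℝ)} {x : ℝ → (Fin d → ℝ)} {J J' : Set ℝ}
    (hx : IsSol f J x) (h : J' ⊆ J) : IsSol f J' x := fun t ht => (hx t (h ht)).mono h

theorem final (hPOT : S_POT) (hDYN : S_DYN) (hINV : S_INV) (hSM : S_SMOOTH) (hUQ : S_UNIQ)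
    (hGL : S_GLOB) (hCL : S_CLASS) (hBOX : S_BOX) (hEN : S_ENTER) : S_FINAL := by
  intro d net k hwr hk c hc
  -- every solution starting in the open orthant stays in a compact subset of it
  have hcomp : ∀ x0 : Fin d → ℝ, (∀ i, 0 < x0 i) → ∃ P : Set (Fin d → ℝ), IsCompact P ∧
      x0 ∈ P ∧ (∀ x ∈ P, ∀ i, 0 < x i) ∧ FwdInv (net.massAction k) P := by
    intro x0 hx0
    obtain ⟨P, h1, h2, h3, h4⟩ := hINV d net k hwr hk {x0} isCompact_singleton
      (by rintro x rfl; exact hx0)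
    exact ⟨P, h1, h2 rfl, h3, h4⟩
  have hstay : ∀ (P : Set (Fin d → ℝ)) (x : ℝ → (Fin d → ℝ)) (t0 : ℝ), 0 ≤ t0 →
      FwdInv (net.massAction k) P → IsSol (net.massAction k) (Set.Ici 0) x → x t0 ∈ P →
      ∀ t, t0 ≤ t → x t ∈ P := by
    intro P x t0 ht0 hP hx hx0 t ht
    rcases eq_or_lt_of_le ht with rfl | hlt
    · exact hx0
    have h1 := hP (fun s => x (s + t0)) (t - t0) (by linarith) (hx.shift ht0 _)
      (by simpa using hx0) (t - t0) ⟨by linarith, le_rfl⟩
    simpa using h1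
  constructor
  · intro x0 hx0
    obtain ⟨P, hP1, hP2, hP3, hP4⟩ := hcomp x0 hx0.1
    obtain ⟨x, h1, h2, h3⟩ := hGL d _ (hSM d net k) P hP1 hP4 x0 hP2
    refine ⟨x, h1, h2, fun t ht => ⟨hP3 _ (h3 t ht), ?_⟩, ?_⟩
    · have h4 := hCL d net k x h2 t ht
      have h5 := net.stoich.add_mem h4 hx0.2
      rw [h1] at h5
      simpa using h5
    · intro T y hT hy0 hy t ht
      exact hUQ d _ (hSM d net k) x y T h2 hy (by rw [h1, hy0]) t ht
  · obtain ⟨b, hb, hdyn⟩ := hDYN d net k hwr hk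
    obtain ⟨M, W, V, hpot⟩ := hPOT d univ net.diffs b
    have hV : ∀ y : Fin d → ℝ, (∀ i, 0 < y i) →
        (∀ r ∈ net.reactions, ∑ i, rvec r i * V y i = 0) ∨
        ∃ r ∈ net.reactions, ∑ i, V y i * net.massAction k y i ≤
          -(b / 2 * (k r * ∏ i, y i ^ r.1 i)) := by
      intro y hy
      refine hdyn y (V y) hy ?_
      intro r hr hpos
      obtain ⟨h1, h2⟩ := hpot.compat y hy r hr hpos
      exact ⟨h1, by linarith⟩
    obtain ⟨L, hL⟩ := hBOX d net c net.diffs b M W V hc hpot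
    -- the compact box
    set K0 : Set (Fin d → ℝ) := Set.Icc (fun _ => Real.exp (-L)) (fun _ => Real.exp L) with hK0
    have hK0pos : ∀ x ∈ K0, ∀ i, 0 < x i := fun x hx i => lt_of_lt_of_le (Real.exp_pos _) (hx.1 i)
    obtain ⟨P0, hP01, hP02, hP03, hP04⟩ := hINV d net k hwr hk K0 isCompact_Icc hK0pos
    refine ⟨P0 ∩ {x | x - c ∈ net.stoich}, ?_, ?_, ?_⟩
    · apply hP01.inter_right
      exact (Submodule.closed_of_finiteDimensional net.stoich).preimage
        (continuous_id.sub continuous_const)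
    · rintro x ⟨hx1, hx2⟩
      exact ⟨hP03 x hx1, hx2⟩
    · intro x hx0 hx
      obtain ⟨P, hP1, hP2, hP3, hP4⟩ := hcomp (x 0) hx0.1
      have hxP : ∀ t, 0 ≤ t → x t ∈ P := fun t ht => hstay P x 0 le_rfl hP4 hx hP2 t ht
      have hcl : ∀ t, 0 ≤ t → x t - c ∈ net.stoich := by
        intro t ht
        have h4 := hCL d net k x hx t ht
        have h5 := net.stoich.add_mem h4 hx0.2
        simpa using h5
      obtain ⟨T, hT0, hT⟩ := hEN d net k net.diffs b b M W V P x hk hb hpot hV hP1 hP3 hx hxP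
      have hbox : x T ∈ K0 := by
        have hpos := hP3 _ (hxP T hT0)
        have h6 := hL (x T) hpos (hcl T hT0) hT
        constructor
        · intro i
          have h7 := (abs_le.1 (h6 i)).1
          calc Real.exp (-L) ≤ Real.exp (Real.log (x T i)) := Real.exp_le_exp.2 h7
            _ = x T i := Real.exp_log (hpos i)
        · intro i
          have h7 := (abs_le.1 (h6 i)).2
          calc x T i = Real.exp (Real.log (x T i)) := (Real.exp_log (hpos i)).symm
            _ ≤ Real.exp L := Real.exp_le_exp.2 h7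
      refine ⟨T, fun t ht => ⟨?_, hcl t (hT0.trans ht)⟩⟩
      exact hstay P0 x T hT0 hP04 hx (hP02 hbox) t ht

end P072
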