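import Vale.Agent.P072.Statements

/-!
# P072, module T13: compact forward invariant sets
-/

namespace P072

open Finset Filter Topology

/-- One downward step: intersect with the face sets of all `I` with `I.card = m`. -/
lemma inv_step (hface : S_FACE) {d : ℕ} (net : Network d)
    (k : (Fin d → ℕ) × (Fin d → ℕ) → ℝ) (hwr : net.WeaklyReversible)
    (hk : ∀ r ∈ net.reactions, 0 < k r) (K0 : Set (Fin d → ℝ)) (hK : IsCompact K0)
    (hKpos : ∀ x ∈ K0, ∀ i, 0 < x i) (Bd : ℝ) (m : ℕ) (hm : 1 ≤ m)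
    (h : ∃ (P : Set (Fin d → ℝ)) (ρ : ℝ), 0 < ρ ∧ K0 ⊆ P ∧ (∀ x ∈ P, ∀ i, 0 < x i) ∧
      (∀ x, (∀ i, 0 < x i) → x ∈ closure P → x ∈ P) ∧ (∀ x ∈ P, ∀ i, x i ≤ Bd) ∧
      (∀ x ∈ P, ∀ I : Finset (Fin d), m + 1 ≤ I.card → ∃ i ∈ I, ρ ≤ x i) ∧
      ∀ p ∈ P, LocInv (net.massAction k) P p) :
    ∃ (P : Set (Fin d → ℝ)) (ρ : ℝ), 0 < ρ ∧ K0 ⊆ P ∧ (∀ x ∈ P, ∀ i, 0 < x i) ∧
      (∀ x, (∀ i, 0 < x i) → x ∈ closure P → x ∈ P) ∧ (∀ x ∈ P, ∀ i, x i ≤ Bd) ∧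
      (∀ x ∈ P, ∀ I : Finset (Fin d), m ≤ I.card → ∃ i ∈ I, ρ ≤ x i) ∧
      ∀ p ∈ P, LocInv (net.massAction k) P p := by
  obtain ⟨P, ρ, hρ, hKP, hPpos, hPcl, hPB, hPI, hPloc⟩ := h
  -- the face sets
  have hF : ∀ I : Finset (Fin d), ∃ (F : Set (Fin d → ℝ)) (ρ' : ℝ), I.card = m →
      (0 < ρ' ∧ K0 ⊆ F ∧ (∀ x ∈ F, ∀ i, 0 < x i) ∧
      (∀ x, (∀ i, 0 < x i) → x ∈ closure F → x ∈ F) ∧ (∀ x ∈ F, ∃ i ∈ I, ρ' ≤ x i) ∧
      ∀ p ∈ F, (∀ i, p i ≤ Bd) → (∀ j, j ∉ I → ∃ i ∈ insert j I, ρ ≤ p i) →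
        LocInv (net.massAction k) F p) := by
    intro I
    by_cases hI : I.card = m
    · have hne : I.Nonempty := Finset.card_pos.mp (by omega)
      obtain ⟨F, ρ', hFF⟩ := hface d net k hwr hk K0 hK hKpos I hne Bd ρ hρ
      exact ⟨F, ρ', fun _ => hFF⟩
    · exact ⟨∅, 0, fun h => absurd h hI⟩
  choose F ρ' hF using hF
  -- the bound
  obtain ⟨σ, hσ0, hσ⟩ : ∃ σ : ℝ, 0 < σ ∧ ∀ I : Finset (Fin d), I.card = m → σ ≤ ρ' I := by
    have h1 : ∀ᶠ σ : ℝ in 𝓝[>] 0, ∀ I : Finset (Fin d), I.card = m → σ ≤ ρ' I := by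
      rw [Filter.eventually_all]
      intro I
      by_cases hI : I.card = m
      · have h2 := (hF I hI).1
        filter_upwards [Ioo_mem_nhdsGT h2] with σ hσ _
        exact hσ.2.le
      · exact Filter.Eventually.of_forall fun σ h => absurd h hI
    obtain ⟨σ, h2, h3⟩ := (h1.and self_mem_nhdsWithin).exists
    exact ⟨σ, h3, h2⟩
  refine ⟨P ∩ ⋂ I : {I : Finset (Fin d) // I.card = m}, F I.1, min ρ σ, lt_min hρ hσ0, ?_, ?_, ?_,
    ?_, ?_, ?_⟩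
  · intro x hx
    refine ⟨hKP hx, ?_⟩
    rw [Set.mem_iInter]
    intro I
    exact (hF I.1 I.2).2.1 hx
  · intro x hx
    exact hPpos x hx.1
  · intro x hx hcl
    refine ⟨hPcl x hx (closure_mono Set.inter_subset_left hcl), ?_⟩
    rw [Set.mem_iInter]
    intro I
    refine (hF I.1 I.2).2.2.2.1 x hx (closure_mono ?_ hcl)
    exact Set.inter_subset_right.trans (Set.iInter_subset _ I)
  · intro x hx
    exact hPB x hx.1
  · intro x hx I hI
    rcases Nat.eq_or_lt_of_le hI with h | h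
    · have hx2 := Set.mem_iInter.mp hx.2 ⟨I, h.symm⟩
      obtain ⟨i, hi, hi'⟩ := (hF I h.symm).2.2.2.2.1 x hx2
      exact ⟨i, hi, (min_le_right _ _).trans ((hσ I h.symm).trans hi')⟩
    · obtain ⟨i, hi, hi'⟩ := hPI x hx.1 I h
      exact ⟨i, hi, (min_le_left _ _).trans hi'⟩
  · intro p hp x t0 t1 ht hx hx0
    have h1 := hPloc p hp.1 x t0 t1 ht hx hx0
    have h2 : ∀ᶠ t in 𝓝[>] t0, ∀ I : {I : Finset (Fin d) // I.card = m}, x t ∈ F I.1 := by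
      rw [Filter.eventually_all]
      intro I
      have hpI := Set.mem_iInter.mp hp.2 I
      refine (hF I.1 I.2).2.2.2.2.2 p hpI (hPB p hp.1) ?_ x t0 t1 ht hx hx0
      intro j hj
      apply hPI p hp.1
      rw [Finset.card_insert_of_notMem hj, I.2]
    filter_upwards [h1, h2] with t ht1 ht2
    exact ⟨ht1, Set.mem_iInter.mpr ht2⟩

theorem inv (hface : S_FACE) (htop : S_TOP) : S_INV := by
  intro d net k hwr hk K0 hK hKpos
  obtain ⟨F, Bd, hKF, hFpos, hFcl, hFB, hFloc⟩ := htop d net k hwr hk K0 hK hKpos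
  -- downward induction
  have key : ∀ j : ℕ, j ≤ d → ∃ (P : Set (Fin d → ℝ)) (ρ : ℝ), 0 < ρ ∧ K0 ⊆ P ∧
      (∀ x ∈ P, ∀ i, 0 < x i) ∧
      (∀ x, (∀ i, 0 < x i) → x ∈ closure P → x ∈ P) ∧ (∀ x ∈ P, ∀ i, x i ≤ Bd) ∧
      (∀ x ∈ P, ∀ I : Finset (Fin d), d + 1 - j ≤ I.card → ∃ i ∈ I, ρ ≤ x i) ∧
      ∀ p ∈ P, LocInv (net.massAction k) P p := by
    intro j
    induction j with
    | zero =>
      intro _
      refine ⟨F, 1, one_pos, hKF, hFpos, hFcl, hFB, ?_, hFloc⟩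
      intro x _ I hI
      have := Finset.card_le_univ I
      rw [Fintype.card_fin] at this
      omega
    | succ j ih =>
      intro hj
      have h1 := ih (by omega)
      have e : d + 1 - j = (d + 1 - (j + 1)) + 1 := by omega
      rw [e] at h1
      exact inv_step hface net k hwr hk K0 hK hKpos Bd _ (by omega) h1
  obtain ⟨P, ρ, hρ, hKP, hPpos, hPcl, hPB, hPI, hPloc⟩ := key d le_rfl
  have hlow : ∀ x ∈ P, ∀ i, ρ ≤ x i := by
    intro x hx i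
    obtain ⟨i', hi', h⟩ := hPI x hx {i} (by rw [Finset.card_singleton]; omega)
    rw [Finset.mem_singleton] at hi'
    rwa [hi'] at h
  have hsub : P ⊆ Set.Icc (fun _ => ρ) (fun _ => Bd) := fun x hx =>
    ⟨fun i => hlow x hx i, fun i => hPB x hx i⟩
  have hclosed : IsClosed P := by
    refine isClosed_of_closure_subset fun x hx => ?_
    have h1 : x ∈ Set.Icc (fun _ : Fin d => ρ) (fun _ => Bd) :=
      (closure_minimal hsub isClosed_Icc) hx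
    exact hPcl x (fun i => hρ.trans_le (h1.1 i)) hx
  refine ⟨P, isCompact_Icc.of_isClosed_subset hclosed hsub, hKP, hPpos, ?_⟩
  intro x T hT hsol h0
  have hcont : ContinuousOn x (Set.Icc 0 T) := fun t ht => (hsol t ht).continuousWithinAt
  have hcl : IsClosed ({t | x t ∈ P} ∩ Set.Icc 0 T) := by
    rw [Set.inter_comm]
    exact hcont.preimage_isClosed_of_isClosed isClosed_Icc hclosed
  have := hcl.Icc_subset_of_forall_mem_nhdsWithin (s := {t | x t ∈ P}) h0 ?_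
  · exact this
  · rintro t ⟨ht1, ht2⟩
    refine hPloc (x t) ht1 x t T ht2.2 ?_ rfl
    intro s hs
    exact (hsol s ⟨ht2.1.trans hs.1, hs.2⟩).mono (Set.Icc_subset_Icc_left ht2.1)

end P072
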