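import Vale.Agent.P072.Statements

/-!
# P072, T10 : local non-increase
-/

namespace P072

open Finset Filter Topology

/-- An eventual property near `p = x t0` holds along the whole curve for a short time. -/
theorem eventually_curve {d : ℕ} {x : ℝ → (Fin d → ℝ)} {t0 t1 : ℝ} (h01 : t0 < t1)
    (hx : ContinuousWithinAt x (Set.Icc t0 t1) t0) {P : (Fin d → ℝ) → Prop}
    (hP : ∀ᶠ y in 𝓝 (x t0), P y) :
    ∀ᶠ t in 𝓝[>] t0, t < t1 ∧ ∀ τ ∈ Set.Icc t0 t, P (x τ) := by
  have h1 : ∀ᶠ τ in 𝓝[≥] t0, P (x τ) := by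
    have h2 : ContinuousWithinAt x (Set.Ici t0) t0 := by
      refine hx.mono_of_mem_nhdsWithin ?_
      exact Icc_mem_nhdsGE h01
    exact h2.eventually hP
  obtain ⟨u, hu, hsub⟩ := mem_nhdsGE_iff_exists_Ico_subset.mp h1
  have hu' : t0 < min u t1 := lt_min hu h01
  filter_upwards [Ioo_mem_nhdsGT hu'] with t ht
  refine ⟨lt_of_lt_of_le ht.2 (min_le_right _ _), fun τ hτ => ?_⟩
  exact hsub ⟨hτ.1, lt_of_le_of_lt hτ.2 (lt_of_lt_of_le ht.2 (min_le_left _ _))⟩

theorem locn : S_LOCN := by
  intro d f S W V p a Bd hf hfS ha hW hV hdec x t0 t1 h01 hx hxp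
  have hcont : ContinuousWithinAt x (Set.Icc t0 t1) t0 :=
    (hx t0 (Set.left_mem_Icc.mpr h01.le)).continuousWithinAt
  -- the small constant
  set δ : ℝ := a / (2 * (|Bd| + 1) * (d + 1)) with hδ
  have hden : 0 < 2 * (|Bd| + 1) * ((d : ℝ) + 1) := by positivity
  have hδpos : 0 < δ := div_pos ha hden
  have hfnear : ∀ᶠ y in 𝓝 p, ∀ i, |f y i - f p i| ≤ δ := by
    rw [eventually_all]
    intro i
    have hci : Continuous fun y => f y i := (continuous_apply i).comp hf
    have h1 : Tendsto (fun y => |f y i - f p i|) (𝓝 p) (𝓝 |f p i - f p i|) :=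
      ((hci.sub continuous_const).abs).tendsto p
    rw [sub_self, abs_zero] at h1
    exact (h1.eventually (gt_mem_nhds hδpos)).mono fun y hy => hy.le
  have hall := ((hW.and hV).and (hdec.and hfnear))
  rw [← hxp] at hall
  filter_upwards [eventually_curve h01 hcont hall, self_mem_nhdsWithin] with t ht ht0
  obtain ⟨htt1, hcurve⟩ := ht
  have ht0' : t0 < t := ht0
  have htmem : t ∈ Set.Icc t0 t := Set.right_mem_Icc.mpr ht0'.le
  obtain ⟨⟨hWt, hVt⟩, hdt, hft⟩ := hcurve t htmem
  rw [hxp] at hWt hft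
  -- mean value theorem
  have hderiv : ∀ τ ∈ Set.Ioo t0 t,
      HasDerivAt (fun s => ∑ i, V (x t) i * x s i) (∑ i, V (x t) i * f (x τ) i) τ := by
    intro τ hτ
    have hτ' : τ ∈ Set.Icc t0 t1 := ⟨hτ.1.le, (hτ.2.trans htt1).le⟩
    have h1 : HasDerivAt x (f (x τ)) τ :=
      (hx τ hτ').hasDerivAt (Icc_mem_nhds hτ.1 (hτ.2.trans htt1))
    have h2 : ∀ i, HasDerivAt (fun s => x s i) (f (x τ) i) τ := hasDerivAt_pi.mp h1
    exact HasDerivAt.fun_sum fun i _ => (h2 i).const_mul (V (x t) i)
  have hcontOn : ContinuousOn (fun s => ∑ i, V (x t) i * x s i) (Set.Icc t0 t) := by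
    have hxc : ContinuousOn x (Set.Icc t0 t) := fun τ hτ =>
      ((hx τ ⟨hτ.1, hτ.2.trans htt1.le⟩).continuousWithinAt).mono
        (Set.Icc_subset_Icc_right htt1.le)
    refine continuousOn_finsetSum _ fun i _ => ?_
    exact continuousOn_const.mul ((continuous_apply i).comp_continuousOn hxc)
  obtain ⟨c, hc, hslope⟩ := exists_hasDerivAt_eq_slope (fun s => ∑ i, V (x t) i * x s i)
    (fun τ => ∑ i, V (x t) i * f (x τ) i) ht0' hcontOn hderiv
  have hkey : ∑ i, V (x t) i * f (x c) i ≤ 0 := by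
    rcases hdt with h | h
    · have := h (f (x c)) (hfS (x c))
      have h2 : ∑ i, V (x t) i * f (x c) i = ∑ i, f (x c) i * V (x t) i :=
        Finset.sum_congr rfl fun i _ => mul_comm _ _
      rw [h2, this]
    · have hcmem : c ∈ Set.Icc t0 t := ⟨hc.1.le, hc.2.le⟩
      obtain ⟨-, -, hfc⟩ := hcurve c hcmem
      rw [hxp] at hfc
      have h3 : ∑ i, V (x t) i * f (x c) i
          = ∑ i, V (x t) i * f (x t) i + ∑ i, V (x t) i * (f (x c) i - f (x t) i) := by
        rw [← Finset.sum_add_distrib]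
        exact Finset.sum_congr rfl fun i _ => by ring
      have h4 : ∑ i, V (x t) i * (f (x c) i - f (x t) i) ≤ ∑ _i : Fin d, (|Bd| + 1) * (2 * δ) := by
        refine Finset.sum_le_sum fun i _ => ?_
        have h5 : |f (x c) i - f (x t) i| ≤ 2 * δ := by
          have e : f (x c) i - f (x t) i = (f (x c) i - f p i) - (f (x t) i - f p i) := by ring
          rw [e]
          calc |(f (x c) i - f p i) - (f (x t) i - f p i)|
              ≤ |f (x c) i - f p i| + |f (x t) i - f p i| := abs_sub _ _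
            _ ≤ δ + δ := add_le_add (hfc i) (hft i)
            _ = 2 * δ := by ring
        have h6 : |V (x t) i| ≤ |Bd| + 1 := by
          have := hVt i
          have := le_abs_self Bd
          linarith
        calc V (x t) i * (f (x c) i - f (x t) i) ≤ |V (x t) i * (f (x c) i - f (x t) i)| :=
              le_abs_self _
          _ = |V (x t) i| * |f (x c) i - f (x t) i| := abs_mul _ _
          _ ≤ (|Bd| + 1) * (2 * δ) := by gcongr
      have h7 : ∑ _i : Fin d, (|Bd| + 1) * (2 * δ) ≤ a := by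
        rw [Finset.sum_const, Finset.card_univ, Fintype.card_fin, nsmul_eq_mul]
        have h8 : (d : ℝ) * ((|Bd| + 1) * (2 * δ)) = a * (d / (d + 1)) := by
          rw [hδ]
          have : (|Bd| + 1) ≠ 0 := by positivity
          have : ((d : ℝ) + 1) ≠ 0 := by positivity
          field_simp
        rw [h8]
        have h9 : (d : ℝ) / (d + 1) ≤ 1 := by
          rw [div_le_one (by positivity)]
          linarith
        nlinarith
      linarith
  have hdiff : ∑ i, V (x t) i * x t i - ∑ i, V (x t) i * x t0 i ≤ 0 := by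
    have hpos : 0 < t - t0 := sub_pos.mpr ht0'
    have h10 : (∑ i, V (x t) i * x t i - ∑ i, V (x t) i * x t0 i)
        = (∑ i, V (x t) i * f (x c) i) * (t - t0) := by
      have := hslope
      rw [eq_div_iff hpos.ne'] at this
      exact this.symm
    rw [h10]
    exact mul_nonpos_of_nonpos_of_nonneg hkey hpos.le
  have h11 : ∑ i, V (x t) i * (p i - x t i)
      = -(∑ i, V (x t) i * x t i - ∑ i, V (x t) i * x t0 i) := by
    rw [← Finset.sum_sub_distrib, ← Finset.sum_neg_distrib, hxp]
    exact Finset.sum_congr rfl fun i _ => by ring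
  rw [h11] at hWt
  linarith

end P072
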