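import Vale.Agent.P072.Statements2
import Vale.Agent.P072.Locn

/-!
# P072, U2 : local non-increase for Carathéodory solutions
-/

namespace P072

open Finset Filter Topology MeasureTheory

/-- `v ⬝ massAction κ y` as a sum over the reactions. -/
theorem dot_massAction {d : ℕ} (net : Network d) (κ : (Fin d → ℕ) × (Fin d → ℕ) → ℝ)
    (v y : Fin d → ℝ) :
    ∑ i, v i * net.massAction κ y i
      = ∑ r ∈ net.reactions, (κ r * ∏ i, y i ^ r.1 i) * ∑ i, rvec r i * v i := by
  have h1 : ∀ i, net.massAction κ y i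
      = ∑ r ∈ net.reactions, (κ r * ∏ j, y j ^ r.1 j) * rvec r i := by
    intro i
    unfold Network.massAction
    rw [Finset.sum_apply]
    exact Finset.sum_congr rfl fun r _ => by rw [Pi.smul_apply, smul_eq_mul]
  simp_rw [h1, Finset.mul_sum]
  rw [Finset.sum_comm]
  refine Finset.sum_congr rfl fun r _ => Finset.sum_congr rfl fun i _ => by ring

/-- `v ⬝ (massAction κ y - massAction κ z)` is small if the monomials are close. -/
theorem dot_massAction_close {d : ℕ} (net : Network d) {ε : ℝ} (hε : 0 < ε)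
    (κ : (Fin d → ℕ) × (Fin d → ℕ) → ℝ) (hκ : RateOK net ε κ) (v y z : Fin d → ℝ) (β η : ℝ)
    (hβ : ∀ i, |v i| ≤ β)
    (hη : ∀ r ∈ net.reactions, |(∏ i, y i ^ r.1 i) - ∏ i, z i ^ r.1 i| ≤ η) :
    ∑ i, v i * net.massAction κ y i ≤ ∑ i, v i * net.massAction κ z i
      + ε⁻¹ * η * β * ∑ r ∈ net.reactions, ∑ i, |rvec r i| := by
  have h1 : ∑ i, v i * net.massAction κ y i = ∑ i, v i * net.massAction κ z i
      + ∑ r ∈ net.reactions, κ r * ((∏ i, y i ^ r.1 i) - ∏ i, z i ^ r.1 i) *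
          ∑ i, rvec r i * v i := by
    rw [dot_massAction, dot_massAction, ← Finset.sum_add_distrib]
    exact Finset.sum_congr rfl fun r _ => by ring
  rw [h1]
  refine add_le_add le_rfl ?_
  rw [Finset.mul_sum]
  refine Finset.sum_le_sum fun r hr => ?_
  obtain ⟨hk1, hk2⟩ := hκ r hr
  have hk0 : 0 ≤ κ r := hε.le.trans hk1
  have hη0 : 0 ≤ η := (abs_nonneg _).trans (hη r hr)
  have h2 : |∑ i, rvec r i * v i| ≤ β * ∑ i, |rvec r i| := by
    refine (Finset.abs_sum_le_sum_abs _ _).trans ?_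
    rw [Finset.mul_sum]
    refine Finset.sum_le_sum fun i _ => ?_
    rw [abs_mul, mul_comm]
    exact mul_le_mul_of_nonneg_right (hβ i) (abs_nonneg _)
  calc κ r * ((∏ i, y i ^ r.1 i) - ∏ i, z i ^ r.1 i) * ∑ i, rvec r i * v i
      ≤ |κ r * ((∏ i, y i ^ r.1 i) - ∏ i, z i ^ r.1 i) * ∑ i, rvec r i * v i| := le_abs_self _
    _ = κ r * |(∏ i, y i ^ r.1 i) - ∏ i, z i ^ r.1 i| * |∑ i, rvec r i * v i| := by
        rw [abs_mul, abs_mul, abs_of_nonneg hk0]
    _ ≤ ε⁻¹ * η * (β * ∑ i, |rvec r i|) := by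
        have h3 : κ r * |(∏ i, y i ^ r.1 i) - ∏ i, z i ^ r.1 i| ≤ ε⁻¹ * η :=
          mul_le_mul hk2 (hη r hr) (abs_nonneg _) (inv_nonneg.mpr hε.le)
        exact mul_le_mul h3 h2 (abs_nonneg _) (mul_nonneg (inv_nonneg.mpr hε.le) hη0)
    _ = ε⁻¹ * η * β * ∑ i, |rvec r i| := by ring

/-- A linear functional of an integral is `≤ 0` if it is `≤ 0` on the integrand (no integrability
needed: a non-integrable function has integral `0`). -/
theorem dot_integral_nonpos {d : ℕ} (v : Fin d → ℝ) (g : ℝ → (Fin d → ℝ)) {a b : ℝ} (hab : a ≤ b)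
    (hg : ∀ s ∈ Set.Icc a b, ∑ i, v i * g s i ≤ 0) :
    ∑ i, v i * (∫ s in a..b, g s) i ≤ 0 := by
  by_cases hint : IntervalIntegrable g volume a b
  · let L : (Fin d → ℝ) →L[ℝ] ℝ :=
      ∑ i, v i • (ContinuousLinearMap.proj i : (Fin d → ℝ) →L[ℝ] ℝ)
    have hL : ∀ y, L y = ∑ i, v i * y i := by
      intro y
      simp [L]
    have h1 : ∫ s in a..b, L (g s) = L (∫ s in a..b, g s) :=
      ContinuousLinearMap.intervalIntegral_comp_comm L hint
    rw [← hL, ← h1, ← neg_nonneg, ← intervalIntegral.integral_neg]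
    refine intervalIntegral.integral_nonneg hab fun s hs => ?_
    rw [hL, neg_nonneg]
    exact hg s hs
  · rw [intervalIntegral.integral_undef hint]
    simp

theorem locn2 : S2_LOCN := by
  intro d net ε W V p a Bd hε ha hW hV hdec k hk x t0 t1 ht00 h01 hx hxp
  obtain ⟨hxc, hxi⟩ := hx
  have hcont : ContinuousWithinAt x (Set.Icc t0 t1) t0 := hxc t0 (Set.left_mem_Icc.mpr h01.le)
  -- the small constant
  set C : ℝ := ∑ r ∈ net.reactions, ∑ i, |rvec r i| with hC
  have hC0 : 0 ≤ C := Finset.sum_nonneg fun r _ => Finset.sum_nonneg fun i _ => abs_nonneg _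
  set δ : ℝ := a / (2 * ε⁻¹ * (|Bd| + 1) * (C + 1)) with hδ
  have hεi : 0 < ε⁻¹ := inv_pos.mpr hε
  have hden : 0 < 2 * ε⁻¹ * (|Bd| + 1) * (C + 1) := by positivity
  have hδpos : 0 < δ := div_pos ha hden
  have hmon : ∀ᶠ y in 𝓝 p, ∀ r ∈ net.reactions,
      |(∏ i, y i ^ r.1 i) - ∏ i, p i ^ r.1 i| ≤ δ := by
    have h0 : ∀ r ∈ net.reactions, ∀ᶠ y : Fin d → ℝ in 𝓝 p,
        |(∏ i, y i ^ r.1 i) - ∏ i, p i ^ r.1 i| ≤ δ := by
      intro r _
      have hci : Continuous fun y : Fin d → ℝ => ∏ i, y i ^ r.1 i :=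
        continuous_finsetProd _ fun i _ => (continuous_apply i).pow _
      have h1 : Tendsto (fun y : Fin d → ℝ => |(∏ i, y i ^ r.1 i) - ∏ i, p i ^ r.1 i|) (𝓝 p)
          (𝓝 |(∏ i, p i ^ r.1 i) - ∏ i, p i ^ r.1 i|) :=
        ((hci.sub continuous_const).abs).tendsto p
      rw [sub_self, abs_zero] at h1
      exact (h1.eventually (gt_mem_nhds hδpos)).mono fun y hy => hy.le
    exact (Finset.eventually_all net.reactions).mpr h0
  have hall := ((hW.and hV).and (hdec.and hmon))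
  rw [← hxp] at hall
  filter_upwards [eventually_curve h01 hcont hall, self_mem_nhdsWithin] with t ht ht0
  obtain ⟨htt1, hcurve⟩ := ht
  have ht0' : t0 < t := ht0
  have htmem : t ∈ Set.Icc t0 t := Set.right_mem_Icc.mpr ht0'.le
  obtain ⟨⟨hWt, hVt⟩, hdt, hft⟩ := hcurve t htmem
  rw [hxp] at hWt hft
  have hint := hxi t ⟨ht0'.le, htt1.le⟩
  have hkey : ∀ s ∈ Set.Icc t0 t, ∑ i, V (x t) i * net.field k s (x s) i ≤ 0 := by
    intro s hs
    rcases hdt with h | h
    · unfold Network.field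
      rw [dot_massAction]
      refine le_of_eq (Finset.sum_eq_zero fun r hr => ?_)
      rw [h r hr, mul_zero]
    · obtain ⟨-, -, hfs⟩ := hcurve s hs
      rw [hxp] at hfs
      have hks : RateOK net ε (k s) := hk.bounds s (ht00.trans hs.1)
      have hclose : ∀ r ∈ net.reactions,
          |(∏ i, x s i ^ r.1 i) - ∏ i, x t i ^ r.1 i| ≤ 2 * δ := by
        intro r hr
        have e : (∏ i, x s i ^ r.1 i) - ∏ i, x t i ^ r.1 i
            = ((∏ i, x s i ^ r.1 i) - ∏ i, p i ^ r.1 i)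
              - ((∏ i, x t i ^ r.1 i) - ∏ i, p i ^ r.1 i) := by ring
        rw [e]
        calc |((∏ i, x s i ^ r.1 i) - ∏ i, p i ^ r.1 i)
              - ((∏ i, x t i ^ r.1 i) - ∏ i, p i ^ r.1 i)|
            ≤ |(∏ i, x s i ^ r.1 i) - ∏ i, p i ^ r.1 i|
              + |(∏ i, x t i ^ r.1 i) - ∏ i, p i ^ r.1 i| := abs_sub _ _
          _ ≤ δ + δ := add_le_add (hfs r hr) (hft r hr)
          _ = 2 * δ := by ring
      have hVβ : ∀ i, |V (x t) i| ≤ |Bd| + 1 := by
        intro i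
        have := hVt i
        have := le_abs_self Bd
        linarith
      have h1 := dot_massAction_close net hε (k s) hks (V (x t)) (x s) (x t) (|Bd| + 1) (2 * δ)
        hVβ hclose
      rw [← hC] at h1
      have h2 := h (k s) hks
      have h3 : ε⁻¹ * (2 * δ) * (|Bd| + 1) * C ≤ a := by
        have h4 : ε⁻¹ * (2 * δ) * (|Bd| + 1) * C = a * (C / (C + 1)) := by
          rw [hδ]
          have : (|Bd| + 1) ≠ 0 := by positivity
          have : (C + 1) ≠ 0 := by positivity
          field_simp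
        rw [h4]
        have h5 : C / (C + 1) ≤ 1 := by
          rw [div_le_one (by positivity)]
          linarith
        nlinarith
      unfold Network.field
      linarith
  have hneg := dot_integral_nonpos (V (x t)) (fun s => net.field k s (x s)) ht0'.le hkey
  have h11 : ∑ i, V (x t) i * (p i - x t i)
      = -∑ i, V (x t) i * (∫ s in t0..t, net.field k s (x s)) i := by
    rw [← Finset.sum_neg_distrib]
    refine Finset.sum_congr rfl fun i _ => ?_
    have h12 : x t i = p i + (∫ s in t0..t, net.field k s (x s)) i := by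
      rw [← hxp, ← Pi.add_apply, ← hint]
    rw [h12]
    ring
  rw [h11] at hWt
  linarith

end P072
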