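import Vale.Agent.P072.Cara

/-!
# P072: U2 (local non-increase)
-/

namespace P072

open Finset Filter Topology MeasureTheory

/-- The functional `w ↦ ∑ v_i w_i`. -/
noncomputable def dotL {d : ℕ} (v : Fin d → ℝ) : (Fin d → ℝ) →L[ℝ] ℝ :=
  ∑ i, (v i) • ContinuousLinearMap.proj (R := ℝ) (φ := fun _ : Fin d => ℝ) i

theorem dotL_apply {d : ℕ} (v w : Fin d → ℝ) : dotL v w = ∑ i, v i * w i := by
  unfold dotL
  rw [_root_.sum_apply]
  rfl

theorem abs_dotL_le {d : ℕ} {v : Fin d → ℝ} {B : ℝ} (hv : ∀ i, |v i| ≤ B) (w : Fin d → ℝ) :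
    |dotL v w| ≤ d * B * ‖w‖ := by
  rw [dotL_apply]
  calc |∑ i, v i * w i| ≤ ∑ i, |v i * w i| := Finset.abs_sum_le_sum_abs _ _
    _ ≤ ∑ _i : Fin d, B * ‖w‖ := by
        refine Finset.sum_le_sum fun i _ => ?_
        rw [abs_mul]
        exact mul_le_mul (hv i) (norm_le_pi_norm w i) (abs_nonneg _) ((abs_nonneg _).trans (hv i))
    _ = d * B * ‖w‖ := by
        rw [Finset.sum_const, Finset.card_univ, Fintype.card_fin, nsmul_eq_mul]
        ring

theorem dotL_massAction_eq_zero {d : ℕ} {net : Network d} {v : Fin d → ℝ}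
    (h : ∀ r ∈ net.reactions, ∑ i, rvec r i * v i = 0) (κ) (y : Fin d → ℝ) :
    dotL v (net.massAction κ y) = 0 := by
  unfold Network.massAction
  rw [map_sum]
  refine Finset.sum_eq_zero fun r hr => ?_
  rw [map_smul, dotL_apply]
  have : ∑ i, v i * rvec r i = 0 := by
    rw [← h r hr]
    exact Finset.sum_congr rfl fun i _ => mul_comm _ _
  rw [this, smul_zero]

/-- **U2.** -/
theorem locn2' : S2_LOCN := by
  intro d net ε W V p a Bd hε ha hW hB hV k hk x t0 t1 ht0 ht hsol hp
  -- bounds on a ball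
  obtain ⟨M, L, hM, hL, hML⟩ := massAction_bounds net hε (‖p‖ + 1)
  have hB0 : 0 ≤ (d : ℝ) * |Bd| * L := by positivity
  -- choose a small `δ`
  obtain ⟨δ, hδ0, hδ1, hδ2⟩ : ∃ δ : ℝ, 0 < δ ∧ δ ≤ 1 ∧ (d : ℝ) * |Bd| * L * (2 * δ) ≤ a := by
    refine ⟨min 1 (a / (2 * ((d : ℝ) * |Bd| * L + 1))), by positivity, min_le_left _ _, ?_⟩
    have h1 : min 1 (a / (2 * ((d : ℝ) * |Bd| * L + 1))) ≤ a / (2 * ((d : ℝ) * |Bd| * L + 1)) :=
      min_le_right _ _
    calc (d : ℝ) * |Bd| * L * (2 * min 1 (a / (2 * ((d : ℝ) * |Bd| * L + 1))))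
        ≤ (d : ℝ) * |Bd| * L * (2 * (a / (2 * ((d : ℝ) * |Bd| * L + 1)))) := by gcongr
      _ = a * (((d : ℝ) * |Bd| * L) / ((d : ℝ) * |Bd| * L + 1)) := by
          field_simp
      _ ≤ a * 1 := by
          refine mul_le_mul_of_nonneg_left ?_ ha.le
          rw [div_le_one (by positivity)]
          linarith
      _ = a := mul_one a
  -- continuity of `x` at `t0`
  have hcont : ContinuousWithinAt x (Set.Icc t0 t1) t0 := hsol.1 t0 ⟨le_rfl, ht.le⟩
  have hcont' : Tendsto x (𝓝[>] t0) (𝓝 p) := by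
    rw [← hp]
    refine hcont.mono_left ?_
    rw [nhdsWithin_le_iff]
    exact Icc_mem_nhdsGT ht
  have hball : ∀ᶠ s in 𝓝[>] t0, ‖x s - p‖ ≤ δ := by
    have h1 : ∀ᶠ y in 𝓝 p, ‖y - p‖ ≤ δ := by
      have := Metric.closedBall_mem_nhds p hδ0
      filter_upwards [this] with y hy
      rwa [mem_closedBall_iff_norm] at hy
    exact hcont'.eventually h1
  obtain ⟨u, hu0, hu⟩ := mem_nhdsGT_iff_exists_Ioo_subset.1 hball
  have hu0' : t0 < u := hu0
  have e1 : ∀ᶠ t in 𝓝[>] t0, t ∈ Set.Ioo t0 (min u t1) :=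
    Ioo_mem_nhdsGT (lt_min hu0' ht)
  filter_upwards [e1, hcont'.eventually hW, hcont'.eventually hB, hcont'.eventually hV]
    with t htu h1 h2 h3
  have htt1 : t ≤ t1 := (htu.2.trans_le (min_le_right _ _)).le
  have hclose : ∀ s ∈ Set.Icc t0 t, ‖x s - p‖ ≤ δ := by
    intro s hs
    rcases eq_or_lt_of_le hs.1 with h | h
    · rw [← h, hp, sub_self, norm_zero]
      exact hδ0.le
    · exact hu ⟨h, (hs.2.trans_lt htu.2).trans_le (min_le_left _ _)⟩
  have hmem : ∀ s ∈ Set.Icc t0 t, x s ∈ Metric.closedBall (0 : Fin d → ℝ) (‖p‖ + 1) := by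
    intro s hs
    rw [mem_closedBall_zero_iff]
    have := norm_sub_norm_le (x s) p
    have := hclose s hs
    linarith
  have hint := field_intervalIntegrable hε hk ht0 htu.1.le
    (hsol.1.mono (Set.Icc_subset_Icc_right htt1))
  -- the increment
  have hinc : ∑ i, V (x t) i * (x t i - p i)
      = ∫ s in t0..t, dotL (V (x t)) (net.field k s (x s)) := by
    rw [ContinuousLinearMap.intervalIntegral_comp_comm _ hint, dotL_apply]
    have h4 := hsol.2 t ⟨htu.1.le, htt1⟩
    rw [hp] at h4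
    refine Finset.sum_congr rfl fun i _ => ?_
    have h5 := congrFun h4 i
    rw [Pi.add_apply] at h5
    rw [h5]
    ring
  have hneg : ∑ i, V (x t) i * (x t i - p i) ≤ 0 := by
    rw [hinc]
    have hle : ∀ s ∈ Set.Icc t0 t, dotL (V (x t)) (net.field k s (x s)) ≤ 0 := by
      intro s hs
      have hs0 : 0 ≤ s := ht0.trans hs.1
      rcases h3 with h3 | h3
      · exact (dotL_massAction_eq_zero h3 _ _).le
      · have h4 := h3 (k s) (hk.bounds s hs0)
        rw [← dotL_apply] at h4
        have h5 : dotL (V (x t)) (net.field k s (x s)) =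
            dotL (V (x t)) (net.massAction (k s) (x t)) +
              dotL (V (x t)) (net.massAction (k s) (x s) - net.massAction (k s) (x t)) := by
          rw [← map_add, add_sub_cancel]
          rfl
        have h6 := abs_dotL_le (fun i => (h2 i).trans (le_abs_self Bd))
          (net.massAction (k s) (x s) - net.massAction (k s) (x t))
        have h7 := (hML (k s) (hk.bounds s hs0) (x s) (hmem s hs)).2 (x t)
          (hmem t ⟨htu.1.le, le_rfl⟩)
        have h8 : ‖x s - x t‖ ≤ 2 * δ := by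
          have h9 := hclose s hs
          have h10 := hclose t ⟨htu.1.le, le_rfl⟩
          calc ‖x s - x t‖ = ‖(x s - p) - (x t - p)‖ := by rw [sub_sub_sub_cancel_right]
            _ ≤ ‖x s - p‖ + ‖x t - p‖ := norm_sub_le _ _
            _ ≤ 2 * δ := by linarith
        have h11 : (d : ℝ) * |Bd| * ‖net.massAction (k s) (x s) - net.massAction (k s) (x t)‖
            ≤ (d : ℝ) * |Bd| * L * (2 * δ) := by
          calc (d : ℝ) * |Bd| * ‖net.massAction (k s) (x s) - net.massAction (k s) (x t)‖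
              ≤ (d : ℝ) * |Bd| * (L * (2 * δ)) := by
                refine mul_le_mul_of_nonneg_left ?_ (by positivity)
                exact h7.trans (mul_le_mul_of_nonneg_left h8 hL.le)
            _ = (d : ℝ) * |Bd| * L * (2 * δ) := by ring
        have h12 := le_abs_self (dotL (V (x t))
          (net.massAction (k s) (x s) - net.massAction (k s) (x t)))
        rw [h5]
        linarith
    have hint2 : IntervalIntegrable (fun s => dotL (V (x t)) (net.field k s (x s))) volume t0 t :=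
      ⟨(dotL (V (x t))).integrable_comp hint.1, (dotL (V (x t))).integrable_comp hint.2⟩
    calc ∫ s in t0..t, dotL (V (x t)) (net.field k s (x s))
        ≤ ∫ _s in t0..t, (0 : ℝ) :=
          intervalIntegral.integral_mono_on htu.1.le hint2 (by simp) hle
      _ = 0 := by simp
  have h13 : ∑ i, V (x t) i * (p i - x t i) = - ∑ i, V (x t) i * (x t i - p i) := by
    rw [← Finset.sum_neg_distrib]
    exact Finset.sum_congr rfl fun i _ => by ring
  rw [h13] at h1
  linarith

end P072
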