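import Mathlib

/-!
# P072: reaction networks, mass-action systems and permanence
-/

namespace P072

/-- A finite reaction network on the species `Fin d`: a finite set of complexes in `ℕ^d` and a
finite set of reactions `y → y'` (pairs of distinct complexes). -/
structure Network (d : ℕ) where
  complexes : Finset (Fin d → ℕ)
  reactions : Finset ((Fin d → ℕ) × (Fin d → ℕ))
  source_mem : ∀ r ∈ reactions, r.1 ∈ complexes
  target_mem : ∀ r ∈ reactions, r.2 ∈ complexes
  ne : ∀ r ∈ reactions, r.1 ≠ r.2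

/-- Weak reversibility: for every reaction `y → y'` there is a directed path from `y'` to `y`. -/
def Network.WeaklyReversible {d : ℕ} (net : Network d) : Prop :=
  ∀ r ∈ net.reactions,
    Relation.ReflTransGen (fun a b => (a, b) ∈ net.reactions) r.2 r.1

/-- The reaction vector `y' - y` of the reaction `y → y'`. -/
def rvec {d : ℕ} (r : (Fin d → ℕ) × (Fin d → ℕ)) : Fin d → ℝ :=
  fun i => (r.2 i : ℝ) - (r.1 i : ℝ)

/-- The mass-action vector field `f(x) = ∑ k_{y → y'} x^y (y' - y)`. -/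
noncomputable def Network.massAction {d : ℕ} (net : Network d)
    (k : (Fin d → ℕ) × (Fin d → ℕ) → ℝ) (x : Fin d → ℝ) : Fin d → ℝ :=
  ∑ r ∈ net.reactions, (k r * ∏ i, x i ^ r.1 i) • rvec r

/-- The stoichiometric subspace. -/
def Network.stoich {d : ℕ} (net : Network d) : Submodule ℝ (Fin d → ℝ) :=
  Submodule.span ℝ (rvec '' (net.reactions : Set ((Fin d → ℕ) × (Fin d → ℕ))))

/-- The positive stoichiometric class `(c + S) ∩ ℝ^d_{>0}`. -/
def Network.posClass {d : ℕ} (net : Network d) (c : Fin d → ℝ) : Set (Fin d → ℝ) :=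
  {x | (∀ i, 0 < x i) ∧ x - c ∈ net.stoich}

/-- `x` solves `x' = f(x)` on the set of times `J`. -/
def IsSol {d : ℕ} (f : (Fin d → ℝ) → (Fin d → ℝ)) (J : Set ℝ) (x : ℝ → (Fin d → ℝ)) : Prop :=
  ∀ t ∈ J, HasDerivWithinAt x (f (x t)) J t

/-- The system is permanent on `P`: every solution starting in `P` extends to a (unique) solution
on `[0, ∞)` staying in `P` (in particular positive), and some compact subset `K` of `P` captures
every such solution after finite time. -/
def PermanentOn {d : ℕ} (f : (Fin d → ℝ) → (Fin d → ℝ)) (P : Set (Fin d → ℝ)) : Prop :=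
  (∀ x0 ∈ P, ∃ x : ℝ → (Fin d → ℝ), x 0 = x0 ∧ IsSol f (Set.Ici 0) x ∧ (∀ t, 0 ≤ t → x t ∈ P) ∧
    ∀ (T : ℝ) (y : ℝ → (Fin d → ℝ)), 0 < T → y 0 = x0 → IsSol f (Set.Ico 0 T) y →
      ∀ t ∈ Set.Ico 0 T, y t = x t) ∧
  ∃ K : Set (Fin d → ℝ), IsCompact K ∧ K ⊆ P ∧
    ∀ x : ℝ → (Fin d → ℝ), x 0 ∈ P → IsSol f (Set.Ici 0) x → ∃ T : ℝ, ∀ t, T ≤ t → x t ∈ K

end P072
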