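import Vale.Agent.P072.Defs

/-!
# P072: the modules, as statements `S_xxx : Prop`

Each module is a file `Vale/Agent/P072/Xxx.lean` proving `theorem xxx : S_XXX` (possibly from
other `S_YYY` as hypotheses; the final assembly feeds them in).

## Overview of the proof

For sorted data `x 0 ≥ x 1 ≥ … > 0`, `X = log x`, we maximise `Z ⬝ x - h Z` over a closed
(non-convex) set `D` of sorted sequences on which the relevant linear forms are either `0` or large.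
Level by level, `Z k` is either one of finitely many *positions* `ev q k Z` (`q ∈ Q k`, functionals
of `Z 0, …, Z (k-1)`), then level `k` is *captured*, or it is *free* and then at distance `≥ Gam k`
from all positions at level `k`.  The gap `Gam k = G * K ^ val k` depends on which levels `< k` are
captured (in-order traversal of the binary tree): captured `i < m` gives `Gam m ≥ K * Gam i`,
free `i < m` gives `Gam i ≥ K * Gam m`.
-/

namespace P072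

open Finset Filter Topology

/-! ### T1 : the finite closed family of positions -/

/-- **T1.** Finite closure. Think of a position `q` at level `k` as the form
`Z k - ev q k Z` (coefficient `1` at `k`, `-q j` at `j < k`).  Start with the normalisations of
the forms in `Rs` and all ties `Z k - Z j` (`j < k`) and `Z 0` (position `0` at level `0`).
For two different positions at the same level `k` the difference of the two forms has a last non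
zero coefficient `a` at some `l < k`; add its normalisation as a position at level `l`.  Doing this
for `k = n-1, n-2, …, 1` gives a finite family.  `C` = a bound for the `ℓ¹` norms and for the
`1/|a|`, `R` = a bound for the cardinalities. -/
def S_CLOS : Prop := ∀ (n : ℕ), 1 ≤ n → ∀ (Rs : Finset (ℕ → ℝ)),
  ∃ (Q : ℕ → Finset (ℕ → ℝ)) (C R : ℝ), Fam n Q C R ∧
    ∀ r ∈ Rs, (∀ Z : ℕ → ℝ, ev r n Z = 0) ∨
      ∃ l < n, ∃ s ∈ Q l, ∃ a : ℝ, 1 ≤ C * |a| ∧ ∀ Z : ℕ → ℝ, ev r n Z = a * (Z l - ev s l Z)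

/-! ### T2 : parameters -/

/-- **T2.** Good parameters exist, with `G` as large as we like.  (Choose `B`, then `Cs`, then `K`,
then `G`; use that `exp` beats polynomials.) -/
def S_PAR : Prop := ∀ (n : ℕ) (Q : ℕ → Finset (ℕ → ℝ)) (C R g : ℝ), 1 ≤ n → Fam n Q C R →
  ∃ p : Par, p.Good ∧ p.n = n ∧ p.Q = Q ∧ p.C = C ∧ p.R = R ∧ g ≤ p.G

/-! ### T3 : locality, order of the gaps, separation of the positions -/

/-- **T3a.** Everything at level `k` depends only on the entries `≤ k` (the gap and the positions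
only on the entries `< k`). -/
def S_LOC : Prop := ∀ (p : Par) (Z Z' : ℕ → ℝ) (k : ℕ), (∀ j < k, Z j = Z' j) →
  (∀ q, ev q k Z = ev q k Z') ∧ Gam p Z k = Gam p Z' k ∧
  ∀ j < k, (con p Z j ↔ con p Z' j) ∧ (lev p Z j ↔ lev p Z' j) ∧ Gam p Z j = Gam p Z' j ∧
    (∀ q, ev q j Z = ev q j Z') ∧ (∀ x, lam p x Z j = lam p x Z' j) ∧ cost p Z j = cost p Z' j

/-- **T3b.** Order of the gaps. -/
def S_ORD : Prop := ∀ (p : Par), p.Good → ∀ (Z : ℕ → ℝ),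
  (∀ k < p.n, p.G * p.K ≤ Gam p Z k ∧ Gam p Z k ≤ p.G * p.K ^ (2 ^ p.n)) ∧
  (∀ i m, i < m → m < p.n → con p Z i → p.K * Gam p Z i ≤ Gam p Z m) ∧
  (∀ i m, i < m → m < p.n → ¬ con p Z i → p.K * Gam p Z m ≤ Gam p Z i)

/-- **T3c.** Separation: two different positions at level `k` are far apart.  Induction on `k`:
the difference is `a * (Z l - ev s l Z)`; if `l` is free this is `≥ Gam l / C`, if `l` is captured
it is a difference of positions at level `l < k`. -/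
def S_SEP : Prop := ∀ (p : Par), p.Good → ∀ (Z : ℕ → ℝ) (k : ℕ), k < p.n →
  (∀ j < k, lev p Z j) → ∀ q ∈ p.Q k, ∀ q' ∈ p.Q k,
    ev q k Z = ev q' k Z ∨
    ((∃ i < k, ¬ con p Z i ∧ Gam p Z i ≤ p.C ^ k * |ev q k Z - ev q' k Z|) ∧
      ∀ m, k ≤ m → m < p.n → p.B * Gam p Z m ≤ |ev q k Z - ev q' k Z|)

/-! ### T4 : the one-level lemma (real analysis) -/

/-- **T4.** The one-level lemma.  `v q`, `q ∈ S` are the positions, `zc` is the current value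
(of the maximiser), `adm` says which values are allowed by sortedness.  The last two hypotheses
are the comparison inequalities (see T5).  Write `ε = Γ/2 e^{-Γ}`, `κ = 8 n Γ e^Γ`.

Claim (1): if `zc` is free then no position `v` has `|X - v| < Γ`.  Suppose there is one.
Compare with `z = v` captured.
 (1a) `zc ≥ v + Γ`: `s = zc - v`. loss(zc) - loss(v) ≥ x b(zc - X) + κ e^v - x (X - 1 - v) - ε e^v`
  with `b(t) = e^t - 1 - t`, `κ e^v ≥ 8 n Γ x`, `x (X-1-v) ≤ Γ x`, `ε e^v ≤ Γ x / 2`.  If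
  `s ≤ 4Γ` then `8 n Γ > n s + ...`; if `s > 4Γ` then `zc - X ≥ 3 s / 4 ≥ Cs` and
  `b(zc-X) ≥ (B-1)(1+zc-X) ≥ n s`.
 (1b) `zc ≤ v - Γ`: positions `v' < v` are `≤ v - AΓ`, so the difference of losses is
  `≥ x (v - zc) - Γ x / 2 - x/8 `, with `v - zc ≥ Γ`, and the right side of the comparison is
  `≤ x / 8`.
Claim (2): `zc = v` captured.
 (2a) `X > v + Γ + Cs`. (i) if a position `v'` has `|X - v'| < Γ` compare with `z = v'`:
  difference `≥ x (v' - v) - Γ x/2 - x/8`, `v' - v ≥ AΓ`. (ii) else compare with `z = X` free: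
  `s = X - v`; difference `≥ x (s - 1) - κ ∑_{v ≤ v'' < X} e^{v''}`; either all these `v''` equal
  `v`, sum `≤ 8 n R Γ e^{Γ - s} x ≤ Γ x / 4`, or `s ≥ A Γ + Γ` and the sum is `≤ 8 n R Γ x`.
 (2b) `X < v - Γ - Cs`, `v - X = Γ + τ`, `ε e^v = Γ e^τ x / 2`.  (i) a position `v'` near `X`:
  compare with `v'`.  (ii) none: compare with `X` free.  In both cases `Γ e^τ / 2 ≥ Γ B (1+τ)/2`
  beats `(n+1)(2Γ + τ) + Γ/2 + 1/8`.
Claim (3): `zc` free, then `|X - zc| ≤ Cs`. By (1) `z = X` free is allowed.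
 If `D0 = zc - X ≥ 0`: `x b(D0) ≤ n x D0 + x/8` forces `D0 ≤ Cs`.
 If `D0 < 0`, `s = X - zc`: if there is no position in `[zc, X)`: `b(-s) ≤ 1/8`, `s ≤ 9/8`.
 Otherwise let `v` be the largest position `< X`, `v ≥ zc + Γ` , `s_v = X - v ≥ Γ`.
  If `s_v ≥ Γ + Cs` compare with `X` free: `s - 1 ≤ Γ/4 + 1/8` is impossible as `s ≥ 2Γ`.
  If `s_v < Γ + Cs` compare with `v` captured (`adm v` as `v < X`): difference
  `≥ x (s - s_v) - ε e^v - κ R e^{v - AΓ} ≥ Γ x - x/2 ... ` impossible. -/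
def S_LEVEL : Prop := ∀ (ι : Type) (S : Finset ι) (v : ι → ℝ) (n R B Cs G A Γ x X zc : ℝ)
    (adm : ℝ → Prop),
  1 ≤ n → 1 ≤ R → (S.card : ℝ) ≤ R → 100 * n ^ 2 * R ≤ B → 2 ≤ Cs →
  (∀ t, Cs ≤ t → B * (1 + t) ≤ Real.exp t) → (∀ t, G ≤ t → B * (1 + t) ≤ Real.exp (t / 2)) →
  2 * Cs ≤ G → B ≤ A → G ≤ Γ → 0 < x → X = Real.log x →
  (∀ q ∈ S, ∀ q' ∈ S, v q = v q' ∨ A * Γ ≤ |v q - v q'|) →
  ((∃ q ∈ S, zc = v q) ∨ ∀ q ∈ S, Γ ≤ |zc - v q|) →
  (∀ a b, a ≤ b → adm b → adm a) →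
  (∀ q ∈ S, |X - v q| < Γ → adm (v q)) → ((∀ q ∈ S, Γ ≤ |X - v q|) → adm X) →
  (∀ q ∈ S, adm (v q) → X ≤ v q + Γ + Cs →
    oneLoss n Γ x S v zc ≤ oneLoss n Γ x S v (v q) + n * x * max (zc - v q) 0
      + Real.exp (-Γ) / 8 * Real.exp (v q)) →
  ((∀ q ∈ S, Γ ≤ |X - v q|) → adm X →
    oneLoss n Γ x S v zc ≤ oneLoss n Γ x S v X + n * x * max (zc - X) 0 + 1 / 8 * Real.exp X) →
  ((∃ q ∈ S, zc = v q) → |X - zc| ≤ Γ + Cs) ∧ (¬ (∃ q ∈ S, zc = v q) → |X - zc| ≤ Cs)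

/-! ### T5 : greedy extensions and the comparison principle -/

/-- The greedy rule at level `m`: go to the position within the gap of `log x m` if there is one,
else to `log x m`. -/
def Greedy (p : Par) (x Z : ℕ → ℝ) (m : ℕ) : Prop :=
  (∃ q ∈ p.Q m, |Real.log (x m) - ev q m Z| < Gam p Z m ∧ Z m = ev q m Z) ∨
  ((∀ q ∈ p.Q m, Gam p Z m ≤ |Real.log (x m) - ev q m Z|) ∧ Z m = Real.log (x m))

/-- `x` is not far above `Z` at level `j`. -/
def Near (p : Par) (x Z : ℕ → ℝ) (j : ℕ) : Prop :=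
  (con p Z j → Real.log (x j) ≤ Z j + Gam p Z j + p.Cs) ∧
  (¬ con p Z j → Real.log (x j) ≤ Z j)

/-- **T5a.** Greedy extensions exist (recursion, `Function.update`, locality T3a). -/
def S_GREX : Prop := ∀ (p : Par) (x Z0 : ℕ → ℝ) (k : ℕ), k ≤ p.n →
  ∃ Z : ℕ → ℝ, (∀ j < k, Z j = Z0 j) ∧ (∀ m, k ≤ m → m < p.n → Greedy p x Z m) ∧
    ∀ m, p.n ≤ m → Z m = 0

/-- **T5b.** Greedy extensions of an allowed prefix of length `k` are in `D`, and `Near` holds.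
Induction on `m`: `X_m ≤ X_{m-1} ≤ Z_{m-1} + Gam_{m-1} + Cs ≤ Z_{m-1} + Gam_m / 2` (captured) or
`≤ Z_{m-1}` (free); `Z_{m-1}` is a position at level `m`; use separation. -/
def S_GRPROP : Prop := ∀ (p : Par), p.Good → ∀ (x Z : ℕ → ℝ) (k : ℕ), Sorted p.n x → k ≤ p.n →
  (∀ j < k, lev p Z j) → (∀ j, j + 1 < k → Z (j + 1) ≤ Z j) → (∀ j, j + 1 = k → Near p x Z j) →
  (∀ m, k ≤ m → m < p.n → Greedy p x Z m) → (∀ m, p.n ≤ m → Z m = 0) →
  Z ∈ DD p ∧ ∀ j, k ≤ j + 1 → j < p.n → Near p x Z j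

/-- **T5c.** Greedy losses are small: `≤ 8 n R Γ x`. -/
def S_L1 : Prop := ∀ (ι : Type) (S : Finset ι) (v : ι → ℝ) (n R B G A Γ x z : ℝ),
  1 ≤ n → 1 ≤ R → (S.card : ℝ) ≤ R → 100 * n ^ 2 * R ≤ B → 1 ≤ G →
  (∀ t, G ≤ t → B * (1 + t) ≤ Real.exp (t / 2)) → B ≤ A → G ≤ Γ → 0 < x →
  (∀ q ∈ S, ∀ q' ∈ S, v q = v q' ∨ A * Γ ≤ |v q - v q'|) →
  ((∃ q ∈ S, |Real.log x - v q| < Γ ∧ z = v q) ∨
    ((∀ q ∈ S, Γ ≤ |Real.log x - v q|) ∧ z = Real.log x)) →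
  oneLoss n Γ x S v z ≤ 8 * n * R * Γ * x

/-- **T5d.** Loss at a captured level. -/
def S_L2 : Prop := ∀ (ι : Type) (S : Finset ι) (v : ι → ℝ) (n R B G A Γ x z : ℝ),
  1 ≤ n → 1 ≤ R → (S.card : ℝ) ≤ R → 100 * n ^ 2 * R ≤ B → 1 ≤ G →
  (∀ t, G ≤ t → B * (1 + t) ≤ Real.exp (t / 2)) → B ≤ A → G ≤ Γ → 0 < x →
  (∀ q ∈ S, ∀ q' ∈ S, v q = v q' ∨ A * Γ ≤ |v q - v q'|) →
  (∃ q ∈ S, z = v q) →
  oneLoss n Γ x S v z ≤ x * (Real.log x - 1 - z) + Real.exp (-Γ / 2) / (8 * n) * Real.exp z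

/-- **T5e.** The comparison principle.  `Z` optimal, replace `Z k` by `z` (allowed) and extend
greedily; the change of the losses at the levels `m > k` is at most
`n x_k (Z_k - z)^+ + θ e^z` (`θ = e^{-Γ_k}/8` if `z` is captured, else `1/8`).  Per level `m > k`,
with `Z'` the extension: either `Z'_m = z`, and then (T5d)
`λ'_m - λ_m ≤ x_m (Z_k - z) + e^{-Γ'_m/2}/(8n) e^z`; or there is `a` with `X_m ≤ z - a` and
`Γ'_j ≤ a` for all `j ≥ m` (invariant proved by induction on `m`), and then (T5c)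
`λ'_m - λ_m ≤ 8nRΓ'_m x_m + x_m (1 + Z_k - X_m) ≤ x_k (Z_k - z)^+ + (8nRa + 1 + a) e^{-a} e^z`. -/
def S_CP : Prop := ∀ (p : Par), p.Good → ∀ (x Z : ℕ → ℝ), Sorted p.n x → IsOpt p x Z →
  ∀ k < p.n, ∀ z : ℝ, (∀ j, k = j + 1 → z ≤ Z j) →
  ((∃ q ∈ p.Q k, z = ev q k Z) → Real.log (x k) ≤ z + Gam p Z k + p.Cs →
    lam p x Z k ≤ oneLoss p.n (Gam p Z k) (x k) (p.Q k) (fun q => ev q k Z) z
      + p.n * x k * max (Z k - z) 0 + Real.exp (-Gam p Z k) / 8 * Real.exp z) ∧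
  ((∀ q ∈ p.Q k, Gam p Z k ≤ |z - ev q k Z|) → z = Real.log (x k) →
    lam p x Z k ≤ oneLoss p.n (Gam p Z k) (x k) (p.Q k) (fun q => ev q k Z) z
      + p.n * x k * max (Z k - z) 0 + 1 / 8 * Real.exp z)

/-! ### T6 : existence of maximisers -/

/-- **T6.** A maximiser exists.  `0 ∈ D`.  `D` is closed and the cost is continuous on `D`:
by T3c all forms `Z k - ev q k Z` are `0` or `≥ G / C^n` on `D`, so near a point of `closure D`
the sign pattern of these forms (hence `con`, `Gam`, the set of positions below `Z k`) is constant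
on `D`.  Coercivity: `x_k Z_k - ε e^{Z_k}` tends to `-∞` at both ends, `ε` a uniform lower bound
for `1` and `Γ/2 e^{-Γ}`.  Compactness in `ℕ → ℝ` by Tychonoff (`Z m = 0` for `m ≥ n`). -/
def S_MAX : Prop := ∀ (p : Par), p.Good → ∀ (x : ℕ → ℝ), (∀ i < p.n, 0 < x i) →
  ∃ Z, IsOpt p x Z

/-! ### T7 : the sorted theorem -/

/-- **T7a.** Tracking.  Induction on `k` from T4 and T5e, with `adm z := ∀ j, k = j+1 → z ≤ Z j`.
By induction `X_k ≤ X_{k-1} ≤ Z_{k-1} + Γ_k / 2` and `Z_{k-1}` is a position at level `k`. -/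
def S_TRACK : Prop := ∀ (p : Par), p.Good → ∀ (x Z : ℕ → ℝ), Sorted p.n x → IsOpt p x Z →
  ∀ k < p.n, (con p Z k → |Real.log (x k) - Z k| ≤ Gam p Z k + p.Cs) ∧
    (¬ con p Z k → |Real.log (x k) - Z k| ≤ p.Cs)

/-- **T7b.** Compatibility of the forms `φ Z = Z l - ev s l Z`: `φ Z = 0` or
`|φ Z| ≥ G / C^n` and `|φ X - φ Z| ≤ |φ Z| / 2`.  (If `l` is free `|φ Z| ≥ Γ_l`; if captured,
T3c gives a free `i < l` with `Γ_i ≤ C^l |φ Z|`.  For captured `j ≤ l` we have `Γ_j ≤ Γ_i / K`.) -/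
def S_COMPAT : Prop := ∀ (p : Par), p.Good → ∀ (X Z : ℕ → ℝ), (∀ k < p.n, lev p Z k) →
  (∀ k < p.n, (con p Z k → |X k - Z k| ≤ Gam p Z k + p.Cs) ∧
    (¬ con p Z k → |X k - Z k| ≤ p.Cs)) →
  ∀ l < p.n, ∀ s ∈ p.Q l, Z l = ev s l Z ∨
    (p.G ≤ p.C ^ p.n * |Z l - ev s l Z| ∧
      |(X l - ev s l X) - (Z l - ev s l Z)| ≤ |Z l - ev s l Z| / 2)

/-- **T7c.** The greedy extension of the empty prefix has small total loss. -/
def S_GRVAL : Prop := ∀ (p : Par), p.Good → ∀ (x : ℕ → ℝ), Sorted p.n x →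
  ∃ Z ∈ DD p, ∑ k ∈ range p.n, lam p x Z k ≤
    ∑ k ∈ range p.n, 8 * p.n * p.R * (p.G * p.K ^ (2 ^ p.n)) * x k

/-- **T7.** The sorted theorem. -/
def S_SORTED : Prop := ∀ (n : ℕ) (Rs : Finset (ℕ → ℝ)) (b : ℝ),
  ∃ (D : Set (ℕ → ℝ)) (h : (ℕ → ℝ) → ℝ) (M : ℝ),
    (∀ Z ∈ D, ∀ k, k + 1 < n → Z (k + 1) ≤ Z k) ∧
    ∀ x : ℕ → ℝ, Sorted n x → ∃ Z ∈ D,
      (∀ Z' ∈ D, ∑ i ∈ range n, Z' i * x i - h Z' ≤ ∑ i ∈ range n, Z i * x i - h Z) ∧
      (∀ i < n, |Z i - Real.log (x i)| ≤ M) ∧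
      (∀ r ∈ Rs, 0 < ev r n Z → b ≤ ev r n Z ∧ ev r n Z ≤ 2 * ev r n (fun i => Real.log (x i))) ∧
      ∑ i ∈ range n, x i * (Real.log (x i) - M) ≤ ∑ i ∈ range n, Z i * x i - h Z ∧
      ∑ i ∈ range n, Z i * x i - h Z ≤ ∑ i ∈ range n, x i * (Real.log (x i) + M)

/-! ### T8 : symmetrisation -/

/-- **T8.** Potentials exist on every face.  From T7 with `n = I.card` and all rearrangements of
the `I`-parts of the vectors of `Rs`: for `x > 0` choose an enumeration `σ_x : Fin n ≃ I` making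
`x ∘ σ_x` non-increasing, `Z` the maximiser for `x ∘ σ_x`, `V x (σ_x k) = Z k`,
`W x = Z ⬝ (x ∘ σ_x) - h Z`.  `sub` is the rearrangement inequality. -/
def S_POT : Prop := ∀ (d : ℕ) (I : Finset (Fin d)) (Rs : Finset (Fin d → ℝ)) (b : ℝ),
  ∃ (M : ℝ) (W : (Fin d → ℝ) → ℝ) (V : (Fin d → ℝ) → (Fin d → ℝ)), IsPotOn I Rs b M W V

/-! ### T9 : the key inequality for weakly reversible networks -/

/-- **T9.** If `v` is compatible with `x` with respect to all differences of complexes, then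
`v ⬝ f(x) ≤ 0`, strictly negative (quantitatively) unless `v` is orthogonal to all reactions.
For a reaction `y → y'` with `a = v ⬝ (y' - y) > 0` take on a path from `y'` back to `y` a reaction
`z → z'` with `v ⬝ z' < v ⬝ z`, `v ⬝ z ≥ v ⬝ y'`.  Then `x^z ≥ x^y e^{a'/4}` with
`a' = v ⬝ (z - y) ≥ a`, so `k_{y→y'} x^y a ≤ (1 / (2 |reactions|)) k_{z→z'} x^z v ⬝ (z - z')`
if `b` is large (`b ≥ 1`, `k_min e^{t/4} ≥ 2 |reactions| k_max t` for `t ≥ b`). -/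
def S_DYN : Prop := ∀ (d : ℕ) (net : Network d) (k : (Fin d → ℕ) × (Fin d → ℕ) → ℝ),
  net.WeaklyReversible → (∀ r ∈ net.reactions, 0 < k r) → ∃ b : ℝ, 0 < b ∧
    ∀ (x v : Fin d → ℝ), (∀ i, 0 < x i) →
      (∀ r ∈ net.diffs, 0 < ∑ i, r i * v i →
        b ≤ ∑ i, r i * v i ∧ ∑ i, r i * v i ≤ 4 * ∑ i, r i * Real.log (x i)) →
      (∀ r ∈ net.reactions, ∑ i, rvec r i * v i = 0) ∨
      ∃ r ∈ net.reactions, ∑ i, v i * net.massAction k x i ≤ -(b / 2 * (k r * ∏ i, x i ^ r.1 i))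

/-! ### T10 : local non-increase -/

/-- **T10.** Abstract local non-increase of a function with selected subgradients.
For `t > t0` close to `t0`, `W (x t) - W p ≤ V (x t) ⬝ (x t - p)`; by the mean value theorem for
`τ ↦ V (x t) ⬝ x τ` this is `(t - t0) V (x t) ⬝ f (x τ)`, which is `0` if `V (x t) ⊥ S` and
`≤ (t - t0) (-a + Bd * ∑ |f (x τ) - f (x t)|) ≤ 0` otherwise. -/
def S_LOCN : Prop := ∀ (d : ℕ) (f : (Fin d → ℝ) → (Fin d → ℝ)) (S : Submodule ℝ (Fin d → ℝ))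
    (W : (Fin d → ℝ) → ℝ) (V : (Fin d → ℝ) → (Fin d → ℝ)) (p : Fin d → ℝ) (a Bd : ℝ),
  Continuous f → (∀ x, f x ∈ S) → 0 < a →
  (∀ᶠ y in 𝓝 p, W y + ∑ i, V y i * (p i - y i) ≤ W p) →
  (∀ᶠ y in 𝓝 p, ∀ i, |V y i| ≤ Bd) →
  (∀ᶠ y in 𝓝 p, (∀ s ∈ S, ∑ i, s i * V y i = 0) ∨ ∑ i, V y i * f y i ≤ -a) →
  ∀ (x : ℝ → (Fin d → ℝ)) (t0 t1 : ℝ), t0 < t1 → IsSol f (Set.Icc t0 t1) x → x t0 = p →
    ∀ᶠ t in 𝓝[>] t0, W (x t) ≤ W p

/-- **T10b.** Potentials are continuous on the open orthant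
(`|W x - W y| ≤ ∑ |V| |x - y|` with `V` locally bounded). -/
def S_CONT : Prop := ∀ (d : ℕ) (I : Finset (Fin d)) (Rs : Finset (Fin d → ℝ)) (b M : ℝ)
    (W : (Fin d → ℝ) → ℝ) (V : (Fin d → ℝ) → (Fin d → ℝ)), IsPotOn I Rs b M W V →
  ContinuousOn W {x | ∀ i, 0 < x i}

/-! ### T11, T12, T13 : invariant sets -/

/-- **T11.** The barrier near the face `I`. `F = {x > 0 : W_I (x ∧ θ) ≤ -η}` where `W_I` is the
potential on `I` for `b_I ≥ b` and `b_I ≥ 4 * (bound for ∑_{j ∉ I} |r_j| |log x_j|)`,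
`r ∈ net.diffs`, for `ρ/2 ≤ x_j ≤ Bd + 1`; `θ = e^{-(M+1)}`;
`(x ∧ θ) i = if i ∈ I then min (x i) θ else x i`;
`η ≤ 1/2 * min (θ, ρ, lower bound of the coordinates on K0)`. -/
def S_FACE : Prop := ∀ (d : ℕ) (net : Network d) (k : (Fin d → ℕ) × (Fin d → ℕ) → ℝ),
  net.WeaklyReversible → (∀ r ∈ net.reactions, 0 < k r) →
  ∀ (K0 : Set (Fin d → ℝ)), IsCompact K0 → (∀ x ∈ K0, ∀ i, 0 < x i) →
  ∀ (I : Finset (Fin d)), I.Nonempty → ∀ (Bd ρ : ℝ), 0 < ρ →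
  ∃ (F : Set (Fin d → ℝ)) (ρ' : ℝ), 0 < ρ' ∧ K0 ⊆ F ∧ (∀ x ∈ F, ∀ i, 0 < x i) ∧
    (∀ x, (∀ i, 0 < x i) → x ∈ closure F → x ∈ F) ∧ (∀ x ∈ F, ∃ i ∈ I, ρ' ≤ x i) ∧
    ∀ p ∈ F, (∀ i, p i ≤ Bd) → (∀ j, j ∉ I → ∃ i ∈ insert j I, ρ ≤ p i) →
      LocInv (net.massAction k) F p

/-- **T12.** The top constraint `F = {x > 0 : W x ≤ c}`, `W` the potential on `univ`. -/
def S_TOP : Prop := ∀ (d : ℕ) (net : Network d) (k : (Fin d → ℕ) × (Fin d → ℕ) → ℝ),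
  net.WeaklyReversible → (∀ r ∈ net.reactions, 0 < k r) →
  ∀ (K0 : Set (Fin d → ℝ)), IsCompact K0 → (∀ x ∈ K0, ∀ i, 0 < x i) →
  ∃ (F : Set (Fin d → ℝ)) (Bd : ℝ), K0 ⊆ F ∧ (∀ x ∈ F, ∀ i, 0 < x i) ∧
    (∀ x, (∀ i, 0 < x i) → x ∈ closure F → x ∈ F) ∧ (∀ x ∈ F, ∀ i, x i ≤ Bd) ∧
    ∀ p ∈ F, LocInv (net.massAction k) F p

/-- **T13.** Compact invariant sets.  Start with `P = F_top`; for `m = d, d-1, …, 1` intersect with
all `F_I`, `I.card = m` (T11 with the `ρ` obtained from the previous step); invariant: every `I`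
with `m ≤ I.card` has `∃ i ∈ I, ρ ≤ x i` on the current `P`, `P` is relatively closed, contains
`K0`, is locally invariant at each of its points.  At the end all coordinates are `≥ ρ` (take `I`
a singleton).  Continuous induction gives `FwdInv`. -/
def S_INV : Prop := ∀ (d : ℕ) (net : Network d) (k : (Fin d → ℕ) × (Fin d → ℕ) → ℝ),
  net.WeaklyReversible → (∀ r ∈ net.reactions, 0 < k r) →
  ∀ (K0 : Set (Fin d → ℝ)), IsCompact K0 → (∀ x ∈ K0, ∀ i, 0 < x i) →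
  ∃ P : Set (Fin d → ℝ), IsCompact P ∧ K0 ⊆ P ∧ (∀ x ∈ P, ∀ i, 0 < x i) ∧
    FwdInv (net.massAction k) P

/-! ### T14, T15 : ODE facts -/

/-- **T14a.** The mass-action field is smooth (polynomial). -/
def S_SMOOTH : Prop := ∀ (d : ℕ) (net : Network d) (k : (Fin d → ℕ) × (Fin d → ℕ) → ℝ),
  ContDiff ℝ 1 (net.massAction k)

/-- **T14b.** Uniqueness for `C^1` fields. -/
def S_UNIQ : Prop := ∀ (d : ℕ) (f : (Fin d → ℝ) → (Fin d → ℝ)), ContDiff ℝ 1 f →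
  ∀ (x y : ℝ → (Fin d → ℝ)) (T : ℝ), IsSol f (Set.Ici 0) x → IsSol f (Set.Ico 0 T) y →
    x 0 = y 0 → ∀ t ∈ Set.Ico 0 T, y t = x t

/-- **T14c.** Global solutions from compact forward invariant sets (cut off `f` outside a box,
Picard-Lindelof on `[0, T]` for every `T`, continuous induction, glue with uniqueness). -/
def S_GLOB : Prop := ∀ (d : ℕ) (f : (Fin d → ℝ) → (Fin d → ℝ)), ContDiff ℝ 1 f →
  ∀ P : Set (Fin d → ℝ), IsCompact P → FwdInv f P → ∀ x0 ∈ P,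
    ∃ x : ℝ → (Fin d → ℝ), x 0 = x0 ∧ IsSol f (Set.Ici 0) x ∧ ∀ t, 0 ≤ t → x t ∈ P

/-- **T15.** Solutions stay in the affine class. -/
def S_CLASS : Prop := ∀ (d : ℕ) (net : Network d) (k : (Fin d → ℕ) × (Fin d → ℕ) → ℝ)
    (x : ℝ → (Fin d → ℝ)), IsSol (net.massAction k) (Set.Ici 0) x →
  ∀ t, 0 ≤ t → x t - x 0 ∈ net.stoich

/-! ### T16, T17 : the absorbing box -/

/-- **T16.** Points of the class where `V x ⊥ S` have bounded logarithms:
`∑ V_j (x_j - c_j) = 0` and `|V_j - X_j| ≤ M` give `∑ (x_j X_j - c_j X_j - M x_j) ≤ M ∑ c_j`, each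
summand is bounded below and tends to `+∞` as `X_j → ± ∞`. -/
def S_BOX : Prop := ∀ (d : ℕ) (net : Network d) (c : Fin d → ℝ) (Rs : Finset (Fin d → ℝ))
    (b M : ℝ) (W : (Fin d → ℝ) → ℝ) (V : (Fin d → ℝ) → (Fin d → ℝ)),
  (∀ i, 0 < c i) → IsPotOn univ Rs b M W V →
  ∃ L : ℝ, ∀ x, (∀ i, 0 < x i) → x - c ∈ net.stoich →
    (∀ r ∈ net.reactions, ∑ i, rvec r i * V x i = 0) → ∀ i, |Real.log (x i)| ≤ L

/-- **T17.** Every solution in a compact subset of the open orthant reaches a point with `V x ⊥ S`: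
otherwise `W (x t)` decreases at a definite rate (mean value theorem on small time steps of uniform
length), contradicting the lower bound for `W`. -/
def S_ENTER : Prop := ∀ (d : ℕ) (net : Network d) (k : (Fin d → ℕ) × (Fin d → ℕ) → ℝ)
    (Rs : Finset (Fin d → ℝ)) (b b' M : ℝ) (W : (Fin d → ℝ) → ℝ) (V : (Fin d → ℝ) → (Fin d → ℝ))
    (P : Set (Fin d → ℝ)) (x : ℝ → (Fin d → ℝ)),
  (∀ r ∈ net.reactions, 0 < k r) → 0 < b → IsPotOn univ Rs b' M W V →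
  (∀ y, (∀ i, 0 < y i) → (∀ r ∈ net.reactions, ∑ i, rvec r i * V y i = 0) ∨
    ∃ r ∈ net.reactions, ∑ i, V y i * net.massAction k y i ≤ -(b / 2 * (k r * ∏ i, y i ^ r.1 i))) →
  IsCompact P → (∀ y ∈ P, ∀ i, 0 < y i) → IsSol (net.massAction k) (Set.Ici 0) x →
  (∀ t, 0 ≤ t → x t ∈ P) →
  ∃ t, 0 ≤ t ∧ ∀ r ∈ net.reactions, ∑ i, rvec r i * V (x t) i = 0

/-! ### T18 : the theorem -/

/-- **T18.** The permanence conjecture. -/
def S_FINAL : Prop := ∀ (d : ℕ) (net : Network d) (k : (Fin d → ℕ) × (Fin d → ℕ) → ℝ),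
  net.WeaklyReversible → (∀ r ∈ net.reactions, 0 < k r) →
  ∀ c : Fin d → ℝ, (∀ i, 0 < c i) → PermanentOn (net.massAction k) (net.posClass c)

end P072
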