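import Vale.Agent.P072.Barrier

/-!
# P072, T11 and T12 : the barriers for the mass-action field
-/

namespace P072

open Finset Filter Topology

lemma exists_pos_le {α : Type*} (s : Finset α) (g : α → ℝ) (hg : ∀ r ∈ s, 0 < g r) :
    ∃ a : ℝ, 0 < a ∧ ∀ r ∈ s, a ≤ g r := by
  classical
  induction s using Finset.induction_on with
  | empty => exact ⟨1, one_pos, by simp⟩
  | insert r s hr ih =>
    obtain ⟨a, ha, ha'⟩ := ih fun r' hr' => hg r' (Finset.mem_insert_of_mem hr')
    refine ⟨min a (g r), lt_min ha (hg r (Finset.mem_insert_self _ _)), ?_⟩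
    intro r' hr'
    rw [Finset.mem_insert] at hr'
    rcases hr' with rfl | hr'
    · exact min_le_right _ _
    · exact (min_le_left _ _).trans (ha' r' hr')

lemma massAction_continuous {d : ℕ} (net : Network d) (k : (Fin d → ℕ) × (Fin d → ℕ) → ℝ) :
    Continuous (net.massAction k) := by
  unfold Network.massAction
  fun_prop

lemma massAction_mem {d : ℕ} (net : Network d) (k : (Fin d → ℕ) × (Fin d → ℕ) → ℝ)
    (x : Fin d → ℝ) : net.massAction k x ∈ net.stoich := by
  unfold Network.massAction Network.stoich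
  apply Submodule.sum_mem
  intro r hr
  exact Submodule.smul_mem _ _ (Submodule.subset_span ⟨r, hr, rfl⟩)

lemma stoich_orth {d : ℕ} (net : Network d) (v : Fin d → ℝ)
    (h : ∀ r ∈ net.reactions, ∑ i, rvec r i * v i = 0) :
    ∀ s ∈ net.stoich, ∑ i, s i * v i = 0 := by
  intro s hs
  unfold Network.stoich at hs
  induction hs using Submodule.span_induction with
  | mem x hx =>
    obtain ⟨r, hr, rfl⟩ := hx
    exact h r hr
  | zero => simp
  | add x y _ _ hx hy =>
    have : ∑ i, (x + y) i * v i = ∑ i, x i * v i + ∑ i, y i * v i := by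
      rw [← Finset.sum_add_distrib]
      exact Finset.sum_congr rfl fun i _ => by rw [Pi.add_apply]; ring
    rw [this, hx, hy, add_zero]
  | smul a x _ hx =>
    have : ∑ i, (a • x) i * v i = a * ∑ i, x i * v i := by
      rw [Finset.mul_sum]
      exact Finset.sum_congr rfl fun i _ => by rw [Pi.smul_apply, smul_eq_mul]; ring
    rw [this, hx, mul_zero]

/-- near `p > 0` the selected subgradient of a potential is bounded -/
lemma pot_bdd {d : ℕ} {I : Finset (Fin d)} {Rs : Finset (Fin d → ℝ)} {b M : ℝ}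
    {W : (Fin d → ℝ) → ℝ} {V : (Fin d → ℝ) → (Fin d → ℝ)} (hpot : IsPotOn I Rs b M W V)
    {p : Fin d → ℝ} (hp : ∀ i, 0 < p i) :
    ∃ Bd : ℝ, ∀ᶠ y in 𝓝 p, ∀ i, |V y i| ≤ Bd := by
  refine ⟨|M| + 1 + ∑ j, |Real.log (p j)|, ?_⟩
  have h1 : ∀ᶠ y in 𝓝 p, ∀ i, |Real.log (y i)| < |Real.log (p i)| + 1 := by
    rw [Filter.eventually_all]
    intro i
    have h2 : ContinuousAt (fun y : Fin d → ℝ => |Real.log (y i)|) p :=
      ((Real.continuousAt_log (hp i).ne').comp (f := fun y : Fin d → ℝ => y i)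
        (continuous_apply i).continuousAt).abs
    exact h2.eventually (gt_mem_nhds (by linarith))
  filter_upwards [eventually_pos hp, h1] with y hy hy1 i
  have h3 : |Real.log (p i)| ≤ ∑ j, |Real.log (p j)| :=
    Finset.single_le_sum (f := fun j => |Real.log (p j)|) (fun j _ => abs_nonneg _)
      (Finset.mem_univ i)
  by_cases hi : i ∈ I
  · have h4 := hpot.near y hy i hi
    have h5 : |V y i| ≤ |V y i - Real.log (y i)| + |Real.log (y i)| := by
      have := abs_add_le (V y i - Real.log (y i)) (Real.log (y i))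
      rwa [sub_add_cancel] at this
    have h6 := hy1 i
    have h7 := le_abs_self M
    linarith
  · rw [hpot.supp y i hi, abs_zero]
    have := abs_nonneg M
    have := abs_nonneg (Real.log (p i))
    linarith

/-- near `p > 0` the monomials are bounded below -/
lemma mono_lower {d : ℕ} (net : Network d) (g : (Fin d → ℕ) × (Fin d → ℕ) → ℝ) (b : ℝ)
    (hb : 0 < b) (hg : ∀ r ∈ net.reactions, 0 < g r) {p : Fin d → ℝ} (hp : ∀ i, 0 < p i) :
    ∃ a : ℝ, 0 < a ∧ ∀ᶠ y in 𝓝 p, ∀ r ∈ net.reactions,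
      a ≤ b / 2 * (g r * ∏ i, y i ^ r.1 i) := by
  have hpos : ∀ r ∈ net.reactions, 0 < b / 2 * (g r * ∏ i, p i ^ r.1 i) := fun r hr =>
    mul_pos (by linarith) (mul_pos (hg r hr) (Finset.prod_pos fun i _ => pow_pos (hp i) _))
  obtain ⟨a, ha, ha'⟩ := exists_pos_le net.reactions _ hpos
  refine ⟨a / 2, by linarith, ?_⟩
  rw [Filter.eventually_all_finset]
  intro r hr
  have hc : Continuous fun y : Fin d → ℝ => b / 2 * (g r * ∏ i, y i ^ r.1 i) := by fun_prop
  have h1 : ∀ᶠ y in 𝓝 p, a / 2 < b / 2 * (g r * ∏ i, y i ^ r.1 i) :=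
    hc.continuousAt.eventually (lt_mem_nhds (by linarith [ha' r hr]))
  filter_upwards [h1] with y hy using hy.le

theorem absDec_of (hLOCN : S_LOCN) {d : ℕ} (net : Network d)
    (k : (Fin d → ℕ) × (Fin d → ℕ) → ℝ) (hk : ∀ r ∈ net.reactions, 0 < k r) (b : ℝ) (hb : 0 < b)
    (hdyn : ∀ (x v : Fin d → ℝ), (∀ i, 0 < x i) →
      (∀ r ∈ net.diffs, 0 < ∑ i, r i * v i →
        b ≤ ∑ i, r i * v i ∧ ∑ i, r i * v i ≤ 4 * ∑ i, r i * Real.log (x i)) →
      (∀ r ∈ net.reactions, ∑ i, rvec r i * v i = 0) ∨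
      ∃ r ∈ net.reactions, ∑ i, v i * net.massAction k x i ≤
        -(b / 2 * (k r * ∏ i, x i ^ r.1 i))) :
    AbsDec net b (fun x t0 t1 => IsSol (net.massAction k) (Set.Icc t0 t1) x) := by
  intro I b' M W V p hp hpot hcomp x t0 t1 ht hx hxp
  obtain ⟨Bd, hBd⟩ := pot_bdd hpot hp
  obtain ⟨a, ha, ha'⟩ := mono_lower net k b hb hk hp
  refine hLOCN d (net.massAction k) net.stoich W V p a Bd (massAction_continuous net k)
    (massAction_mem net k) ha ?_ hBd ?_ x t0 t1 ht hx hxp
  · filter_upwards [eventually_pos hp] with y hy using hpot.sub y p hy hp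
  · filter_upwards [eventually_pos hp, hcomp, ha'] with y hy hc h1
    rcases hdyn y (V y) hy hc with h2 | ⟨r, hr, h2⟩
    · exact Or.inl (stoich_orth net (V y) h2)
    · exact Or.inr (h2.trans (by linarith [h1 r hr]))

lemma IsSol.contOn {d : ℕ} {f : (Fin d → ℝ) → (Fin d → ℝ)} {J : Set ℝ} {x : ℝ → (Fin d → ℝ)}
    (h : IsSol f J x) : ContinuousOn x J := fun t ht => (h t ht).continuousWithinAt

theorem top (hPOT : S_POT) (hDYN : S_DYN) (hLOCN : S_LOCN) : S_TOP := by
  intro d net k hwr hk K0 hK hKpos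
  obtain ⟨b, hb, hdyn⟩ := hDYN d net k hwr hk
  obtain ⟨F, Bd, h1, h2, h3, h4, h5⟩ := absTop hPOT net b
    (fun x t0 t1 => IsSol (net.massAction k) (Set.Icc t0 t1) x)
    (fun x t0 t1 _ h => h.contOn) (absDec_of hLOCN net k hk b hb hdyn) K0 hK hKpos
  exact ⟨F, Bd, h1, h2, h3, h4, fun p hp x t0 t1 ht hx hxp => h5 p hp x t0 t1 ht hx hxp⟩

end P072
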